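import Crest.Agent.R296.Glue

/-!
# R296 (S0448): amalgamation over a principal ideal, and the zigzag  (TASK R296/Amalg)

Read `Cond.lean` and `Glue.lean` first.  Write `π := g.pre.π`, `g' y := g (cut Q₂ x y)`.

**Amalgam.** Carrier `M = {(y₁,y₂) : Q₁ × Q₂ | (π y₁).1 = y₂ ⊓ x}` (closed under `⊓` by `π_inf`,
contains `⊤` by `π_top`), *pruned*: keep only the points `d` such that
`RuleE (i₂ a) (i₂ y) (i₂ v) d` for every `Q₂.D.Val a y v ξ Z` and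
`RuleU (i₂ '' W) (i₂ '' B) (i₂ '' Y) d` for every `Q₂.D.Prom W B Y`, these rules being read in
`Q₁ × Q₂` with `i₂ y = (g' y, y)` (closed under `⊓`, `⊤` by `RuleE.inf/top`, `RuleU.inf/top`;
use `Subtype.semilatticeInf`, `Subtype.orderTop`).  `i₁ y = (y, (π y).1)`.
Adjoints: first and second projection.  `i₁` is an ideal embedding
(`d ⊓ i₁ y = i₁ (d.1 ⊓ y)`), so `push_ok_of_ideal` applies; `i₂` is lawful by the pruning.
* `i₂ y` is not pruned: `RuleE.image`, `RuleU.image` (first for the unpruned fibre product or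
  by hand).
* `i₁ y` is not pruned. (E): `i₂ a ≤ i₁ y` gives `a ≤ π y ≤ x`; `val_dichotomy` at `x`: if
  `x ⊓ v = y₀` then `i₁ y ⊓ i₂ v = i₂ y₀`; if `v ≤ x`, carry the value by `cut_value` and `g` to
  `Q₁` and use (E) of `Q₁` at `y`.  (U): `B ≤ π y ≤ x`; carry by `cut_prom` and `g`; (U) of `Q₁`
  at `y` gives `g' w ≤ y` or `y ⊓ g' w ≤ g' y'`.  In the second case `i₁ y ⊓ i₂ w ≤ i₂ y'`
  (apply `π`).  In the first case use (U) of `Q₂` at `π y`: either `w' ≤ π y`, done, or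
  `π y ⊓ w' ≤ y'`; take `w'' ≤ w, w'` in `W`; then `i₁ y ⊓ i₂ w'' ≤ i₂ y'`.
* Data: `(Q₁.D.push i₁).union (Q₂.D.push i₂)`; `cross_push`: `i₁ y₁ = i₂ y₂` (or only
  `i₂ y₂ ≤ i₁ y₁`) gives `y₂ ≤ x`, and for `y₂ ≤ x` one has `i₂ y₂ = i₁ (g' y₂)`; so carry the
  item of `Q₂` to `Q₁` (`cut_tag, cut_u, cut_value, cut_prom` and `g`) and use the law of `Q₁`.
  `val_fun`: the hypothesis at `d = i₁ ⊤` gives `v₂ ≤ x`.  `val_I`: `val_dichotomy` at `x`; if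
  `x ⊓ v₂ = x₂` then `i₁ v₁ ⊓ i₂ v₂ = i₁ v₁ ⊓ (i₁ ⊤ ⊓ i₂ v₂) = i₁ v₁ ⊓ i₂ x₂ = i₁ x₁`.
  `val_tail`: `val_eventually_le`.  `inv'` (promise of `Q₂`, pair of `Q₁`): `B ≤ x`, carry,
  and `i₁ a₁ ≤ i₂ w` gives `a₁ ≤ g' w`.

**Zigzag.** `d := c ⊓ c'`.  `M = {(y₁,y₂) : Q × Q | y₁ ⊓ c' = y₂ ⊓ c'}`, `i₁ y = (y, y ⊓ c')`,
`i₂ y = (y ⊓ c', y)`; both are ideal embeddings, so nothing is pruned (it is the amalgam above for
`Q₁ = Q₂ = Q`, `x = c'`, `g = incl`; use it or redo it), `j = (c, c)`.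
Given `k₁ k₂ : Q ⟶ S` agreeing below `d`, let `N` be the amalgam above for `Q₂ = res Q c`,
`x = cut Q c c'`, `Q₁ = S`, `g = incl ≫ incl ≫ k₁` (`= incl ≫ incl ≫ k₂`), `n = i₁`, `n₂ = i₂` of
`N`, and `ε_t (p₁,p₂) = (k_t p₁, p₂)` for `p₁, p₂ ≤ c`.  It lies in the fibre product since
`π_g s = π_{k_t} s ⊓ d` (`IsPre.π_eq`); it is not pruned since
`ε_t p ⊓ n₂ y = n₂ (p₂ ⊓ y)` (`RuleE.image_of`, `RuleU.image_of` or by hand).
Adjoint of `ε_t`: `(s, y) ↦ (π_{k_t} s ⊓ c, y)`.  `ε_t (i₁ p) = n (k_t p)`, `ε_t (i₂ p) = n₂ p`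
for `p ≤ c`.  Preservation of data: an item of `res M j` is an item of a push-forward along
`i₁` or `i₂` all of whose points are `≤ j`; `i_s y ≤ j ↔ y ≤ c` and `i_s y ⊓ j = i_s (y ⊓ c)`;
values: `Z =ᶠ i_s ∘ Z₀`, use `cut_value` / `val_congr`; promises `(i_s W ⊓ m, i_s B, i_s Y ⊓ m)`
below `j` equal `(i_s (W ⊓ c) ⊓ (m ⊓ j), …)`, use `cut_prom` / `prom_res` and `prom_res` in `N`.
You may split this file (e.g. `Amalg.lean` + `Zigzag.lean` imported here or the other way round);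
both theorems must be available from `import Crest.Agent.R296.Amalg`.
-/

set_option autoImplicit false

open CategoryTheory Filter Set

namespace Crest.Agent.R296

open Cond

section gen

variable {α β γ : Type}

theorem RuleE.of_pt [SemilatticeInf α] [SemilatticeInf β] {f : α → β} {a x v w : α} {d : β}
    (h : RuleE a x v w) (hle : ∀ y, f y ≤ d ↔ y ≤ w) (hd : d ⊓ f v = f (w ⊓ v)) :
    RuleE (f a) (f x) (f v) d := by
  intro ha hne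
  refine (hle _).2 (h ((hle _).1 ha) fun e => hne ?_)
  rw [hd, e]

theorem RuleU.of_pt [SemilatticeInf α] [SemilatticeInf β] {f : α → β} (hf : Monotone f)
    {W B Y : Set α} {w : α} {d : β} (h : RuleU W B Y w) (hle : ∀ y, f y ≤ d ↔ y ≤ w)
    (hd : ∀ u, d ⊓ f u = f (w ⊓ u)) : RuleU (f '' W) (f '' B) (f '' Y) d := by
  intro hB
  rcases h (fun b hb => (hle _).1 (hB _ ⟨b, hb, rfl⟩)) with ⟨u, hu, h1⟩ | ⟨u, hu, y, hy, h1⟩
  · exact Or.inl ⟨_, ⟨u, hu, rfl⟩, (hle _).2 h1⟩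
  · refine Or.inr ⟨_, ⟨u, hu, rfl⟩, _, ⟨y, hy, rfl⟩, ?_⟩
    rw [hd]
    exact hf h1

/-- Pull-back of data. -/
def Data.comap (D : Data β) (f : α → β) : Data α where
  Tag c ξ e := D.Tag (f c) ξ (f e)
  U a y := D.U (f a) (f y)
  Val a y v ξ Z := D.Val (f a) (f y) (f v) ξ (fun n => f (Z n))
  Prom W B Y := D.Prom (f '' W) (f '' B) (f '' Y)

theorem Data.Hom.of_union {D₁ D₂ : Data α} {D : Data β} {f : α → β} (h₁ : D₁.Hom D f)
    (h₂ : D₂.Hom D f) : (D₁.union D₂).Hom D f :=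
  ⟨fun t => t.elim h₁.tag h₂.tag, fun t => t.elim h₁.u h₂.u, fun t => t.elim h₁.val h₂.val,
    fun t => t.elim h₁.prom h₂.prom⟩

end gen

/-- A map on a principal ideal preserves the restriction of push-forward data. -/
theorem hom_comap_push {Q M N : Cond} {e : Q → M} {c : Q} {j : M} {ε : res M j → N}
    (hε : IsPre ε) (φ : res Q c ⟶ N) (h1 : ∀ y, e y ≤ j → y ≤ c)
    (h2 : ∀ y, ε (cut M j (e y)) = φ (cut Q c y)) :
    ((Q.D.push e).comap (incl M j)).Hom N.D ε := by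
  have h3 : ∀ (p : res M j) (y : Q), incl M j p = e y → ε p = φ (cut Q c y) := by
    intro p y hp
    rw [← h2, ← hp, incl_apply, cut_of_res]
  have h4 : ∀ (p : res M j) (y : Q), incl M j p = e y → y ≤ c := fun p y hp =>
    h1 y (hp ▸ res_le p)
  have h5 : ∀ (W : Set (res M j)) (W₀ : Set Q) (m : M),
      incl M j '' W = (fun w => e w ⊓ m) '' W₀ →
      ε '' W = (· ⊓ ε (cut M j m)) '' (φ '' (cut Q c '' W₀)) := by
    intro W W₀ m hW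
    have e1 : W = cut M j '' (incl M j '' W) := by
      simp only [image_image, incl_apply, cut_of_res, image_id']
    rw [e1, hW]
    simp only [image_image, cut_inf, hε.map_inf, h2]
  refine ⟨?_, ?_, ?_, ?_⟩
  · rintro p ξ q ⟨c₀, d₀, h, e1, e2⟩
    rw [h3 _ _ e1, h3 _ _ e2]
    exact map_tag φ (cut_tag h (h4 _ _ e1))
  · rintro p q ⟨c₀, d₀, h, e1, e2⟩
    rw [h3 _ _ e1, h3 _ _ e2]
    exact map_u φ (cut_u h (h4 _ _ e1))
  · rintro p q v ξ Z ⟨a₀, x₀, v₀, Z₀, h, e1, e2, e3, e4⟩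
    rw [h3 _ _ e1, h3 _ _ e2, h3 _ _ e3]
    exact N.ok.val_congr (map_val φ (cut_value h (h4 _ _ e1) (h4 _ _ e3)))
      (e4.mono fun n hn => (h3 _ _ hn).symm)
  · rintro W B Y ⟨W₀, B₀, Y₀, m, h, hm, e1, e2, e3⟩
    have hB : ∀ b ∈ B₀, b ≤ c := by
      intro b hb
      have : e b ∈ incl M j '' B := e2 ▸ ⟨b, hb, rfl⟩
      obtain ⟨p, -, hp⟩ := this
      exact h4 p b hp
    have e4 : ε '' B = φ '' (cut Q c '' B₀) := by
      have e5 : B = cut M j '' (incl M j '' B) := by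
        simp only [image_image, incl_apply, cut_of_res, image_id']
      rw [e5, e2]
      simp only [image_image, h2]
    rw [h5 _ _ _ e1, h5 _ _ _ e3, e4]
    refine N.ok.prom_res (map_prom φ (cut_prom h hB)) _ ?_
    rintro _ ⟨_, ⟨b, hb, rfl⟩, rfl⟩
    rw [← h2]
    exact hε.mono (inf_le_inf_right j (hm b hb))

namespace Am

variable {Q₂ : Cond} {x : Q₂} {Q₁ : Cond} (g : res Q₂ x ⟶ Q₁)

/-- `g' y = g (y ⊓ x)`. -/
def G (y : Q₂) : Q₁ := g (cut Q₂ x y)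

/-- The adjoint of `g`, read in `Q₂`. -/
noncomputable def P (s : Q₁) : Q₂ := (g.pre.π s).1

theorem G_inf (y y' : Q₂) : G g (y ⊓ y') = G g y ⊓ G g y' := by
  rw [G, cut_inf, Cond.map_inf]
  rfl

theorem G_mono : Monotone (G g) := fun y y' h => by
  rw [← inf_eq_left, ← G_inf, inf_eq_left.2 h]

theorem G_inf_x (y : Q₂) : G g (y ⊓ x) = G g y := by
  unfold G
  congr 1
  exact res_ext (by simp)

theorem P_inf (s s' : Q₁) : P g (s ⊓ s') = P g s ⊓ P g s' := by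
  rw [P, g.pre.π_inf]
  rfl

theorem P_mono : Monotone (P g) := fun _ _ h => g.pre.π_mono h

theorem P_le (s : Q₁) : P g s ≤ x := res_le _

theorem P_top : P g ⊤ = x := by
  rw [P, g.pre.π_top]
  rfl

theorem P_G (y : Q₂) : P g (G g y) = y ⊓ x := congrArg Subtype.val (g.pre.π_map (cut Q₂ x y))

theorem G_le {y : Q₂} {s : Q₁} : G g y ≤ s ↔ y ⊓ x ≤ P g s := g.pre.le_π.symm

theorem G_tag {c e : Q₂} {ξ : Xi} (h : Q₂.D.Tag c ξ e) (hc : c ≤ x) :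
    Q₁.D.Tag (G g c) ξ (G g e) := map_tag g (cut_tag h hc)

theorem G_u {a y : Q₂} (h : Q₂.D.U a y) (ha : a ≤ x) : Q₁.D.U (G g a) (G g y) :=
  map_u g (cut_u h ha)

theorem G_val {a y v : Q₂} {ξ : Xi} {Z : ℕ → Q₂} (h : Q₂.D.Val a y v ξ Z) (ha : a ≤ x)
    (hv : v ≤ x) : Q₁.D.Val (G g a) (G g y) (G g v) ξ (fun n => G g (Z n)) :=
  map_val g (cut_value h ha hv)

theorem G_prom {W B Y : Set Q₂} (h : Q₂.D.Prom W B Y) (hB : ∀ b ∈ B, b ≤ x) :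
    Q₁.D.Prom (G g '' W) (G g '' B) (G g '' Y) := by
  have := map_prom g (cut_prom h hB)
  simp only [image_image] at this
  exact this

/-- The second embedding, read in the product. -/
def j₂ (y : Q₂) : Q₁ × Q₂ := (G g y, y)

theorem j₂_mono : Monotone (j₂ g) := fun _ _ h => ⟨G_mono g h, h⟩

/-- The points of the amalgam. -/
structure Mem (d : Q₁ × Q₂) : Prop where
  fib : P g d.1 = d.2 ⊓ x
  E : ∀ a y v ξ Z, Q₂.D.Val a y v ξ Z → RuleE (j₂ g a) (j₂ g y) (j₂ g v) d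
  U : ∀ W B Y, Q₂.D.Prom W B Y → RuleU (j₂ g '' W) (j₂ g '' B) (j₂ g '' Y) d

theorem mem_inf (d d' : Q₁ × Q₂) (h : Mem g d) (h' : Mem g d') : Mem g (d ⊓ d') where
  fib := by
    change P g (d.1 ⊓ d'.1) = d.2 ⊓ d'.2 ⊓ x
    rw [P_inf, h.fib, h'.fib, inf_inf_distrib_right d.2 d'.2 x]
  E a y v ξ Z hv := RuleE.inf (j₂_mono g (Q₂.ok.val_xa hv)) (h.E _ _ _ _ _ hv) (h'.E _ _ _ _ _ hv)
  U W B Y hp := RuleU.inf (by
    rintro _ ⟨w, hw, rfl⟩ _ ⟨w', hw', rfl⟩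
    obtain ⟨w'', hw'', h1, h2⟩ := Q₂.ok.prom_dir hp w hw w' hw'
    exact ⟨_, ⟨w'', hw'', rfl⟩, j₂_mono g h1, j₂_mono g h2⟩) (h.U _ _ _ hp) (h'.U _ _ _ hp)

theorem mem_top : Mem g ⊤ where
  fib := by
    change P g ⊤ = ⊤ ⊓ x
    rw [P_top, top_inf_eq]
  E _ _ _ _ _ _ := RuleE.top _ _ _
  U _ _ _ hp := RuleU.top ((Q₂.ok.prom_ne hp).image _)

theorem j₂_le {d : Q₁ × Q₂} (h : P g d.1 = d.2 ⊓ x) (y : Q₂) : j₂ g y ≤ d ↔ y ≤ d.2 :=
  ⟨fun h1 => h1.2, fun h1 => ⟨(G_le g).2 (h ▸ inf_le_inf_right x h1), h1⟩⟩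

/-- Points of the fibre product whose meets with the image of `j₂` are computed through the
adjoint are not pruned. -/
theorem mem_of {d : Q₁ × Q₂} (h : P g d.1 = d.2 ⊓ x) (hd : ∀ u, d.1 ⊓ G g u = G g (d.2 ⊓ u)) :
    Mem g d :=
  have hd' : ∀ u, d ⊓ j₂ g u = j₂ g (d.2 ⊓ u) := fun u => Prod.ext (hd u) rfl
  ⟨h, fun _ _ _ _ _ hv => RuleE.of_pt (Q₂.ok.val_E hv _) (j₂_le g h) (hd' _),
    fun _ _ _ hp => RuleU.of_pt (j₂_mono g) (Q₂.ok.prom_U hp _) (j₂_le g h) hd'⟩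

theorem mem_j₂ (y : Q₂) : Mem g (j₂ g y) := mem_of g (P_G g y) fun u => (G_inf g y u).symm

theorem mem_j₁ (s : Q₁) : Mem g (s, P g s) := by
  have hfib : P g s = P g s ⊓ x := (inf_eq_left.2 (P_le g s)).symm
  refine ⟨hfib, ?_, ?_⟩
  · intro a y v ξ Z hv ha hne
    have ha1 : G g a ≤ s := ha.1
    have ha2 : a ≤ P g s := ha.2
    have hax : a ≤ x := ha2.trans (P_le g s)
    have hya := Q₂.ok.val_xa hv
    rcases val_dichotomy hv hax with e | hvx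
    · refine absurd (Prod.ext ?_ ?_) hne
      · change s ⊓ G g v = G g y
        rw [← G_inf_x g v, inf_comm v, e]
        exact inf_eq_right.2 ((G_mono g hya).trans ha1)
      · change P g s ⊓ v = y
        rw [hfib, inf_assoc, e]
        exact inf_eq_right.2 (hya.trans ha2)
    · have h1 : G g v ≤ s := by
        refine Q₁.ok.val_E (G_val g hv hax hvx) s ha1 fun e => hne (Prod.ext e ?_)
        have := congrArg (P g) e
        rwa [P_inf, P_G, P_G, inf_eq_left.2 hvx, inf_eq_left.2 (hya.trans hax)] at this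
      refine ⟨h1, ?_⟩
      have := (G_le g).1 h1
      rwa [inf_eq_left.2 hvx] at this
  · intro W B Y hp hB
    have hB1 : ∀ b ∈ B, G g b ≤ s := fun b hb => (hB _ ⟨b, hb, rfl⟩).1
    have hB2 : ∀ b ∈ B, b ≤ P g s := fun b hb => (hB _ ⟨b, hb, rfl⟩).2
    have hBx : ∀ b ∈ B, b ≤ x := fun b hb => (hB2 b hb).trans (P_le g s)
    rcases Q₁.ok.prom_U (G_prom g hp hBx) s (by rintro _ ⟨b, hb, rfl⟩; exact hB1 b hb) with
      ⟨_, ⟨w, hw, rfl⟩, h1⟩ | ⟨_, ⟨w, hw, rfl⟩, _, ⟨y, hy, rfl⟩, h1⟩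
    · rcases Q₂.ok.prom_U hp (P g s) hB2 with ⟨w', hw', h2⟩ | ⟨w', hw', y, hy, h2⟩
      · exact Or.inl ⟨_, ⟨w', hw', rfl⟩, (j₂_le g (d := (s, P g s)) hfib w').2 h2⟩
      · obtain ⟨w'', hw'', h3, h4⟩ := Q₂.ok.prom_dir hp w hw w' hw'
        refine Or.inr ⟨_, ⟨w'', hw'', rfl⟩, _, ⟨y, hy, rfl⟩, ?_, ?_⟩
        · change s ⊓ G g w'' ≤ G g y
          refine inf_le_right.trans ?_
          rw [← G_inf_x g w'']
          refine G_mono g (le_trans (le_inf ?_ (inf_le_left.trans h4)) h2)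
          exact (G_le g).1 ((G_mono g h3).trans h1)
        · exact (inf_le_inf_left _ h4).trans h2
    · refine Or.inr ⟨_, ⟨w, hw, rfl⟩, _, ⟨y, hy, rfl⟩, h1, ?_⟩
      change P g s ⊓ w ≤ y
      have := P_mono g h1
      rw [P_inf, P_G, P_G] at this
      refine le_trans (le_inf inf_le_left (le_inf inf_le_right ?_)) (this.trans inf_le_left)
      exact inf_le_left.trans (P_le g s)

/-- The carrier of the amalgam. -/
def Car : Type := {d : Q₁ × Q₂ // Mem g d}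

instance : SemilatticeInf (Car g) := Subtype.semilatticeInf (mem_inf g)

instance : OrderTop (Car g) := Subtype.orderTop (mem_top g)

instance : Countable (Car g) := Subtype.countable

theorem car_le {d d' : Car g} : d ≤ d' ↔ d.1.1 ≤ d'.1.1 ∧ d.1.2 ≤ d'.1.2 := Iff.rfl

theorem car_ext {d d' : Car g} (h1 : d.1.1 = d'.1.1) (h2 : d.1.2 = d'.1.2) : d = d' :=
  Subtype.ext (Prod.ext h1 h2)

/-- The first embedding. -/
noncomputable def e₁ (s : Q₁) : Car g := ⟨(s, P g s), mem_j₁ g s⟩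

/-- The second embedding. -/
def e₂ (y : Q₂) : Car g := ⟨j₂ g y, mem_j₂ g y⟩

theorem e₁_le {s : Q₁} {d : Car g} : e₁ g s ≤ d ↔ s ≤ d.1.1 :=
  ⟨fun h => h.1, fun h => ⟨h, ((P_mono g h).trans_eq d.2.fib).trans inf_le_left⟩⟩

theorem e₂_le {y : Q₂} {d : Car g} : e₂ g y ≤ d ↔ y ≤ d.1.2 := j₂_le g d.2.fib y

theorem e₁_pre : IsPre (e₁ g) :=
  ⟨fun _ _ h => congrArg (fun d : Car g => d.1.1) h, fun s s' => car_ext g rfl (P_inf g s s'),
    fun d => ⟨d.1.1, fun _ => e₁_le g⟩⟩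

theorem e₂_pre : IsPre (e₂ g) :=
  ⟨fun _ _ h => congrArg (fun d : Car g => d.1.2) h, fun y y' => car_ext g (G_inf g y y') rfl,
    fun d => ⟨d.1.2, fun _ => e₂_le g⟩⟩

theorem push₁_ok : (Q₁.D.push (e₁ g)).OK := by
  refine Data.push_ok_of_ideal Q₁.ok (e₁_pre g) fun d s => ?_
  rw [(e₁_pre g).π_eq (w := d.1.1) fun _ => e₁_le g]
  refine car_ext g rfl ?_
  change d.1.2 ⊓ P g s = P g (d.1.1 ⊓ s)
  rw [P_inf, d.2.fib, inf_assoc, inf_eq_right.2 (P_le g s)]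

theorem push₂_ok : (Q₂.D.push (e₂ g)).OK := by
  refine Data.push_ok Q₂.ok (e₂_pre g) ?_ ?_
  · intro a y v ξ Z hv d ha hne
    exact d.2.E _ _ _ _ _ hv ha fun e => hne (Subtype.ext e)
  · intro W B Y hp d hB
    rcases d.2.U _ _ _ hp (by rintro _ ⟨b, hb, rfl⟩; exact hB _ ⟨b, hb, rfl⟩) with
      ⟨_, ⟨w, hw, rfl⟩, h1⟩ | ⟨_, ⟨w, hw, rfl⟩, _, ⟨y, hy, rfl⟩, h1⟩
    · exact Or.inl ⟨_, ⟨w, hw, rfl⟩, h1⟩
    · exact Or.inr ⟨_, ⟨w, hw, rfl⟩, _, ⟨y, hy, rfl⟩, h1⟩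

theorem le_x_of_le {s : Q₁} {y : Q₂} (h : e₂ g y ≤ e₁ g s) : y ≤ x := h.2.trans (P_le g s)

theorem le_x_of_eq {s : Q₁} {y : Q₂} (h : e₁ g s = e₂ g y) : y ≤ x := le_x_of_le g h.ge

theorem eq_G_of_eq {s : Q₁} {y : Q₂} (h : e₁ g s = e₂ g y) : s = G g y :=
  congrArg (fun d : Car g => d.1.1) h

theorem e₁_G {y : Q₂} (h : y ≤ x) : e₁ g (G g y) = e₂ g y :=
  car_ext g rfl ((P_G g y).trans (inf_eq_left.2 h))

theorem e₁_top_inf (y : Q₂) : e₁ g ⊤ ⊓ e₂ g y = e₂ g (x ⊓ y) := by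
  refine car_ext g ?_ ?_
  · change ⊤ ⊓ G g y = G g (x ⊓ y)
    rw [top_inf_eq, inf_comm, G_inf_x]
  · change P g ⊤ ⊓ y = x ⊓ y
    rw [P_top]

theorem cross : Cross (Q₁.D.push (e₁ g)) (Q₂.D.push (e₂ g)) := by
  apply cross_push
  · intro c ξ d c' d' h h' e
    have hc := le_x_of_eq g e
    obtain rfl := eq_G_of_eq g e
    rw [Q₁.ok.tag_fun h (G_tag g h' hc), e₁_G g ((Q₂.ok.tag_le h').trans hc)]
  · intro a y v ξ Z a' y' v' Z' h h' ea ey hc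
    have hv : v' ≤ x :=
      le_x_of_le g ((hc (e₁ g ⊤) ((e₁_pre g).mono le_top)).1 ((e₁_pre g).mono le_top))
    have ha := le_x_of_eq g ea
    obtain rfl := eq_G_of_eq g ea
    obtain rfl := eq_G_of_eq g ey
    rw [← e₁_G g hv] at hc ⊢
    rw [Q₁.ok.val_fun h (G_val g h' ha hv) fun c hac => by
      simpa only [(e₁_pre g).le_iff] using hc (e₁ g c) ((e₁_pre g).mono hac)]
  · intro a y v ξ Z a' y' v' ξ' Z' h h' ea ey hne
    have ha := le_x_of_eq g ea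
    rcases val_dichotomy h' ha with e | hv
    · have e1 : e₁ g v = e₁ g v ⊓ e₁ g ⊤ := (inf_eq_left.2 ((e₁_pre g).mono le_top)).symm
      rw [e1, inf_assoc, e₁_top_inf, e, ← ey]
      exact inf_eq_right.2 ((e₁_pre g).mono (Q₁.ok.val_xv h))
    · obtain rfl := eq_G_of_eq g ea
      obtain rfl := eq_G_of_eq g ey
      rw [← e₁_G g hv] at hne ⊢
      rw [← (e₁_pre g).map_inf, Q₁.ok.val_I h (G_val g h' ha hv) fun e => hne (by rw [e])]
  · intro a y v ξ Z a' y' v' ξ' Z' h h' ea ey ev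
    have ha := le_x_of_eq g ea
    have hv := le_x_of_eq g ev
    obtain rfl := eq_G_of_eq g ea
    obtain rfl := eq_G_of_eq g ey
    obtain rfl := eq_G_of_eq g ev
    filter_upwards [Q₁.ok.val_tail h (G_val g h' ha hv), val_eventually_le h' ha hv] with n h1 h2
    rw [h1, e₁_G g h2]
  · intro W B Y a y h h' hB hW
    obtain ⟨w, hw⟩ := Q₁.ok.prom_ne h
    exact Q₁.ok.prom_inv h (G_u g h' (le_x_of_le g (hW w hw))) (fun b hb => (hB b hb).1)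
      fun w hw => (hW w hw).1
  · intro W B Y a y h h' hB hW
    exact Q₁.ok.prom_inv (G_prom g h fun b hb => le_x_of_le g (hB b hb)) h'
      (by rintro _ ⟨b, hb, rfl⟩; exact (hB b hb).1) (by rintro _ ⟨w, hw, rfl⟩; exact (hW w hw).1)

/-- The amalgam. -/
noncomputable def M : Cond where
  α := Car g
  D := (Q₁.D.push (e₁ g)).union (Q₂.D.push (e₂ g))
  ok := Data.union_ok (push₁_ok g) (push₂_ok g) (cross g)

/-- The first arrow into the amalgam. -/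
noncomputable def i₁ : Q₁ ⟶ M g :=
  homMk (Q := M g) (e₁ g) (e₁_pre g) (Data.hom_push Q₁.D (e₁ g)).union_left

/-- The second arrow into the amalgam. -/
noncomputable def i₂ : Q₂ ⟶ M g :=
  homMk (Q := M g) (e₂ g) (e₂_pre g) (Data.hom_push Q₂.D (e₂ g)).union_right

end Am

theorem exists_amalg (Q₂ : Cond) (x : Q₂) (Q₁ : Cond) (g : res Q₂ x ⟶ Q₁) :
    ∃ (M : Cond) (i₁ : Q₁ ⟶ M) (i₂ : Q₂ ⟶ M),
      g ≫ i₁ = incl Q₂ x ≫ i₂ ∧ ∀ y₁ y₂, i₁ y₁ = i₂ y₂ → y₂ ≤ x := by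
  refine ⟨Am.M g, Am.i₁ g, Am.i₂ g, hom_ext fun y => ?_, fun _ _ h => Am.le_x_of_eq g h⟩
  have := Am.e₁_G g (res_le y)
  rw [Am.G, cut_of_res] at this
  exact this

namespace Zig

variable {Q : Cond} (c c' : Q)

theorem G_incl (y : Q) : Am.G (incl Q c') y = y ⊓ c' := rfl

theorem P_incl (s : Q) : Am.P (incl Q c') s = s ⊓ c' := by
  rw [Am.P, (incl Q c').pre.π_eq (w := cut Q c' s) fun y => by
    rw [res_le_iff, cut_val, le_inf_iff]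
    exact ⟨fun h => ⟨h, res_le y⟩, fun h => h.1⟩]
  rfl

theorem mem {y₁ y₂ : Q} (h : y₁ ⊓ c' = y₂ ⊓ c') : Am.Mem (incl Q c') (y₁, y₂) := by
  refine Am.mem_of _ ((P_incl c' y₁).trans h) fun u => ?_
  change y₁ ⊓ (u ⊓ c') = y₂ ⊓ u ⊓ c'
  rw [inf_comm u, ← inf_assoc, h, inf_right_comm]

theorem fib (d : Am.M (incl Q c')) : d.1.1 ⊓ c' = d.1.2 ⊓ c' :=
  (P_incl c' _).symm.trans d.2.fib

/-- The point `(c, c)`. -/
def j : Am.M (incl Q c') := ⟨(c, c), mem c' rfl⟩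

variable {c c'} {S : Cond} (k : Q ⟶ S) (g : res (res Q c) (cut Q c c') ⟶ S)
  (hg : ∀ y, g y = k y.1.1)

include hg

theorem G_eq (y : res Q c) : Am.G g y = k (y.1 ⊓ c') := by
  rw [Am.G, hg]
  congr 1
  change y.1 ⊓ (c' ⊓ c) = y.1 ⊓ c'
  rw [inf_comm c', ← inf_assoc, inf_eq_left.2 (res_le y)]

theorem P_eq (s : S) : (Am.P g s).1 = k.pre.π s ⊓ c ⊓ c' := by
  rw [Am.P, g.pre.π_eq (w := cut _ _ (cut Q c (k.pre.π s))) fun y => ?_]
  · change k.pre.π s ⊓ c ⊓ (c' ⊓ c) = _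
    rw [inf_comm c', ← inf_assoc, inf_assoc _ c c, inf_idem]
  · change g y ≤ s ↔ y.1.1 ≤ k.pre.π s ⊓ c ⊓ (c' ⊓ c)
    rw [hg, le_inf_iff, le_inf_iff, k.pre.le_π]
    exact ⟨fun h => ⟨⟨h, res_le y.1⟩, res_le y⟩, fun h => h.1.1⟩

theorem P_map (y : Q) : (Am.P g (k y)).1 = y ⊓ c ⊓ c' := by
  rw [P_eq k g hg]
  congr 2
  exact k.pre.π_map y

theorem mem_eps (p : res (Am.M (incl Q c')) (j c c')) :
    Am.Mem g (k p.1.1.1, ⟨p.1.1.2, (res_le p).2⟩) := by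
  have h1 : p.1.1.1 ≤ c := (res_le p).1
  have h2 : p.1.1.2 ≤ c := (res_le p).2
  have h3 := fib c' p.1
  refine Am.mem_of g (res_ext ?_) fun u => ?_
  · change (Am.P g (k p.1.1.1)).1 = p.1.1.2 ⊓ (c' ⊓ c)
    rw [P_map k g hg, inf_eq_left.2 h1, h3, inf_comm c', ← inf_assoc, inf_eq_left.2 h2]
  · rw [G_eq k g hg, G_eq k g hg, ← Cond.map_inf]
    congr 1
    change p.1.1.1 ⊓ (u.1 ⊓ c') = p.1.1.2 ⊓ u.1 ⊓ c'
    rw [inf_comm u.1, ← inf_assoc, h3, inf_right_comm]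

/-- The map `ε (p₁, p₂) = (k p₁, p₂)`. -/
def eps (p : res (Am.M (incl Q c')) (j c c')) : Am.M g :=
  ⟨(k p.1.1.1, ⟨p.1.1.2, (res_le p).2⟩), mem_eps k g hg p⟩

theorem eps_pre : IsPre (eps k g hg) := by
  refine ⟨fun p q h => res_ext (Am.car_ext _ ?_ ?_), fun p q => Am.car_ext _ ?_ rfl, fun z => ?_⟩
  · exact k.pre.inj (congrArg (fun d : Am.M g => d.1.1) h)
  · exact congrArg (fun d : Am.M g => d.1.2.1) h
  · exact Cond.map_inf k _ _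
  · have hz : k.pre.π z.1.1 ⊓ c ⊓ c' = z.1.2.1 ⊓ c' := by
      rw [← P_eq k g hg, z.2.fib]
      change z.1.2.1 ⊓ (c' ⊓ c) = _
      rw [inf_comm c', ← inf_assoc, inf_eq_left.2 (res_le z.1.2)]
    refine ⟨⟨⟨(k.pre.π z.1.1 ⊓ c, z.1.2.1), mem c' hz⟩, inf_le_right, res_le z.1.2⟩, fun p => ?_⟩
    change k p.1.1.1 ≤ z.1.1 ∧ p.1.1.2 ≤ z.1.2.1 ↔
      p.1.1.1 ≤ k.pre.π z.1.1 ⊓ c ∧ p.1.1.2 ≤ z.1.2.1
    rw [le_inf_iff, k.pre.le_π]
    exact ⟨fun h => ⟨⟨h.1, (res_le p).1⟩, h.2⟩, fun h => ⟨h.1.1, h.2⟩⟩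

theorem eps_e₁ (y : Q) :
    eps k g hg (cut _ _ (Am.i₁ (incl Q c') y)) = (incl Q c ≫ k ≫ Am.i₁ g) (cut Q c y) := by
  refine Am.car_ext _ rfl (res_ext ?_)
  change Am.P (incl Q c') y ⊓ c = (Am.P g (k (y ⊓ c))).1
  rw [P_incl, P_map k g hg, inf_assoc y c c, inf_idem, inf_right_comm]

theorem eps_e₂ (y : Q) : eps k g hg (cut _ _ (Am.i₂ (incl Q c') y)) = Am.i₂ g (cut Q c y) := by
  refine Am.car_ext _ ?_ rfl
  change k (y ⊓ c' ⊓ c) = Am.G g (cut Q c y)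
  rw [G_eq k g hg, cut_val, inf_right_comm]

theorem exists_eps : ∃ ε : res (Am.M (incl Q c')) (j c c') ⟶ Am.M g,
    (∀ (y : Q) (p : res (Am.M (incl Q c')) (j c c')), p.1 = Am.i₁ (incl Q c') y →
      ε p = Am.i₁ g (k y)) ∧
    ∀ (y : Q) (p : res (Am.M (incl Q c')) (j c c')), p.1 = Am.i₂ (incl Q c') y →
      ε p = Am.i₂ g (cut Q c y) := by
  have h1 := hom_comap_push (e := Am.i₁ (incl Q c')) (eps_pre k g hg) (incl Q c ≫ k ≫ Am.i₁ g)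
    (fun y h => h.1) (eps_e₁ k g hg)
  have h2 := hom_comap_push (e := Am.i₂ (incl Q c')) (eps_pre k g hg) (Am.i₂ g)
    (fun y h => h.2) (eps_e₂ k g hg)
  refine ⟨homMk (eps k g hg) (eps_pre k g hg) (h1.of_union h2), fun y p hp => ?_,
    fun y p hp => ?_⟩
  · have hy : y ≤ c := (hp ▸ res_le p : Am.i₁ (incl Q c') y ≤ j c c').1
    have := eps_e₁ k g hg y
    rw [← hp, cut_of_res, comp_apply, comp_apply, incl_apply, cut_val, inf_eq_left.2 hy] at this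
    exact this
  · have := eps_e₂ k g hg y
    rw [← hp, cut_of_res] at this
    exact this

end Zig

theorem exists_zigzag (Q : Cond) (c c' : Q) :
    ∃ (M : Cond) (i₁ i₂ : Q ⟶ M) (j : M),
      (∀ y, y ≤ c' → i₁ y = i₂ y) ∧ i₁ c ≤ j ∧ i₂ c ≤ j ∧
      ∀ (S : Cond) (k₁ k₂ : Q ⟶ S), (∀ y, y ≤ c ⊓ c' → k₁ y = k₂ y) →
        ∃ (N : Cond) (n : S ⟶ N) (ε₁ ε₂ : res M j ⟶ N),
          (∀ (y : Q) (p : res M j), p.1 = i₁ y → ε₁ p = n (k₁ y)) ∧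
          (∀ (y : Q) (p : res M j), p.1 = i₁ y → ε₂ p = n (k₂ y)) ∧
          (∀ (y : Q) (p : res M j), p.1 = i₂ y → ε₁ p = ε₂ p) := by
  refine ⟨Am.M (incl Q c'), Am.i₁ _, Am.i₂ _, Zig.j c c', fun y hy => ?_, ?_, ?_,
    fun S k₁ k₂ hk => ?_⟩
  · have := Am.e₁_G (incl Q c') hy
    rw [Zig.G_incl, inf_eq_left.2 hy] at this
    exact this
  · exact (Am.e₁_le _).2 le_rfl
  · exact (Am.e₂_le _).2 le_rfl
  · obtain ⟨ε₁, h1, h2⟩ := Zig.exists_eps k₁ (incl (res Q c) (cut Q c c') ≫ incl Q c ≫ k₁)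
      fun _ => rfl
    obtain ⟨ε₂, h3, h4⟩ := Zig.exists_eps k₂ (incl (res Q c) (cut Q c c') ≫ incl Q c ≫ k₁)
      fun y => hk y.1.1 (le_of_le_of_eq (res_le y) (inf_comm c' c))
    exact ⟨_, Am.i₁ _, ε₁, ε₂, h1, h3, fun y p hp => (h2 y p hp).trans (h4 y p hp).symm⟩

end Crest.Agent.R296
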