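import Crest.Agent.R296.Glue

/-!
# R296 (S0448): colimits of chains  (TASK R296/Colim)

Read `Cond.lean` and `Glue.lean` first.  Let `s_{nm} : Q n ⟶ Q m` (`n ≤ m`) be the composites
(`Nat.leRec`).  Carrier: `WithTop` of the direct limit `(Σ n, Q n) / ~` (you may use Mathlib's
`DirectLimit` from `Mathlib/Order/DirectedInverseSystem.lean` or a hand-made quotient), ordered by
`[n,y] ≤ [m,z] ↔ ∃ k ≥ n, m, s_{nk} y ≤ s_{mk} z` (equivalently for all `k`, since the `s` are order
embeddings); meets are computed at a common stage.  (One way: any two/three points come from a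
common stage; define `inf` by choice from the existence of a greatest lower bound, or use
`SemilatticeInf.mk'`.)  `f n y = ↑[n,y]`.  Adjoint of `f n` at `f m z`: move `z` to a stage
`k ≥ n, m` and use the adjoint of `s_{nk}`; at `⊤` it is `⊤`.
Data: `Data.iUnion fun n => (Q n).D.push (f n)`.  `push_ok`: the rules at `⊤` are trivial
(`RuleE.top`, `RuleU.top`), at `f m z` move everything to a common stage `k`
(`map_val`, `map_prom`) and use `RuleE.image`, `RuleU.image` for `f k`.
`cross_push`: move both items to a common stage and use the laws there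
(for `val_fun` test at the points `f k c`).

`exists_handled`: first, for a fixed stage `(S, l)` and an enumeration `y : ℕ → S` (surjective;
`S` is countable and nonempty), build by recursion a chain starting at `S` whose `t`-th step
handles the image of `y t`, and take the colimit: an extension of `S` handling the images of all
points of `S`.  Iterate this step along a second chain starting at `R` and take the colimit again.
-/

set_option autoImplicit false

open CategoryTheory Filter Set

namespace Crest.Agent.R296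

open Cond

section chain

variable {Q : ℕ → Cond} (s : ∀ n, Q n ⟶ Q (n + 1))

/-- The composite arrows of a chain. -/
def colimS {n m : ℕ} (h : n ≤ m) : Q n ⟶ Q m :=
  Nat.leRec (motive := fun m _ => Q n ⟶ Q m) (𝟙 _) (fun k _ g => g ≫ s k) h

theorem colimS_self (n : ℕ) : colimS s (le_refl n) = 𝟙 _ := Nat.leRec_self _ _

theorem colimS_succ {n m : ℕ} (h : n ≤ m) (h' : n ≤ m + 1) : colimS s h' = colimS s h ≫ s m :=
  Nat.leRec_succ _ _ h

theorem colimS_trans {n m k : ℕ} (h : n ≤ m) (h' : m ≤ k) (y : Q n) :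
    colimS s h' (colimS s h y) = colimS s (h.trans h') y := by
  induction k, h' using Nat.le_induction with
  | base => rw [colimS_self, id_apply]
  | succ k hk ih => rw [colimS_succ s hk, colimS_succ s (h.trans hk), comp_apply, comp_apply, ih]

/-- The thread of a point: its images in the later stages, its projections in the earlier ones. -/
noncomputable def colimG (n : ℕ) (y : Q n) (k : ℕ) : Q k :=
  (colimS s (Nat.le_add_left k n)).pre.π (colimS s (Nat.le_add_right n k) y)

theorem le_colimG {n k K : ℕ} (hn : n ≤ K) (hk : k ≤ K) (y : Q n) (w : Q k) :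
    w ≤ colimG s n y k ↔ colimS s hk w ≤ colimS s hn y := by
  rw [colimG, IsPre.le_π, ← map_le_map (colimS s (Nat.le_add_right (n + k) K)),
    ← map_le_map (colimS s (Nat.le_add_left K (n + k))) (y := colimS s hk w)]
  simp only [colimS_trans]

theorem colimG_self (n : ℕ) (y : Q n) : colimG s n y n = y :=
  eq_of_forall_le_iff fun w => by rw [le_colimG s le_rfl le_rfl, map_le_map]

theorem colimG_S {n m : ℕ} (h : n ≤ m) (y : Q n) : colimG s m (colimS s h y) = colimG s n y := by
  funext k
  refine eq_of_forall_le_iff fun w => ?_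
  rw [le_colimG s (Nat.le_add_right m k) (Nat.le_add_left k m),
    le_colimG s (h.trans (Nat.le_add_right m k)) (Nat.le_add_left k m), colimS_trans]

theorem colimG_inf (n : ℕ) (y y' : Q n) :
    colimG s n (y ⊓ y') = colimG s n y ⊓ colimG s n y' := by
  funext k
  rw [Pi.inf_apply, colimG, colimG, colimG, Cond.map_inf, IsPre.π_inf]

/-- The carrier of the colimit: the threads and the top. -/
def colimP (x : ∀ k, Q k) : Prop := x = ⊤ ∨ ∃ (n : ℕ) (y : Q n), x = colimG s n y

theorem colimP_inf ⦃x x' : ∀ k, Q k⦄ (hx : colimP s x) (hx' : colimP s x') :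
    colimP s (x ⊓ x') := by
  rcases hx with rfl | ⟨n, y, rfl⟩
  · rwa [top_inf_eq]
  · rcases hx' with rfl | ⟨m, z, rfl⟩
    · rw [inf_top_eq]
      exact Or.inr ⟨n, y, rfl⟩
    · refine Or.inr ⟨n + m, colimS s (Nat.le_add_right n m) y ⊓ colimS s (Nat.le_add_left m n) z, ?_⟩
      rw [colimG_inf, colimG_S, colimG_S]

/-- The carrier of the colimit as a type. -/
def colimL : Type := {x : ∀ k, Q k // colimP s x}

instance : SemilatticeInf (colimL s) := Subtype.semilatticeInf (colimP_inf s)

instance : OrderTop (colimL s) := Subtype.orderTop (p := colimP s) (Or.inl rfl)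

/-- The maps into the colimit. -/
noncomputable def colimF (n : ℕ) (y : Q n) : colimL s := ⟨colimG s n y, Or.inr ⟨n, y, rfl⟩⟩

theorem colimL_cases (x : colimL s) : x = ⊤ ∨ ∃ (n : ℕ) (y : Q n), x = colimF s n y :=
  x.2.imp (fun h => Subtype.ext h) fun ⟨n, y, h⟩ => ⟨n, y, Subtype.ext h⟩

instance : Countable (colimL s) := by
  have : Function.Surjective fun o : Option (Σ n, Q n) =>
      (o.elim ⊤ fun p => colimF s p.1 p.2 : colimL s) := by
    intro x
    rcases colimL_cases s x with rfl | ⟨n, y, rfl⟩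
    · exact ⟨none, rfl⟩
    · exact ⟨some ⟨n, y⟩, rfl⟩
  exact this.countable

theorem colimF_S {n m : ℕ} (h : n ≤ m) (y : Q n) : colimF s m (colimS s h y) = colimF s n y :=
  Subtype.ext (colimG_S s h y)

theorem colimF_inf (n : ℕ) (y y' : Q n) : colimF s n (y ⊓ y') = colimF s n y ⊓ colimF s n y' :=
  Subtype.ext (colimG_inf s n y y')

theorem colimF_pre (n : ℕ) : IsPre (colimF s n) where
  inj y y' h := by
    have := congrFun (congrArg Subtype.val h) n
    simpa only [colimF, colimG_self] using this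
  map_inf := colimF_inf s n
  adj x := by
    refine ⟨x.1 n, fun y => ⟨fun h => ?_, fun h => ?_⟩⟩
    · have : colimG s n y n ≤ x.1 n := h n
      rwa [colimG_self] at this
    · rcases colimL_cases s x with rfl | ⟨m, z, rfl⟩
      · exact le_top
      · have h1 := (le_colimG s (Nat.le_add_left m n) (Nat.le_add_right n m) z y).1 h
        rw [← colimF_S s (Nat.le_add_right n m), ← colimF_S s (Nat.le_add_left m n) z,
          ← inf_eq_left, ← colimF_inf, inf_eq_left.2 h1]

theorem colimF_image {n m : ℕ} (h : n ≤ m) (W : Set (Q n)) :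
    colimF s m '' (colimS s h '' W) = colimF s n '' W := by
  simp only [image_image, colimF_S]

theorem colim_push_ok (n : ℕ) : ((Q n).D.push (colimF s n)).OK := by
  refine Data.push_ok (Q n).ok (colimF_pre s n) (fun a x v ξ Z h d => ?_) (fun W B Y h d => ?_)
  · rcases colimL_cases s d with rfl | ⟨m, z, rfl⟩
    · exact RuleE.top _ _ _
    · have := RuleE.image (colimF_pre s (n + m)) ((Q (n + m)).ok.val_E
        (map_val (colimS s (Nat.le_add_right n m)) h) (colimS s (Nat.le_add_left m n) z))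
      simpa only [colimF_S] using this
  · rcases colimL_cases s d with rfl | ⟨m, z, rfl⟩
    · exact RuleU.top (((Q n).ok.prom_ne h).image _)
    · have := RuleU.image (colimF_pre s (n + m)) ((Q (n + m)).ok.prom_U
        (map_prom (colimS s (Nat.le_add_right n m)) h) (colimS s (Nat.le_add_left m n) z))
      simpa only [colimF_S, colimF_image] using this

theorem colim_cross (n m : ℕ) :
    Cross ((Q n).D.push (colimF s n)) ((Q m).D.push (colimF s m)) := by
  have hn := Nat.le_add_right n m
  have hm := Nat.le_add_left m n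
  have hp := colimF_pre s (n + m)
  have ok := (Q (n + m)).ok
  have heq : ∀ {y : Q n} {z : Q m}, colimF s n y = colimF s m z ↔
      colimS s hn y = colimS s hm z := by
    intro y z
    rw [← colimF_S s hn, ← colimF_S s hm, hp.inj.eq_iff]
  have hle : ∀ {y : Q n} {z : Q m}, colimF s n y ≤ colimF s m z ↔
      colimS s hn y ≤ colimS s hm z := by
    intro y z
    rw [← colimF_S s hn, ← colimF_S s hm, hp.le_iff]
  have hge : ∀ {y : Q n} {z : Q m}, colimF s m z ≤ colimF s n y ↔
      colimS s hm z ≤ colimS s hn y := by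
    intro y z
    rw [← colimF_S s hn, ← colimF_S s hm, hp.le_iff]
  apply cross_push
  · intro c ξ d c' d' h1 h2 h3
    have a1 := map_tag (colimS s hn) h1
    rw [heq.1 h3] at a1
    exact heq.2 (ok.tag_fun a1 (map_tag (colimS s hm) h2))
  · intro a x v ξ Z a' x' v' Z' h1 h2 h3 h4 hc
    have a2 := map_val (colimS s hm) h2
    rw [← heq.1 h3, ← heq.1 h4] at a2
    refine heq.2 (ok.val_fun (map_val (colimS s hn) h1) a2 fun c ha => ?_)
    have := hc (colimF s (n + m) c) (by rw [← colimF_S s hn]; exact hp.mono ha)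
    rwa [← colimF_S s hn, ← colimF_S s hm, hp.le_iff, hp.le_iff] at this
  · intro a x v ξ Z a' x' v' ξ' Z' h1 h2 h3 h4 hne
    have a2 := map_val (colimS s hm) h2
    rw [← heq.1 h3, ← heq.1 h4] at a2
    rw [← colimF_S s hn v, ← colimF_S s hm v', ← hp.map_inf,
      ok.val_I (map_val (colimS s hn) h1) a2 fun e => hne (heq.2 e), colimF_S]
  · intro a x v ξ Z a' x' v' ξ' Z' h1 h2 h3 h4 h5
    have a2 := map_val (colimS s hm) h2
    rw [← heq.1 h3, ← heq.1 h4, ← heq.1 h5] at a2
    exact (ok.val_tail (map_val (colimS s hn) h1) a2).mono fun t ht => heq.2 ht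
  · intro W B Y a x h1 h2 hB hW
    refine ok.prom_inv (map_prom (colimS s hn) h1) (map_u (colimS s hm) h2) ?_ ?_
    · rintro _ ⟨b, hb, rfl⟩
      exact hle.1 (hB b hb)
    · rintro _ ⟨w, hw, rfl⟩
      exact hge.1 (hW w hw)
  · intro W B Y a x h1 h2 hB hW
    refine ok.prom_inv (map_prom (colimS s hm) h1) (map_u (colimS s hn) h2) ?_ ?_
    · rintro _ ⟨b, hb, rfl⟩
      exact hge.1 (hB b hb)
    · rintro _ ⟨w, hw, rfl⟩
      exact hle.1 (hW w hw)

end chain

theorem exists_colim (Q : ℕ → Cond) (s : ∀ n, Q n ⟶ Q (n + 1)) :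
    ∃ (L : Cond) (f : ∀ n, Q n ⟶ L), (∀ n, s n ≫ f (n + 1) = f n) ∧
      ∀ y : L, y = ⊤ ∨ ∃ (n : ℕ) (y₀ : Q n), y = f n y₀ := by
  let L : Cond :=
    { α := colimL s
      D := Data.iUnion fun n => (Q n).D.push (colimF s n)
      ok := Data.iUnion_ok (colim_push_ok s) (colim_cross s) }
  refine ⟨L, fun n => homMk (Q := L) (colimF s n) (colimF_pre s n)
    (Data.Hom.iUnion n (Data.hom_push _ _)), fun n => hom_ext fun y => ?_, colimL_cases s⟩
  have := colimF_S s (Nat.le_succ n) y
  rw [colimS_succ s le_rfl, colimS_self] at this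
  exact this

/-- A chain under `R` built by iterating an extension step, and its colimit. -/
theorem colim_iter (R : Cond) (P : ∀ (t : ℕ) (S : Cond), (R ⟶ S) → ∀ T : Cond, (S ⟶ T) → Prop)
    (hP : ∀ t S l, ∃ T m, P t S l T m) :
    ∃ (Q : ℕ → Cond) (l : ∀ t, R ⟶ Q t) (s : ∀ t, Q t ⟶ Q (t + 1)) (L : Cond)
      (f : ∀ t, Q t ⟶ L) (e : Q 0 ⟶ R), l 0 ≫ e = 𝟙 R ∧ e ≫ l 0 = 𝟙 _ ∧
      (∀ t, P t (Q t) (l t) (Q (t + 1)) (s t)) ∧ (∀ t, s t ≫ f (t + 1) = f t) ∧
      (∀ t, l t ≫ f t = l 0 ≫ f 0) ∧ ∀ y : L, y = ⊤ ∨ ∃ (n : ℕ) (y₀ : Q n), y = f n y₀ := by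
  choose T m hm using hP
  let C : ℕ → Σ S : Cond, R ⟶ S := fun t =>
    Nat.rec ⟨R, 𝟙 R⟩ (fun t c => ⟨T t c.1 c.2, c.2 ≫ m t c.1 c.2⟩) t
  obtain ⟨L, f, hf, hL⟩ := exists_colim (fun t => (C t).1) (fun t => m t (C t).1 (C t).2)
  refine ⟨fun t => (C t).1, fun t => (C t).2, fun t => m t (C t).1 (C t).2, L, f, 𝟙 R, rfl, rfl,
    fun t => hm t _ _, hf, fun t => ?_, hL⟩
  induction t with
  | zero => rfl
  | succ t ih =>
    rw [← ih, ← hf t, ← Category.assoc]

/-- Fusion: a persistent property of points that can always be arranged in an extension can be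
arranged for all points at once (except possibly the top). -/
theorem exists_handled (R : Cond) (H : ∀ S : Cond, (R ⟶ S) → S → Prop)
    (hmap : ∀ (S : Cond) (l : R ⟶ S) (y : S) (T : Cond) (m : S ⟶ T), H S l y → H T (l ≫ m) (m y))
    (hdense : ∀ (S : Cond) (l : R ⟶ S) (y : S), ∃ (T : Cond) (m : S ⟶ T), H T (l ≫ m) (m y)) :
    ∃ (L : Cond) (l : R ⟶ L), (∀ y : L, y = ⊤ ∨ H L l y) ∧ ∀ y : R, H L l (l y) := by
  have step : ∀ (S : Cond) (l : R ⟶ S), ∃ (T : Cond) (m : S ⟶ T), ∀ y : S, H T (l ≫ m) (m y) := by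
    intro S l
    have : Nonempty S := ⟨⊤⟩
    obtain ⟨y, hy⟩ := exists_surjective_nat S
    obtain ⟨Q, k, s, L, f, e, -, -, hP, hf, hk, -⟩ := colim_iter S
      (fun t T g T' m => H T' ((l ≫ g) ≫ m) (m (g (y t)))) (fun t T g => hdense T (l ≫ g) _)
    refine ⟨L, k 0 ≫ f 0, fun z => ?_⟩
    obtain ⟨t, rfl⟩ := hy z
    have := hmap _ _ _ L (f (t + 1)) (hP t)
    rw [← hk t, ← hf t]
    simpa only [Category.assoc, comp_apply] using this
  obtain ⟨Q, k, s, L, f, e, -, -, hP, hf, hk, hL⟩ := colim_iter R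
    (fun _ S l T m => ∀ y : S, H T (l ≫ m) (m y)) (fun _ => step)
  have key : ∀ (t : ℕ) (y : Q t), H L (k 0 ≫ f 0) (f t y) := by
    intro t y
    have := hmap _ _ _ L (f (t + 1)) (hP t y)
    rw [← hk t, ← hf t]
    simpa only [Category.assoc, comp_apply] using this
  refine ⟨L, k 0 ≫ f 0, fun y => ?_, fun y => key 0 (k 0 y)⟩
  rcases hL y with h | ⟨t, y₀, rfl⟩
  · exact Or.inl h
  · exact Or.inr (key t y₀)

end Crest.Agent.R296
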