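import Crest.Agent.R296.Glue

/-!
# R296 (S0448): small extension steps  (TASK R296/Steps)

Read `Cond.lean` and `Glue.lean` first.
* `exists_capU`: carrier `WithTop Q`, `j = coe` (adjoint `⊤ ↦ ⊤`, `↑y ↦ y`), data
  `(Q.D.push j).union (uData ⊤ (j ⊤))`.  Rules at `⊤` trivial, at `j d` by `RuleE.image`,
  `RuleU.image`.  Cross: a pushed promise has a nonempty `W` below `j ⊤`, so `⊤ ≤ w` fails.
* The other steps keep the carrier (`j = id`, data `Q.D.union new`, `Data.Hom.id.union_left`).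
  `exists_tags`: `exists_fresh_inj` on `J = Q × Q` gives `g`; new tags
  `T c ξ e := e ≤ c ∧ ξ = g (c, e)`.
  `exists_prom`: `promData W (lowerBounds W) Wᶜ`; (U) at `c`: `c ∈ W` or `c ∈ Wᶜ`; cross with an old
  pair `U a x`: if `lowerBounds W ≤ x` and `a ≤ w ⊓ m` for all `w ∈ W` then `a ∈ lowerBounds W`, so
  `a ≤ x`.
  `exists_sep`: `ξ` fresh, `T c₀ ξ' d := ξ' = ξ ∧ (c₀ = c ∧ d = c ∨ c₀ = c' ∧ d = e)`.
* `Nonempty Cond`: carrier `Unit`, data `tagData fun _ _ _ => False`.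
-/

set_option autoImplicit false

open CategoryTheory Filter Set

namespace Crest.Agent.R296

open Cond

/-- adding new data on the same carrier -/
theorem exists_same (Q : Cond) (D' : Data Q) (h : D'.OK) (hc : Cross Q.D D') :
    ∃ (Q' : Cond) (j : Q ⟶ Q'), Function.Surjective j ∧ D'.Hom Q'.D j :=
  ⟨⟨Q, _, Data.union_ok Q.ok h hc⟩, homMk (fun y => y) IsPre.id (Data.Hom.id _).union_left,
    fun y => ⟨y, rfl⟩, (Data.Hom.id _).union_right⟩

/-- tags with fresh labels are compatible with old data -/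
theorem cross_tagData {α : Type} [SemilatticeInf α] (D : Data α) (T : α → Xi → α → Prop)
    (h : ∀ c ξ e, T c ξ e → ξ ∉ D.used) : Cross D (tagData T) :=
  ⟨fun h1 h2 => (h _ _ _ h2 (Or.inl ⟨_, _, h1⟩)).elim, fun _ h => h.elim, fun _ h => h.elim,
    fun _ h => h.elim, fun _ h => h.elim, fun h => h.elim⟩

theorem exists_capU (Q : Cond) : ∃ (Q' : Cond) (j : Q ⟶ Q'), Q'.D.U ⊤ (j ⊤) := by
  have hpre : IsPre (fun y : Q => (y : WithTop Q)) := by
    refine ⟨fun _ _ h => WithTop.coe_injective h, fun y y' => WithTop.coe_inf y y', fun z => ?_⟩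
    induction z using WithTop.recTopCoe with
    | top => exact ⟨⊤, fun y => by simp⟩
    | coe z => exact ⟨z, fun y => WithTop.coe_le_coe⟩
  have h1 : (Q.D.push (fun y : Q => (y : WithTop Q))).OK := by
    refine Data.push_ok Q.ok hpre (fun a x v ξ Z h d => ?_) (fun W B Y h d => ?_)
    · induction d using WithTop.recTopCoe with
      | top => exact RuleE.top _ _ _
      | coe d => exact RuleE.image hpre (Q.ok.val_E h d)
    · induction d using WithTop.recTopCoe with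
      | top => exact RuleU.top ((Q.ok.prom_ne h).image _)
      | coe d => exact RuleU.image hpre (Q.ok.prom_U h d)
  have h2 : (uData (⊤ : WithTop Q) ((⊤ : Q) : WithTop Q)).OK :=
    uData_ok le_top (by simp)
  have hc : Cross (Q.D.push (fun y : Q => (y : WithTop Q)))
      (uData (⊤ : WithTop Q) ((⊤ : Q) : WithTop Q)) := by
    refine ⟨fun _ h => h.elim, fun _ h => h.elim, fun _ h => h.elim, fun _ h => h.elim, ?_,
      fun h => h.elim⟩
    rintro _ _ _ _ _ ⟨W, B, Y, m, h, -, rfl, -⟩ ⟨rfl, -⟩ - hW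
    obtain ⟨w, hw⟩ := Q.ok.prom_ne h
    have := (hW _ ⟨w, hw, rfl⟩).trans inf_le_left
    simp at this
  have : Countable (WithTop Q) := inferInstanceAs (Countable (Option Q))
  exact ⟨⟨WithTop Q, _, Data.union_ok h1 h2 hc⟩,
    homMk (fun y : Q => (y : WithTop Q)) hpre (Data.hom_push _ _).union_left, Or.inr ⟨rfl, rfl⟩⟩

theorem exists_tags (Q : Cond) : ∃ (Q' : Cond) (_ : Q ⟶ Q'), TagTotal Q' := by
  obtain ⟨g, hg, hfresh⟩ := exists_fresh_inj Q.ok.used_ct (Q × Q)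
  have h2 : (tagData (fun (c : Q) ξ e => e ≤ c ∧ ξ = g (c, e))).OK := by
    refine tagData_ok (fun c ξ e h => h.1) (fun c ξ e e' h h' => ?_) ?_
    · exact congrArg Prod.snd (hg (h.2.symm.trans h'.2))
    · refine (countable_range g).mono ?_
      rintro ξ ⟨c, e, -, h⟩
      exact ⟨_, h.symm⟩
  obtain ⟨Q', j, hj⟩ := exists_same Q _ h2 (cross_tagData Q.D _ (by
    rintro c ξ e ⟨-, rfl⟩
    exact hfresh _))
  refine ⟨Q', j, fun c e h => ?_⟩
  obtain ⟨c, rfl⟩ := hj.1 c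
  obtain ⟨e, rfl⟩ := hj.1 e
  exact ⟨g (c, e), hj.2.tag ⟨(map_le_map j).1 h, rfl⟩⟩

theorem exists_prom (Q : Cond) (W : Set Q) (hne : W.Nonempty)
    (hinf : ∀ w ∈ W, ∀ w' ∈ W, w ⊓ w' ∈ W) :
    ∃ (Q' : Cond) (j : Q ⟶ Q'), Q'.D.Prom (j '' W) (j '' lowerBounds W) (j '' Wᶜ) := by
  have h2 : (promData W (lowerBounds W) Wᶜ).OK := by
    refine promData_ok hne (fun w hw w' hw' => ⟨w ⊓ w', hinf w hw w' hw', inf_le_left, inf_le_right⟩)
      (fun b hb w hw => hb hw) (fun c _ => ?_)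
    by_cases hc : c ∈ W
    · exact Or.inl ⟨c, hc, le_rfl⟩
    · exact Or.inr ⟨_, hne.some_mem, c, hc, inf_le_left⟩
  have hc : Cross Q.D (promData W (lowerBounds W) Wᶜ) := by
    refine ⟨fun _ h => h.elim, fun _ h => h.elim, fun _ h => h.elim, fun _ h => h.elim,
      fun _ h => h.elim, ?_⟩
    rintro _ _ _ a x ⟨m, -, rfl, rfl, -⟩ hu hB hW
    exact Q.ok.u_not hu (hB a fun w hw => (hW _ ⟨w, hw, rfl⟩).trans inf_le_left)
  obtain ⟨Q', j, hj⟩ := exists_same Q _ h2 hc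
  exact ⟨Q', j, hj.2.prom (promData_prom _ _ _)⟩

theorem exists_sep (Q : Cond) (c c' e : Q) (hne : c ≠ c') (he : e ≤ c') :
    ∃ (Q' : Cond) (j : Q ⟶ Q') (ξ : Xi), Q'.D.Tag (j c) ξ (j c) ∧ Q'.D.Tag (j c') ξ (j e) := by
  obtain ⟨ξ, hξ⟩ := exists_fresh Q.ok.used_ct
  have h2 : (tagData (fun (c₀ : Q) ξ' d => ξ' = ξ ∧ (c₀ = c ∧ d = c ∨ c₀ = c' ∧ d = e))).OK := by
    refine tagData_ok ?_ ?_ ?_
    · rintro _ _ _ ⟨-, ⟨rfl, rfl⟩ | ⟨rfl, rfl⟩⟩
      · exact le_rfl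
      · exact he
    · rintro c₀ _ d d' ⟨-, ⟨h1, h2⟩ | ⟨h1, h2⟩⟩ ⟨-, ⟨h3, h4⟩ | ⟨h3, h4⟩⟩
      · exact h2.trans h4.symm
      · exact (hne (h1.symm.trans h3)).elim
      · exact (hne (h3.symm.trans h1)).elim
      · exact h2.trans h4.symm
    · refine (countable_singleton ξ).mono ?_
      rintro _ ⟨_, _, h, -⟩
      exact h
  obtain ⟨Q', j, hj⟩ := exists_same Q _ h2 (cross_tagData Q.D _ (by
    rintro _ _ _ ⟨rfl, -⟩
    exact hξ))
  exact ⟨Q', j, ξ, hj.2.tag ⟨rfl, Or.inl ⟨rfl, rfl⟩⟩, hj.2.tag ⟨rfl, Or.inr ⟨rfl, rfl⟩⟩⟩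

theorem nonempty_cond : Nonempty Cond := by
  exact ⟨⟨Unit, tagData fun _ _ _ => False,
    tagData_ok (fun _ _ _ h => h.elim) (fun _ _ _ _ h => h.elim) (by simp)⟩⟩

end Crest.Agent.R296
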