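import Crest.Agent.R296.Supp
import Crest.Agent.R296.Colim
import Crest.Agent.R296.Steps

/-!
# R296 (S0448): the supports above `x` are permanently generated by a chain
-/

set_option autoImplicit false

open CategoryTheory

namespace Crest.Agent.R296

open Cond

/-- `y` is decided: it is a support now or never, and it is below all future supports above `x`
or there is a support above `x` now which is not above `y`. -/
def Handled {S : Cond} (x : S) (A : El S) (T : Cond) (l : S ⟶ T) (y : T) : Prop :=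
  (Supp T y (A.map l) ∨ ∀ (T' : Cond) (m : T ⟶ T'), ¬ Supp T' (m y) (A.map (l ≫ m))) ∧
  ((∀ (T' : Cond) (m : T ⟶ T') (d : T'), m (l x) ≤ d → Supp T' d (A.map (l ≫ m)) → m y ≤ d) ∨
    ∃ d : T, l x ≤ d ∧ Supp T d (A.map l) ∧ ¬ y ≤ d)

theorem Handled.map {S : Cond} {x : S} {A : El S} {T : Cond} {l : S ⟶ T} {y : T}
    (h : Handled x A T l y) {T' : Cond} (m : T ⟶ T') : Handled x A T' (l ≫ m) (m y) := by
  refine ⟨h.1.imp (fun h => by simpa using h.map m) fun h T'' m' => ?_,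
    h.2.imp (fun h T'' m' d h1 h2 => ?_) ?_⟩
  · simpa using h T'' (m ≫ m')
  · simpa using h T'' (m ≫ m') d (by simpa using h1) (by simpa using h2)
  · rintro ⟨d, h1, h2, h3⟩
    exact ⟨m d, by simpa using h1, by simpa using h2.map m, by simpa using h3⟩

theorem exists_handled_step {S : Cond} (x : S) (A : El S) (T : Cond) (l : S ⟶ T) (y : T) :
    ∃ (T' : Cond) (m : T ⟶ T'), Handled x A T' (l ≫ m) (m y) := by
  have h1 : ∀ (T : Cond) (l : S ⟶ T) (y : T), ∃ (T' : Cond) (m : T ⟶ T'),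
      Supp T' (m y) (A.map (l ≫ m)) ∨
        ∀ (T'' : Cond) (m' : T' ⟶ T''), ¬ Supp T'' (m' (m y)) (A.map ((l ≫ m) ≫ m')) := by
    intro T l y
    by_cases h : ∃ (T' : Cond) (m : T ⟶ T'), Supp T' (m y) (A.map (l ≫ m))
    · obtain ⟨T', m, h⟩ := h
      exact ⟨T', m, Or.inl h⟩
    · push Not at h
      exact ⟨T, 𝟙 T, Or.inr fun T'' m' => by simpa using h T'' m'⟩
  by_cases h : ∀ (T' : Cond) (m : T ⟶ T') (d : T'), m (l x) ≤ d → Supp T' d (A.map (l ≫ m)) →
      m y ≤ d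
  · obtain ⟨T', m, h2⟩ := h1 T l y
    refine ⟨T', m, h2, Or.inl fun T'' m' d h3 h4 => ?_⟩
    simpa using h T'' (m ≫ m') d (by simpa using h3) (by simpa using h4)
  · push Not at h
    obtain ⟨T', m, d, h3, h4, h5⟩ := h
    obtain ⟨T'', m', h2⟩ := h1 T' (l ≫ m) (m y)
    refine ⟨T'', m ≫ m', by simpa using h2, Or.inr ⟨m' d, by simpa using h3, ?_, by simpa using h5⟩⟩
    simpa using h4.map m'

theorem exists_chain (S : Cond) (x : S) (A : El S) :
    ∃ (q : Cond) (k : S ⟶ q) (c : ℕ → q), TagTotal q ∧ Antitone c ∧ (∀ n, k x ≤ c n) ∧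
      (∀ n, Supp q (c n) (A.map k)) ∧
      ∀ (T : Cond) (l : q ⟶ T) (d : T), l (k x) ≤ d → Supp T d (A.map (k ≫ l)) →
        ∃ n, l (c n) ≤ d := by
  obtain ⟨L, l₀, hL, hL'⟩ := exists_handled S (Handled x A) (fun _ _ _ _ m h => h.map m)
    (exists_handled_step x A)
  let W : Set L := {w | l₀ x ≤ w ∧ Supp L w (A.map l₀)}
  have htop : ⊤ ∈ W := ⟨le_top, supp_top _⟩
  have hinf : ∀ w ∈ W, ∀ w' ∈ W, w ⊓ w' ∈ W := fun w hw w' hw' =>
    ⟨le_inf hw.1 hw'.1, hw.2.inf hw'.2⟩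
  obtain ⟨q₁, j₁, hprom⟩ := exists_prom L W ⟨⊤, htop⟩ hinf
  obtain ⟨q, j₂, htags⟩ := exists_tags q₁
  obtain ⟨e, he⟩ := (Set.to_countable W).exists_eq_range ⟨⊤, htop⟩
  have heW : ∀ n, e n ∈ W := fun n => he ▸ ⟨n, rfl⟩
  let c₀ : ℕ → L := fun n => Nat.rec (e 0) (fun n c => c ⊓ e (n + 1)) n
  have hc₀W : ∀ n, c₀ n ∈ W := by
    intro n
    induction n with
    | zero => exact heW 0
    | succ n ih => exact hinf _ ih _ (heW _)
  have hc₀e : ∀ n, c₀ n ≤ e n := by
    intro n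
    cases n with
    | zero => exact le_rfl
    | succ n => exact inf_le_right
  have hanti : Antitone c₀ := antitone_nat_of_succ_le fun n => inf_le_left
  refine ⟨q, l₀ ≫ j₁ ≫ j₂, fun n => j₂ (j₁ (c₀ n)), htags, fun a b hab => by simpa using hanti hab,
    fun n => by simpa using (hc₀W n).1, fun n => by simpa using (hc₀W n).2.map (j₁ ≫ j₂), ?_⟩
  intro T l d hd hs
  let m : L ⟶ T := j₁ ≫ j₂ ≫ l
  have hd' : m (l₀ x) ≤ d := hd
  have hs' : Supp T d (A.map (l₀ ≫ m)) := hs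
  have hp := map_prom (j₂ ≫ l) hprom
  simp only [Set.image_image] at hp
  have hB : ∀ b ∈ lowerBounds W, m b ≤ d := by
    intro b hb
    have hH : Handled x A L l₀ b := by
      rcases hL b with rfl | hH
      · have : (⊤ : L) = l₀ ⊤ :=
          le_antisymm (hb ⟨by simp, supp_map A l₀ le_rfl⟩) le_top
        rw [this]
        exact hL' ⊤
      · exact hH
    rcases hH.2 with h | ⟨w, h1, h2, h3⟩
    · exact h T m d hd' hs'
    · exact absurd (hb ⟨h1, h2⟩) h3
  rcases T.ok.prom_U hp d (by rintro _ ⟨b, hb, rfl⟩; exact hB b hb) with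
    ⟨_, ⟨w, hw, rfl⟩, h1⟩ | ⟨_, ⟨w, hw, rfl⟩, _, ⟨y, hy, rfl⟩, h1⟩
  · obtain ⟨n, rfl⟩ : w ∈ Set.range e := he ▸ hw
    exact ⟨n, le_trans (by simpa using hc₀e n) h1⟩
  · exfalso
    have h2 : d ⊓ m w ≤ m y := h1
    have h3 : Supp T (m y) (A.map (l₀ ≫ m)) :=
      (hs'.inf (by simpa using hw.2.map m)).mono h2
    have h4 : l₀ x ≤ y := by
      rw [← map_le_map m]
      exact (le_inf hd' (by simpa using hw.1)).trans h2
    rcases hL y with rfl | hH
    · exact hy htop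
    · rcases hH.1 with h | h
      · exact hy ⟨h4, h⟩
      · exact h T m h3

end Crest.Agent.R296
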