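import Crest.Agent.R296.Glue

/-!
# R296 (S0448): the T-step  (TASK R296/TStep)

Read `Cond.lean` and `Glue.lean` first.  Given `p`, a pair `U a x` (so `x ≤ a`, `¬ a ≤ x`,
`x ≠ ⊤`) and a sequence `c`, let `w = {z | a ≤ z ∧ ∀ᶠ n, c n ≤ z}` (a filter; `x ∉ w`).
In `p × p` put `i z = (⊤, z)` if `z ∈ w`, else `(z ⊓ x, z)`; `m e = (e, e ⊓ x)`.
Carrier: the pairs `d = (e, z)` with
`e ⊓ x = z ⊓ x`, `z ∈ w → e = ⊤`, `a ≤ z → e ≠ x → z ∈ w`, and
`RuleE (i a₀) (i x₀) (i v₀) d` for every `Val a₀ x₀ v₀ ξ Z` of `p`,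
`RuleU (i '' W) (i '' B) (i '' Y) d` for every `Prom W B Y` of `p` (rules read in `p × p`).
* closed under `⊓` (if `a ≤ z ⊓ z'` then `x ≤ e, e'`, so `e ⊓ e' ≠ x` gives `e ≠ x`, `e' ≠ x`) and
  contains `⊤`; `RuleE.inf/top`, `RuleU.inf/top`.
* `i` preserves `⊓` (three cases; if `z ∉ w` then `z ⊓ z' ∉ w`), is injective, adjoint = second
  projection (`i y ≤ (e,z) ↔ y ≤ z`); `m` has adjoint = first projection and is an ideal
  embedding (`d ⊓ m y = m (d.1 ⊓ y)`).  For `y ∉ w`: `d ⊓ i y = i (d.2 ⊓ y)`.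
  `i y = m y` for `y ≤ x`, and `i y ≤ m e → y ≤ x`.
  (It is convenient to prove these first on the unpruned carrier (first three conditions), and
  then prune.)
* `i z` is not pruned (`RuleE.image`, `RuleU.image`).  `m e` is not pruned.  (E): `i a₀ ≤ m e`
  gives `a₀ ≤ x`; if `v₀ ∉ w` use `RuleE.image_of`; `v₀ ∈ w` is impossible: `val_dichotomy` at `x`
  gives `x ⊓ v₀ = x₀` (then `x = x₀` as `x ≤ a ≤ v₀`, so `a₀ ≤ x₀ ≤ v₀`, against `val_av`) or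
  `v₀ ≤ x` (then `a ≤ x`).  (U): `B ≤ x`, so `prom_inv` gives `w₀ ∈ W` with `¬ a ≤ w₀`; all
  members of `W` below `w₀` are outside `w`; `RuleU.image_of` with `prom_dir`.
* Data: `((p.D.push i).union (p.D.push m)).union (valData (i a) (i x) (m ⊤) ξ (i ∘ c))` with `ξ`
  fresh (`exists_fresh p.ok.used_ct`).
  `cross_push` for `i`, `m`: `i a₀ = m a₁` gives `a₀ ≤ x`, `a₀ = a₁`.  `val_fun`: the hypothesis at
  `d = m ⊤` gives `v₀ ≤ x`; then test at the points `m c`.  `val_I`: `val_dichotomy` at `x`; if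
  `x ⊓ v₀ = x₀` then (`v₀ ∉ w` as above) `i v₀ ⊓ m v₁ = i v₀ ⊓ m ⊤ ⊓ m v₁ = m x₀`.
  `val_tail`: `val_eventually_le`.  `inv` (promise along `i`, pair along `m`): `B ≤ x`, so some
  `w₀ ∈ W` is outside `w`, and `m a₁ ≤ i w₀ = (w₀ ⊓ x, w₀)` gives `a₁ ≤ x`.  `inv'`: `i a₁ ≤ m w`
  gives `a₁ ≤ x`.
  `valData_ok`: (E) at `(e,z)`: `a ≤ z`, `(e,z) ⊓ (⊤,x) = (e,x) ≠ (x,x)` gives `z ∈ w`, `e = ⊤`.
  (Z): `m ⊤ ≤ (e,z)` iff `e = ⊤` iff `z ∈ w` (use `x ≠ ⊤`).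
  Cross with the new value: `val_fun` vacuous by freshness; an old value over `(i a, i x)` is
  `i v₀` with `Val a x v₀`, `v₀ ∉ w` (`val_av`), so `i v₀ ⊓ m ⊤ = (x, x) = i x`, and
  `i v₀ ≠ m ⊤` (else `x = ⊤`); `m a₁ = i a` is impossible (`a ≤ x`).
-/

set_option autoImplicit false

open CategoryTheory Filter Set

namespace Crest.Agent.R296

open Cond

section rules

variable {α β : Type} [SemilatticeInf α] [SemilatticeInf β] {f : α → β}

theorem ts_ruleE {a x v z : α} {d : β} (hz : ∀ y, f y ≤ d ↔ y ≤ z) (h : RuleE a x v z)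
    (hd : d ⊓ f v = f (z ⊓ v)) : RuleE (f a) (f x) (f v) d := by
  intro ha hne
  refine (hz v).2 (h ((hz a).1 ha) fun e => hne ?_)
  rw [hd, e]

theorem ts_ruleU (hf : Monotone f) {W B Y : Set α} {z : α} {d : β} (hz : ∀ y, f y ≤ d ↔ y ≤ z)
    (h : RuleU W B Y z) (hd : ∀ w ∈ W, ∃ w' ∈ W, w' ≤ w ∧ d ⊓ f w' = f (z ⊓ w')) :
    RuleU (f '' W) (f '' B) (f '' Y) d := by
  intro hB
  rcases h (fun b hb => (hz b).1 (hB _ ⟨b, hb, rfl⟩)) with ⟨w, hw, h1⟩ | ⟨w, hw, y, hy, h1⟩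
  · exact Or.inl ⟨_, ⟨w, hw, rfl⟩, (hz w).2 h1⟩
  · obtain ⟨w', hw', h2, h3⟩ := hd w hw
    refine Or.inr ⟨_, ⟨w', hw', rfl⟩, _, ⟨y, hy, rfl⟩, ?_⟩
    rw [h3]
    exact hf ((inf_le_inf_left _ h2).trans h1)

end rules

section construction

variable {p : Cond}

/-- The filter generated by `a` and the tails of `c`. -/
def tsW (a : p) (c : ℕ → p) (z : p) : Prop := a ≤ z ∧ ∀ᶠ n in atTop, c n ≤ z

open Classical in
/-- The main embedding. -/
noncomputable def tsI (a x : p) (c : ℕ → p) (z : p) : p × p :=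
  (if tsW a c z then ⊤ else z ⊓ x, z)

/-- The side embedding. -/
def tsM (x : p) (e : p) : p × p := (e, e ⊓ x)

/-- The unpruned carrier. -/
structure tsBase (a x : p) (c : ℕ → p) (d : p × p) : Prop where
  eq : d.1 ⊓ x = d.2 ⊓ x
  top : tsW a c d.2 → d.1 = ⊤
  back : a ≤ d.2 → d.1 ≠ x → tsW a c d.2

/-- The pruned carrier. -/
structure tsMem (a x : p) (c : ℕ → p) (d : p × p) : Prop where
  base : tsBase a x c d
  E : ∀ {a₀ x₀ v₀ ξ Z}, p.D.Val a₀ x₀ v₀ ξ Z →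
    RuleE (tsI a x c a₀) (tsI a x c x₀) (tsI a x c v₀) d
  U : ∀ {W B Y}, p.D.Prom W B Y → RuleU (tsI a x c '' W) (tsI a x c '' B) (tsI a x c '' Y) d

variable {a x : p} {c : ℕ → p}

theorem tsW.mono {z z' : p} (h : tsW a c z) (hz : z ≤ z') : tsW a c z' :=
  ⟨h.1.trans hz, h.2.mono fun _ hn => hn.trans hz⟩

theorem tsW.inf {z z' : p} (h : tsW a c z) (h' : tsW a c z') : tsW a c (z ⊓ z') :=
  ⟨le_inf h.1 h'.1, (h.2.and h'.2).mono fun _ hn => le_inf hn.1 hn.2⟩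

theorem tsW_top : tsW a c ⊤ := ⟨le_top, Eventually.of_forall fun _ => le_top⟩

theorem ts_notW (h : p.D.U a x) {y : p} (hy : y ≤ x) : ¬ tsW a c y :=
  fun hw => p.ok.u_not h (hw.1.trans hy)

theorem tsI_pos {z : p} (hz : tsW a c z) : tsI a x c z = (⊤, z) := by
  rw [tsI, if_pos hz]

theorem tsI_neg {z : p} (hz : ¬ tsW a c z) : tsI a x c z = (z ⊓ x, z) := by
  rw [tsI, if_neg hz]

theorem tsI_inf (h : p.D.U a x) (z z' : p) :
    tsI a x c (z ⊓ z') = tsI a x c z ⊓ tsI a x c z' := by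
  have hxa := p.ok.u_le h
  by_cases hz : tsW a c z
  · by_cases hz' : tsW a c z'
    · rw [tsI_pos hz, tsI_pos hz', tsI_pos (hz.inf hz'), Prod.mk_inf_mk, top_inf_eq]
    · rw [tsI_pos hz, tsI_neg hz', tsI_neg (fun h' => hz' (h'.mono inf_le_right)), Prod.mk_inf_mk,
        top_inf_eq, inf_right_comm, inf_eq_right.2 (hxa.trans hz.1), inf_comm x z']
  · by_cases hz' : tsW a c z'
    · rw [tsI_neg hz, tsI_pos hz', tsI_neg (fun h' => hz (h'.mono inf_le_left)), Prod.mk_inf_mk,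
        inf_top_eq, inf_assoc, inf_eq_right.2 (hxa.trans hz'.1)]
    · rw [tsI_neg hz, tsI_neg hz', tsI_neg (fun h' => hz (h'.mono inf_le_left)), Prod.mk_inf_mk,
        inf_inf_distrib_right]

theorem tsI_mono (h : p.D.U a x) : Monotone (tsI a x c) := by
  intro z z' hz
  rw [← inf_eq_left, ← tsI_inf h, inf_eq_left.2 hz]

theorem tsBase.I_le {d : p × p} (hd : tsBase a x c d) (y : p) : tsI a x c y ≤ d ↔ y ≤ d.2 := by
  refine ⟨fun h => h.2, fun h => ?_⟩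
  by_cases hy : tsW a c y
  · rw [tsI_pos hy]
    exact ⟨(hd.top (hy.mono h)).ge, h⟩
  · rw [tsI_neg hy]
    exact ⟨((inf_le_inf_right x h).trans hd.eq.ge).trans inf_le_left, h⟩

theorem tsBase.M_le {d : p × p} (hd : tsBase a x c d) (y : p) : tsM x y ≤ d ↔ y ≤ d.1 :=
  ⟨fun h => h.1, fun h => ⟨h, ((inf_le_inf_right x h).trans hd.eq.le).trans inf_le_left⟩⟩

theorem tsBase.inf_M {d : p × p} (hd : tsBase a x c d) (y : p) :
    d ⊓ tsM x y = tsM x (d.1 ⊓ y) := by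
  refine Prod.ext rfl ?_
  change d.2 ⊓ (y ⊓ x) = d.1 ⊓ y ⊓ x
  rw [inf_right_comm, hd.eq, inf_comm y x, inf_assoc]

theorem tsBase.inf_I {d : p × p} (hd : tsBase a x c d) {y : p} (hy : ¬ tsW a c y) :
    d ⊓ tsI a x c y = tsI a x c (d.2 ⊓ y) := by
  rw [tsI_neg hy, tsI_neg (fun h' => hy (h'.mono inf_le_right))]
  refine Prod.ext ?_ rfl
  change d.1 ⊓ (y ⊓ x) = d.2 ⊓ y ⊓ x
  rw [inf_right_comm, ← hd.eq, inf_comm y x, inf_assoc]

theorem tsI_eq_M (h : p.D.U a x) {y : p} (hy : y ≤ x) : tsI a x c y = tsM x y := by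
  rw [tsI_neg (ts_notW h hy), tsM, inf_eq_left.2 hy]

theorem ts_le_of_I_le_M {y e : p} (h : tsI a x c y ≤ tsM x e) : y ≤ x :=
  le_trans h.2 inf_le_right

theorem tsBase_I (h : p.D.U a x) (z : p) : tsBase a x c (tsI a x c z) := by
  have hxa := p.ok.u_le h
  by_cases hz : tsW a c z
  · rw [tsI_pos hz]
    exact ⟨by rw [top_inf_eq, inf_eq_right.2 (hxa.trans hz.1)], fun _ => rfl, fun _ _ => hz⟩
  · rw [tsI_neg hz]
    exact ⟨by rw [inf_assoc, inf_idem], fun h' => absurd h' hz,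
      fun ha hne => absurd (inf_eq_right.2 (hxa.trans ha)) hne⟩

theorem tsBase_M (h : p.D.U a x) (e : p) : tsBase a x c (tsM x e) :=
  ⟨by change e ⊓ x = e ⊓ x ⊓ x; rw [inf_assoc, inf_idem],
    fun h' => absurd h' (ts_notW h inf_le_right),
    fun ha _ => absurd (le_trans ha inf_le_right) (p.ok.u_not h)⟩

theorem tsBase_top : tsBase a x c ⊤ := ⟨rfl, fun _ => rfl, fun _ _ => tsW_top⟩

theorem tsBase.inf (h : p.D.U a x) {d d' : p × p} (hd : tsBase a x c d) (hd' : tsBase a x c d') :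
    tsBase a x c (d ⊓ d') := by
  have hxa := p.ok.u_le h
  refine ⟨?_, fun hw => ?_, fun ha hne => ?_⟩
  · change d.1 ⊓ d'.1 ⊓ x = d.2 ⊓ d'.2 ⊓ x
    rw [inf_inf_distrib_right, hd.eq, hd'.eq, ← inf_inf_distrib_right]
  · change d.1 ⊓ d'.1 = ⊤
    rw [hd.top (hw.mono inf_le_left), hd'.top (hw.mono inf_le_right), top_inf_eq]
  · have h1 : a ≤ d.2 := le_trans ha inf_le_left
    have h2 : a ≤ d'.2 := le_trans ha inf_le_right
    have h3 : x ≤ d.1 := inf_eq_right.1 (hd.eq.trans (inf_eq_right.2 (hxa.trans h1)))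
    have h4 : x ≤ d'.1 := inf_eq_right.1 (hd'.eq.trans (inf_eq_right.2 (hxa.trans h2)))
    refine (hd.back h1 fun e => hne ?_).inf (hd'.back h2 fun e => hne ?_)
    · change d.1 ⊓ d'.1 = x
      rw [e, inf_eq_left.2 h4]
    · change d.1 ⊓ d'.1 = x
      rw [e, inf_eq_right.2 h3]

theorem ts_notW_val (h : p.D.U a x) {a₀ x₀ v₀ : p} {ξ : Xi} {Z : ℕ → p}
    (hv : p.D.Val a₀ x₀ v₀ ξ Z) (ha : a₀ ≤ x) : ¬ tsW a c v₀ := by
  intro hw
  rcases val_dichotomy hv ha with e | e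
  · rw [inf_eq_left.2 ((p.ok.u_le h).trans hw.1)] at e
    exact p.ok.val_av hv (ha.trans (e.le.trans (p.ok.val_xv hv)))
  · exact ts_notW h e hw

theorem ts_exists_notW (h : p.D.U a x) {W B Y : Set p} (hp : p.D.Prom W B Y)
    (hB : ∀ b ∈ B, b ≤ x) : ∃ w ∈ W, ¬ tsW a c w := by
  by_contra hcon
  push Not at hcon
  exact p.ok.prom_inv hp h hB fun w hw => (hcon w hw).1

theorem tsMem_I (h : p.D.U a x) (z : p) : tsMem a x c (tsI a x c z) where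
  base := tsBase_I h z
  E hv := ts_ruleE (tsBase_I h z).I_le (p.ok.val_E hv z) (tsI_inf h _ _).symm
  U hp := ts_ruleU (tsI_mono h) (tsBase_I h z).I_le (p.ok.prom_U hp z)
    fun w hw => ⟨w, hw, le_rfl, (tsI_inf h _ _).symm⟩

theorem tsMem_M (h : p.D.U a x) (e : p) : tsMem a x c (tsM x e) where
  base := tsBase_M h e
  E hv ha := ts_ruleE (tsBase_M h e).I_le (p.ok.val_E hv _)
    ((tsBase_M h e).inf_I (ts_notW_val h hv (ts_le_of_I_le_M ha))) ha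
  U hp hB := by
    obtain ⟨w₀, hw₀, hn⟩ := ts_exists_notW (c := c) h hp
      fun b hb => ts_le_of_I_le_M (hB _ ⟨b, hb, rfl⟩)
    refine ts_ruleU (tsI_mono h) (tsBase_M h e).I_le (p.ok.prom_U hp _) (fun w hw => ?_) hB
    obtain ⟨w', hw', h1, h2⟩ := p.ok.prom_dir hp w hw w₀ hw₀
    exact ⟨w', hw', h1, (tsBase_M h e).inf_I fun h' => hn (h'.mono h2)⟩

theorem tsMem_top : tsMem a x c ⊤ where
  base := tsBase_top
  E _ := RuleE.top _ _ _
  U hp := RuleU.top ((p.ok.prom_ne hp).image _)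

theorem tsMem.inf (h : p.D.U a x) {d d' : p × p} (hd : tsMem a x c d) (hd' : tsMem a x c d') :
    tsMem a x c (d ⊓ d') where
  base := hd.base.inf h hd'.base
  E hv := RuleE.inf (tsI_mono h (p.ok.val_xa hv)) (hd.E hv) (hd'.E hv)
  U hp := RuleU.inf (by
    rintro _ ⟨w, hw, rfl⟩ _ ⟨w', hw', rfl⟩
    obtain ⟨w'', hw'', h1, h2⟩ := p.ok.prom_dir hp w hw w' hw'
    exact ⟨_, ⟨w'', hw'', rfl⟩, tsI_mono h h1, tsI_mono h h2⟩) (hd.U hp) (hd'.U hp)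

/-- The carrier of the new condition. -/
def tsC (_h : p.D.U a x) (c : ℕ → p) : Type := {d : p × p // tsMem a x c d}

instance tsC.sl (h : p.D.U a x) (c : ℕ → p) : SemilatticeInf (tsC h c) :=
  Subtype.semilatticeInf fun _ _ hd hd' => hd.inf h hd'

instance tsC.ot (h : p.D.U a x) (c : ℕ → p) : OrderTop (tsC h c) where
  top := ⟨⊤, tsMem_top⟩
  le_top d := (le_top : d.1 ≤ ⊤)

instance tsC.ct (h : p.D.U a x) (c : ℕ → p) : Countable (tsC h c) :=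
  inferInstanceAs (Countable {d : p × p // tsMem a x c d})

/-- The main embedding into the carrier. -/
noncomputable def tsi (h : p.D.U a x) (c : ℕ → p) (z : p) : tsC h c := ⟨tsI a x c z, tsMem_I h z⟩

/-- The side embedding into the carrier. -/
def tsm (h : p.D.U a x) (c : ℕ → p) (e : p) : tsC h c := ⟨tsM x e, tsMem_M h e⟩

variable (h : p.D.U a x)

theorem tsi_le (y : p) (d : tsC h c) : tsi h c y ≤ d ↔ y ≤ d.1.2 := d.2.base.I_le y

theorem tsm_le (y : p) (d : tsC h c) : tsm h c y ≤ d ↔ y ≤ d.1.1 := d.2.base.M_le y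

theorem ts_inf_m (d : tsC h c) (y : p) : d ⊓ tsm h c y = tsm h c (d.1.1 ⊓ y) :=
  Subtype.ext (d.2.base.inf_M y)

theorem tsi_pre : IsPre (tsi h c) :=
  ⟨fun _ _ e => congrArg (fun d : tsC h c => d.1.2) e, fun y y' => Subtype.ext (tsI_inf h y y'),
    fun d => ⟨d.1.2, fun y => tsi_le h y d⟩⟩

theorem tsm_pre : IsPre (tsm h c) :=
  ⟨fun _ _ e => congrArg (fun d : tsC h c => d.1.1) e, fun y y' => (ts_inf_m h (tsm h c y) y').symm,
    fun d => ⟨d.1.1, fun y => tsm_le h y d⟩⟩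

theorem tsi_eq_m {y : p} (hy : y ≤ x) : tsi h c y = tsm h c y := Subtype.ext (tsI_eq_M h hy)

theorem ts_le_of_i_le_m {y e : p} (hy : tsi h c y ≤ tsm h c e) : y ≤ x := ts_le_of_I_le_M hy

theorem ts_key {y y' : p} (e : tsi h c y = tsm h c y') : y ≤ x ∧ y = y' := by
  have hy := ts_le_of_i_le_m h e.le
  rw [tsi_eq_m h hy] at e
  exact ⟨hy, (tsm_pre h).inj e⟩

theorem tsi_inf_m {v : p} (hv : ¬ tsW a c v) (y : p) :
    tsi h c v ⊓ tsm h c y = tsm h c (v ⊓ x ⊓ y) := by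
  rw [ts_inf_m]
  change tsm h c ((tsI a x c v).1 ⊓ y) = _
  rw [tsI_neg hv]

theorem ts_ok_i : (p.D.push (tsi h c)).OK := by
  refine Data.push_ok p.ok (tsi_pre h) ?_ ?_
  · intro a₀ x₀ v₀ ξ Z hv d ha hne
    exact d.2.E hv ha fun e => hne (Subtype.ext e)
  · intro W B Y hp d hB
    rcases d.2.U hp (by rintro _ ⟨b, hb, rfl⟩; exact hB _ ⟨b, hb, rfl⟩) with
      ⟨_, ⟨w, hw, rfl⟩, h1⟩ | ⟨_, ⟨w, hw, rfl⟩, _, ⟨y, hy, rfl⟩, h1⟩
    · exact Or.inl ⟨_, ⟨w, hw, rfl⟩, h1⟩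
    · exact Or.inr ⟨_, ⟨w, hw, rfl⟩, _, ⟨y, hy, rfl⟩, h1⟩

theorem ts_ok_m : (p.D.push (tsm h c)).OK :=
  Data.push_ok_of_ideal p.ok (tsm_pre h) fun d y => by
    rw [(tsm_pre h).π_eq fun y => tsm_le h y d, ts_inf_m]

theorem ts_cross_im : Cross (p.D.push (tsi h c)) (p.D.push (tsm h c)) := by
  apply cross_push
  · intro c₀ ξ d c' d' h1 h2 e
    obtain ⟨hc, rfl⟩ := ts_key h e
    obtain rfl := p.ok.tag_fun h1 h2
    exact tsi_eq_m h ((p.ok.tag_le h1).trans hc)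
  · intro a₀ x₀ v ξ Z a' x' v' Z' h1 h2 e1 e2 hc
    obtain ⟨ha, rfl⟩ := ts_key h e1
    obtain ⟨-, rfl⟩ := ts_key h e2
    have hv : v ≤ x := ts_le_of_i_le_m h
      ((hc (tsm h c ⊤) (e1.le.trans ((tsm_pre h).mono le_top))).2 ((tsm_pre h).mono le_top))
    rw [tsi_eq_m h hv] at hc ⊢
    rw [p.ok.val_fun h1 h2 fun y hy => by
      simpa only [(tsm_pre h).le_iff] using hc (tsm h c y) (e1.le.trans ((tsm_pre h).mono hy))]
  · intro a₀ x₀ v ξ Z a' x' v' ξ' Z' h1 h2 e1 e2 hne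
    obtain ⟨ha, rfl⟩ := ts_key h e1
    obtain ⟨-, rfl⟩ := ts_key h e2
    rw [e2]
    rcases val_dichotomy h1 ha with e | e
    · rw [tsi_inf_m h (ts_notW_val h h1 ha), inf_comm v x, e, inf_eq_left.2 (p.ok.val_xv h2)]
    · rw [tsi_eq_m h e] at hne ⊢
      rw [← (tsm_pre h).map_inf, p.ok.val_I h1 h2 fun e' => hne (by rw [e'])]
  · intro a₀ x₀ v ξ Z a' x' v' ξ' Z' h1 h2 e1 e2 e3
    obtain ⟨ha, rfl⟩ := ts_key h e1
    obtain ⟨-, rfl⟩ := ts_key h e2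
    obtain ⟨hv, rfl⟩ := ts_key h e3
    filter_upwards [p.ok.val_tail h1 h2, val_eventually_le h1 ha hv] with n hn hn'
    rw [← hn, tsi_eq_m h hn']
  · intro W B Y a₁ x₁ hp hu hB hW
    obtain ⟨w₀, hw₀, hn⟩ := ts_exists_notW (c := c) h hp fun b hb => ts_le_of_i_le_m h (hB b hb)
    have ha : a₁ ≤ x := by
      have h1 : a₁ ≤ (tsI a x c w₀).1 := (tsm_le h _ _).1 (hW w₀ hw₀)
      rw [tsI_neg hn] at h1
      exact le_trans h1 inf_le_right
    rw [← tsi_eq_m h ha] at hW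
    rw [← tsi_eq_m h ((p.ok.u_le hu).trans ha)] at hB
    exact p.ok.prom_inv hp hu (fun b hb => (tsi_pre h).le_iff.1 (hB b hb))
      fun w hw => (tsi_pre h).le_iff.1 (hW w hw)
  · intro W B Y a₁ x₁ hp hu hB hW
    obtain ⟨w₀, hw₀⟩ := p.ok.prom_ne hp
    have ha : a₁ ≤ x := ts_le_of_i_le_m h (hW w₀ hw₀)
    rw [tsi_eq_m h ha] at hW
    rw [tsi_eq_m h ((p.ok.u_le hu).trans ha)] at hB
    exact p.ok.prom_inv hp hu (fun b hb => (tsm_pre h).le_iff.1 (hB b hb))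
      fun w hw => (tsm_pre h).le_iff.1 (hW w hw)

theorem ts_ok_val (ξ : Xi) :
    (valData (tsi h c a) (tsi h c x) (tsm h c ⊤) ξ (fun n => tsi h c (c n))).OK := by
  refine valData_ok ((tsi_pre h).mono (p.ok.u_le h)) ?_
    (fun h' => p.ok.u_not h (ts_le_of_i_le_m h h')) ?_ ?_
  · rw [tsi_eq_m h le_rfl]
    exact (tsm_pre h).mono le_top
  · intro d ha hne
    rw [ts_inf_m, inf_top_eq, tsi_eq_m h le_rfl] at hne
    have h1 := d.2.base.back ((tsi_le h _ _).1 ha) fun e => hne (by rw [e])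
    exact (tsm_le h _ _).2 (d.2.base.top h1).ge
  · intro d ha
    rw [tsi_le] at ha
    simp only [tsm_le, tsi_le]
    constructor
    · intro h1
      refine (d.2.base.back ha fun e => ?_).2
      rw [e] at h1
      exact p.ok.u_not h (le_top.trans h1)
    · intro h1
      exact (d.2.base.top ⟨ha, h1⟩).ge

theorem ts_cross_i {ξ : Xi} (hξ : ξ ∉ p.D.used) : Cross (p.D.push (tsi h c))
    (valData (tsi h c a) (tsi h c x) (tsm h c ⊤) ξ (fun n => tsi h c (c n))) where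
  tag _ h' := h'.elim
  val_fun := by
    rintro _ _ _ _ _ _ _ ⟨a₀, x₀, v₀, Z₀, h1, -⟩ ⟨-, -, -, rfl, -⟩
    exact absurd (Or.inr ⟨_, _, _, _, h1⟩) hξ
  val_I := by
    rintro _ _ _ _ _ _ _ _ ⟨a₀, x₀, v₀, Z₀, h1, rfl, rfl, rfl, -⟩ ⟨e1, e2, rfl, -⟩ -
    have e1' := (tsi_pre h).inj e1
    have e2' := (tsi_pre h).inj e2
    rw [e1', e2'] at h1
    rw [e2', tsi_inf_m h fun hw => p.ok.val_av h1 hw.1, inf_top_eq,
      inf_eq_right.2 (p.ok.val_xv h1), tsi_eq_m h le_rfl]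
  val_tail := by
    rintro _ _ _ _ _ _ _ ⟨a₀, x₀, v₀, Z₀, h1, rfl, rfl, rfl, -⟩ ⟨-, -, e, -⟩
    obtain ⟨h2, rfl⟩ := ts_key h e
    exact absurd (le_top.trans h2) (p.ok.u_not h)
  inv _ h' := h'.elim
  inv' h' := h'.elim

theorem ts_cross_m {ξ : Xi} (hξ : ξ ∉ p.D.used) : Cross (p.D.push (tsm h c))
    (valData (tsi h c a) (tsi h c x) (tsm h c ⊤) ξ (fun n => tsi h c (c n))) where
  tag _ h' := h'.elim
  val_fun := by
    rintro _ _ _ _ _ _ _ ⟨a₀, x₀, v₀, Z₀, h1, -⟩ ⟨-, -, -, rfl, -⟩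
    exact absurd (Or.inr ⟨_, _, _, _, h1⟩) hξ
  val_I := by
    rintro _ _ _ _ _ _ _ _ ⟨a₀, x₀, v₀, Z₀, h1, rfl, -⟩ ⟨e1, -⟩
    exact absurd (ts_key h e1.symm).1 (p.ok.u_not h)
  val_tail := by
    rintro _ _ _ _ _ _ _ ⟨a₀, x₀, v₀, Z₀, h1, rfl, -⟩ ⟨e1, -⟩
    exact absurd (ts_key h e1.symm).1 (p.ok.u_not h)
  inv _ h' := h'.elim
  inv' h' := h'.elim

end construction

theorem exists_tstep (p : Cond) (a x : p) (h : p.D.U a x) (c : ℕ → p) :
    ∃ (p' : Cond) (i m : p ⟶ p') (ξ : Xi), (∀ y, y ≤ x → i y = m y) ∧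
      p'.D.Val (i a) (i x) (m ⊤) ξ (fun n => i (c n)) := by
  obtain ⟨ξ, hξ⟩ := exists_fresh p.ok.used_ct
  let p' : Cond :=
    { α := tsC h c
      D := ((p.D.push (tsi h c)).union (p.D.push (tsm h c))).union
        (valData (tsi h c a) (tsi h c x) (tsm h c ⊤) ξ (fun n => tsi h c (c n)))
      ok := Data.union_ok (Data.union_ok (ts_ok_i h) (ts_ok_m h) (ts_cross_im h)) (ts_ok_val h ξ)
        ((ts_cross_i h hξ).union_left (ts_cross_m h hξ)) }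
  exact ⟨p', homMk (Q := p') (tsi h c) (tsi_pre h) (p.D.hom_push _).union_left.union_left,
    homMk (Q := p') (tsm h c) (tsm_pre h) (p.D.hom_push _).union_right.union_left, ξ,
    fun y hy => tsi_eq_m h hy, Or.inr ⟨rfl, rfl, rfl, rfl, EventuallyEq.rfl⟩⟩

end Crest.Agent.R296
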