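import Crest.Agent.R296.Pair
import Crest.Agent.R296.Fusion
import Crest.Agent.R296.TStep

/-!
# R296 (S0448): the canonical selection
-/

set_option autoImplicit false

open CategoryTheory Filter

namespace Crest.Agent.R296

open Cond

/-- The least index realised in some extension. -/
theorem exists_least {I : Type 2} {R : Cond} (P : I → ∀ S : Cond, (R ⟶ S) → Prop)
    (h : ∃ (i : I) (S : Cond) (l : R ⟶ S), P i S l) :
    ∃ (i : I) (S : Cond) (l : R ⟶ S), P i S l ∧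
      ∀ i', WellOrderingRel i' i → ∀ (T : Cond) (m : S ⟶ T), ¬ P i' T (l ≫ m) := by
  obtain ⟨i, ⟨S, l, h1⟩, h2⟩ := (WellOrderingRel.isWellOrder (α := I)).wf.has_min
    {i | ∃ (S : Cond) (l : R ⟶ S), P i S l} h
  exact ⟨i, S, l, h1, fun i' hi T m h3 => h2 i' ⟨T, _, h3⟩ hi⟩

theorem eq_of_not_wo {I : Type 2} {i i' : I} (h : ¬ WellOrderingRel i i')
    (h' : ¬ WellOrderingRel i' i) : i = i' := by
  rcases trichotomous_of WellOrderingRel i i' with h1 | h1 | h1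
  · exact absurd h1 h
  · exact h1
  · exact absurd h1 h'

/-- Descriptions of elements over `Q₀`. -/
structure Descr (Q₀ : Cond) : Type 2 where
  q : Cond
  ι : Q₀ ⟶ q
  σ : El q
  c : ℕ → q

/-- Targets over `Q₀`. -/
structure Target (Q₀ : Cond) : Type 2 where
  ξ : Xi
  p : Cond
  ι : Q₀ ⟶ p
  σ : El p

variable {Q₀ : Cond}

/-- The chain of the description permanently generates the supports above the top of `Q₀`. -/
structure Descr.OK (β : Descr Q₀) : Prop where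
  tags : TagTotal β.q
  anti : Antitone β.c
  le : ∀ n, β.ι ⊤ ≤ β.c n
  supp : ∀ n, Supp β.q (β.c n) β.σ
  perm : ∀ (T : Cond) (l : β.q ⟶ T) (d : T), l (β.ι ⊤) ≤ d → Supp T d (β.σ.map l) →
    ∃ n, l (β.c n) ≤ d

/-- `k` realises the description `β` of `A`. -/
structure Realizes (β : Descr Q₀) (S : Cond) (l : Q₀ ⟶ S) (A : El S) (k : β.q ⟶ S) : Prop where
  ok : β.OK
  comm : β.ι ≫ k = l
  eqv : Eqv (β.σ.map k) A

theorem Realizes.map {β : Descr Q₀} {S : Cond} {l : Q₀ ⟶ S} {A : El S} {k : β.q ⟶ S}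
    (h : Realizes β S l A k) {T : Cond} (m : S ⟶ T) : Realizes β T (l ≫ m) (A.map m) (k ≫ m) :=
  ⟨h.ok, by rw [← h.comm, Category.assoc], by simpa using h.eqv.map m⟩

theorem Realizes.congr {β : Descr Q₀} {S : Cond} {l : Q₀ ⟶ S} {A A' : El S} {k : β.q ⟶ S}
    (h : Realizes β S l A k) (e : Eqv A A') : Realizes β S l A' k :=
  ⟨h.ok, h.comm, h.eqv.trans e⟩

theorem Realizes.top {β : Descr Q₀} {S : Cond} {l : Q₀ ⟶ S} {A : El S} {k : β.q ⟶ S}
    (h : Realizes β S l A k) : k (β.ι ⊤) = l ⊤ := by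
  rw [← h.comm]; rfl

/-- Two realisations that agree at a point of the chain describe the same element. -/
theorem Realizes.eqv_of_eq {β : Descr Q₀} {S : Cond} {l : Q₀ ⟶ S} {A A' : El S}
    {k k' : β.q ⟶ S} (h : Realizes β S l A k) (h' : Realizes β S l A' k') {n : ℕ}
    (e : k (β.c n) = k' (β.c n)) : Eqv A A' :=
  (h.eqv.symm.trans ((h.ok.supp n).eqv_of_agree fun _ hy => h.ok.tags.eq_of_le e hy)).trans h'.eqv

/-- If some element with description `β` is supported by the top of `Q₀`, all are equal. -/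
theorem Realizes.eqv_of_supp {β : Descr Q₀} {S : Cond} {l : Q₀ ⟶ S} {A A' B : El S}
    {k k' k'' : β.q ⟶ S} (h : Realizes β S l A k) (h' : Realizes β S l A' k')
    (h'' : Realizes β S l B k'') (hB : Supp S (l ⊤) B) : Eqv A A' := by
  obtain ⟨n, hn⟩ := h.ok.perm S k'' (l ⊤) h''.top.le (hB.congr h''.eqv.symm)
  rw [← h''.top, map_le_map] at hn
  have e : β.c n = β.ι ⊤ := le_antisymm hn (h.ok.le n)
  exact h.eqv_of_eq h' (n := n) (by rw [e, h.top, h'.top])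

/-- Two realisations for the same element generate the same filter. -/
theorem Realizes.eventually_le {β : Descr Q₀} {S : Cond} {l : Q₀ ⟶ S} {A : El S}
    {k k' : β.q ⟶ S} (h : Realizes β S l A k) (h' : Realizes β S l A k') {d : S}
    (hd : ∀ᶠ n in atTop, k (β.c n) ≤ d) : ∀ᶠ n in atTop, k' (β.c n) ≤ d := by
  obtain ⟨n, hn⟩ := hd.exists
  obtain ⟨n', hn'⟩ := h.ok.perm S k' (k (β.c n))
    (by rw [h'.top, ← h.top, map_le_map]; exact h.ok.le n)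
    (((h.ok.supp n).map k).congr (h.eqv.trans h'.eqv.symm))
  filter_upwards [eventually_ge_atTop n'] with n'' hn''
  exact le_trans ((map_le_map k').2 (h.ok.anti hn'')) (hn'.trans hn)

/-- `β` is realised and no smaller description is ever realised. -/
def LeastReal (β : Descr Q₀) (S : Cond) (l : Q₀ ⟶ S) (A : El S) : Prop :=
  (∃ k, Realizes β S l A k) ∧ ∀ β' : Descr Q₀, WellOrderingRel β' β →
    ∀ (T : Cond) (m : S ⟶ T), ¬ ∃ k', Realizes β' T (l ≫ m) (A.map m) k'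

theorem LeastReal.map {β : Descr Q₀} {S : Cond} {l : Q₀ ⟶ S} {A : El S}
    (h : LeastReal β S l A) {T : Cond} (m : S ⟶ T) : LeastReal β T (l ≫ m) (A.map m) := by
  obtain ⟨⟨k, hk⟩, h⟩ := h
  exact ⟨⟨_, hk.map m⟩, fun β' hβ T' m' => by simpa using h β' hβ T' (m ≫ m')⟩

theorem LeastReal.congr {β : Descr Q₀} {S : Cond} {l : Q₀ ⟶ S} {A A' : El S}
    (h : LeastReal β S l A) (e : Eqv A A') : LeastReal β S l A' := by
  obtain ⟨⟨k, hk⟩, h⟩ := h
  exact ⟨⟨_, hk.congr e⟩, fun β' hβ T m ⟨k', hk'⟩ => h β' hβ T m ⟨k', hk'.congr (e.map m).symm⟩⟩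

theorem LeastReal.unique {β β' : Descr Q₀} {S : Cond} {l : Q₀ ⟶ S} {A : El S}
    (h : LeastReal β S l A) (h' : LeastReal β' S l A) : β = β' :=
  eq_of_not_wo (fun hβ => h'.2 β hβ S (𝟙 S) (by simpa using h.1))
    (fun hβ => h.2 β' hβ S (𝟙 S) (by simpa using h'.1))

theorem exists_leastReal (S : Cond) (l : Q₀ ⟶ S) (A : El S) :
    ∃ (β : Descr Q₀) (T : Cond) (m : S ⟶ T), LeastReal β T (l ≫ m) (A.map m) := by
  obtain ⟨β, T, m, h1, h2⟩ := exists_least (I := Descr Q₀) (R := S)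
    (fun β T m => ∃ k, Realizes β T (l ≫ m) (A.map m) k) (by
      obtain ⟨q, k, c, h1, h2, h3, h4, h5⟩ := exists_chain S (l ⊤) A
      exact ⟨⟨q, l ≫ k, A.map k, c⟩, q, k, 𝟙 q,
        ⟨h1, h2, h3, h4, fun T m d hd hs => h5 T m d hd (by simpa using hs)⟩,
        Category.comp_id _, by simpa using Eqv.refl _⟩)
  exact ⟨β, T, m, h1, fun β' hβ T' m' => by simpa using h2 β' hβ T' m'⟩

variable (Rel : ∀ S : Cond, (Q₀ ⟶ S) → El S → El S → Prop) {Q₁ : Cond} (j : Q₀ ⟶ Q₁)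

/-- The target `γ` is related to an element with least description `β`. -/
def IsTarget (β : Descr Q₀) (γ : Target Q₀) : Prop :=
  TagTotal γ.p ∧ ∃ B : El γ.p, LeastReal β γ.p γ.ι B ∧ Rel γ.p γ.ι B γ.σ

/-- A copy of the target `γ` sits at a value for the chain of a realisation of `β`. -/
structure Good (β : Descr Q₀) (γ : Target Q₀) (S : Cond) (l : Q₁ ⟶ S) (A : El S) (k : β.q ⟶ S)
    (m : γ.p ⟶ S) : Prop where
  real : Realizes β S (j ≫ l) A k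
  target : IsTarget Rel β γ
  comm : γ.ι ≫ m = j ≫ l
  val : S.D.Val (l ⊤) (l (j ⊤)) (m ⊤) γ.ξ (fun n => k (β.c n))

/-- The canonical selection. -/
def Canon (S : Cond) (l : Q₁ ⟶ S) (A A' : El S) : Prop :=
  ∃ (β : Descr Q₀) (γ : Target Q₀) (k : β.q ⟶ S) (m : γ.p ⟶ S),
    LeastReal β S (j ≫ l) A ∧ Good Rel j β γ S l A k m ∧
    (∀ γ' : Target Q₀, WellOrderingRel γ' γ → ∀ (T : Cond) (n : S ⟶ T),
      ¬ ∃ k' m', Good Rel j β γ' T (l ≫ n) (A.map n) k' m') ∧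
    Eqv A' (γ.σ.map m)

variable {Rel j}

theorem Good.map {β : Descr Q₀} {γ : Target Q₀} {S : Cond} {l : Q₁ ⟶ S} {A : El S} {k : β.q ⟶ S}
    {m : γ.p ⟶ S} (h : Good Rel j β γ S l A k m) {T : Cond} (n : S ⟶ T) :
    Good Rel j β γ T (l ≫ n) (A.map n) (k ≫ n) (m ≫ n) :=
  ⟨by simpa using h.real.map n, h.target, by rw [← Category.assoc, h.comm, Category.assoc],
    map_val n h.val⟩

theorem Good.congr {β : Descr Q₀} {γ : Target Q₀} {S : Cond} {l : Q₁ ⟶ S} {A A' : El S}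
    {k : β.q ⟶ S} {m : γ.p ⟶ S} (h : Good Rel j β γ S l A k m) (e : Eqv A A') :
    Good Rel j β γ S l A' k m :=
  ⟨h.real.congr e, h.target, h.comm, h.val⟩

theorem Canon.map {S : Cond} {l : Q₁ ⟶ S} {A A' : El S} (h : Canon Rel j S l A A') {T : Cond}
    (n : S ⟶ T) : Canon Rel j T (l ≫ n) (A.map n) (A'.map n) := by
  obtain ⟨β, γ, k, m, h1, h2, h3, h4⟩ := h
  exact ⟨β, γ, k ≫ n, m ≫ n, by simpa using h1.map n, h2.map n,
    fun γ' hγ T' n' => by simpa using h3 γ' hγ T' (n ≫ n'), by simpa using h4.map n⟩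

theorem Canon.congr {S : Cond} {l : Q₁ ⟶ S} {A A' B B' : El S} (h : Canon Rel j S l A A')
    (e : Eqv A B) (e' : Eqv A' B') : Canon Rel j S l B B' := by
  obtain ⟨β, γ, k, m, h1, h2, h3, h4⟩ := h
  exact ⟨β, γ, k, m, h1.congr e, h2.congr e,
    fun γ' hγ T n ⟨k', m', h5⟩ => h3 γ' hγ T n ⟨k', m', h5.congr (e.map n).symm⟩, e'.symm.trans h4⟩

theorem Canon.func {S : Cond} {l : Q₁ ⟶ S} {A A' A'' : El S} (h : Canon Rel j S l A A')
    (h' : Canon Rel j S l A A'') : Eqv A' A'' := by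
  obtain ⟨β, γ, k, m, h1, h2, h3, h4⟩ := h
  obtain ⟨β', γ', k', m', h1', h2', h3', h4'⟩ := h'
  obtain rfl := h1.unique h1'
  obtain rfl : γ = γ' := eq_of_not_wo
    (fun hγ => h3' γ hγ S (𝟙 S) ⟨k, m, by simpa using h2⟩)
    (fun hγ => h3 γ' hγ S (𝟙 S) ⟨k', m', by simpa using h2'⟩)
  have hv : m ⊤ = m' ⊤ := by
    refine S.ok.val_fun h2.val h2'.val fun d hd => ?_
    rw [S.ok.val_Z h2.val d hd, S.ok.val_Z h2'.val d hd]
    exact ⟨h2.real.eventually_le h2'.real, h2'.real.eventually_le h2.real⟩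
  obtain rfl : m = m' := hom_ext fun y => h2.target.1.eq_of_le hv le_top
  exact h4.trans h4'.symm

theorem exists_canon_of_dense (hU : Q₁.D.U ⊤ (j ⊤))
    (hmap : ∀ (S : Cond) (l : Q₀ ⟶ S) (B B' : El S) (T : Cond) (m : S ⟶ T),
      Rel S l B B' → Rel T (l ≫ m) (B.map m) (B'.map m))
    {S : Cond} (l : Q₁ ⟶ S) (A : El S)
    (hA : Dense S (fun T m => ∃ A', Rel T (j ≫ l ≫ m) (A.map m) A')) :
    ∃ (T : Cond) (m : S ⟶ T) (A' : El T), Canon Rel j T (l ≫ m) (A.map m) A' := by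
  obtain ⟨β, S₁, m₁, h1⟩ := exists_leastReal S (j ≫ l) A
  obtain ⟨γ, S₂, m₂, ⟨k, m, h2⟩, h3⟩ := exists_least (I := Target Q₀) (R := S₁)
    (fun γ T n => ∃ k m, Good Rel j β γ T (l ≫ m₁ ≫ n) (A.map (m₁ ≫ n)) k m) (by
      obtain ⟨S₂, m₂, A', h2⟩ := hA S₁ m₁
      obtain ⟨p, m₃, hp⟩ := exists_tags S₂
      obtain ⟨k, hk⟩ := h1.1
      obtain ⟨p', i, m, ξ, hi, hval⟩ := exists_tstep p _ _ (map_u (l ≫ m₁ ≫ m₂ ≫ m₃) hU)
        (fun n => m₃ (m₂ (k (β.c n))))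
      refine ⟨⟨ξ, p, j ≫ l ≫ m₁ ≫ m₂ ≫ m₃, A'.map m₃⟩, p', m₂ ≫ m₃ ≫ i, k ≫ m₂ ≫ m₃ ≫ i, m,
        by simpa using hk.map (m₂ ≫ m₃ ≫ i), ⟨hp, A.map (m₁ ≫ m₂ ≫ m₃), ?_, ?_⟩, ?_, hval⟩
      · simpa using h1.map (m₂ ≫ m₃)
      · simpa using hmap _ _ _ _ _ m₃ h2
      · exact hom_ext fun y => (hi _ (by simp)).symm)
  refine ⟨S₂, m₁ ≫ m₂, _, β, γ, k, m, by simpa using h1.map m₂, h2, fun γ' hγ T n => ?_,
    Eqv.refl _⟩
  simpa using h3 γ' hγ T n

section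

variable (hmap : ∀ (S : Cond) (l : Q₀ ⟶ S) (B B' : El S) (T : Cond) (m : S ⟶ T),
      Rel S l B B' → Rel T (l ≫ m) (B.map m) (B'.map m))
include hmap

theorem Good.rel {β : Descr Q₀} {γ : Target Q₀} {S : Cond} {l : Q₁ ⟶ S} {A : El S} {k : β.q ⟶ S}
    {m : γ.p ⟶ S} (h : Good Rel j β γ S l A k m) :
    ∃ B : El S, LeastReal β S (j ≫ l) B ∧ Rel S (j ≫ l) B (γ.σ.map m) := by
  obtain ⟨B, h1, h2⟩ := h.target.2
  exact ⟨B.map m, h.comm ▸ h1.map m, h.comm ▸ hmap _ _ _ _ _ m h2⟩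

/-- The selected element is related to some `B`, which is `A` if it is supported by the top of
`Q₀`. -/
theorem Canon.rel {S : Cond} {l : Q₁ ⟶ S} {A A' : El S} (h : Canon Rel j S l A A') :
    ∃ B B' : El S, Rel S (j ≫ l) B B' ∧ Eqv A' B' ∧ (Supp S (l (j ⊤)) A → Eqv A B) := by
  obtain ⟨β, γ, k, m, h1, h2, -, h4⟩ := h
  obtain ⟨B, ⟨⟨k', h5⟩, -⟩, h6⟩ := h2.rel hmap
  exact ⟨B, _, h6, h4, fun hs => h2.real.eqv_of_supp h5 h2.real hs⟩

theorem Canon.inj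
    (hfun : ∀ (S : Cond) (l : Q₀ ⟶ S) (B₁ B₂ B₁' B₂' : El S),
      Rel S l B₁ B₁' → Rel S l B₂ B₂' → Eqv B₁' B₂' → Eqv B₁ B₂)
    {S : Cond} {l : Q₁ ⟶ S} {A₁ A₂ A' : El S} (h : Canon Rel j S l A₁ A')
    (h' : Canon Rel j S l A₂ A') : Eqv A₁ A₂ := by
  obtain ⟨β, γ, k, m, h1, h2, -, h4⟩ := h
  obtain ⟨β', γ', k', m', h1', h2', -, h4'⟩ := h'
  obtain ⟨B, h5, h6⟩ := h2.rel hmap
  obtain ⟨B', h5', h6'⟩ := h2'.rel hmap
  have e : Eqv (γ.σ.map m) (γ'.σ.map m') := h4.symm.trans h4'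
  obtain rfl : β = β' := (h5.congr (hfun _ _ _ _ _ _ h6 h6' e)).unique h5'
  by_cases hv : m ⊤ = m' ⊤
  · have h7 := h2'.val
    rw [← hv] at h7
    obtain ⟨n, hn⟩ := (S.ok.val_tail h2.val h7).exists
    exact h2.real.eqv_of_eq h2'.real hn
  · have h7 : Supp S (l (j ⊤)) (γ.σ.map m) := by
      rw [← S.ok.val_I h2.val h2'.val hv]
      exact (supp_map _ m le_rfl).inf ((supp_map _ m' le_rfl).congr e.symm)
    obtain ⟨k'', h8⟩ := h5.1
    refine h2.real.eqv_of_supp h2'.real h8 (supp_of_agree fun T k₁ k₂ hk => ?_)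
    have e1 : (j ≫ l) ≫ k₁ = (j ≫ l) ≫ k₂ := hom_ext fun y => hk _ (by simp)
    exact hfun T _ _ _ _ _ (hmap _ _ _ _ _ k₁ h6) (e1 ▸ hmap _ _ _ _ _ k₂ h6) (h7.eqv_of_agree hk)

end

/-- The graph of the canonical selection on `Y`. -/
theorem exists_graph (Y : El Q₀) : ∃ g : El Q₁,
    (∀ (S : Cond) (l : Q₁ ⟶ S) (A A' : El S), PMem (g.map l) A A' →
      Dense S (fun T m => Canon Rel j T (l ≫ m) (A.map m) (A'.map m))) ∧
    (∀ (S : Cond) (l : Q₁ ⟶ S) (A A' : El S), Mem A (Y.map (j ≫ l)) → Canon Rel j S l A A' →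
      PMem (g.map l) A A') := by
  classical
  obtain ⟨g, hg⟩ := exists_el Q₁ (fun S l z => ∃ A A' : El S, IsDir (Y.map (j ≫ l)) A ∧
      Canon Rel j S l A A' ∧ Eqv z (op A A'))
    (by
      rintro S l z T m ⟨A, A', h1, h2, h3⟩
      exact ⟨A.map m, A'.map m, by simpa using h1.map m, h2.map m,
        (h3.map m).trans (op_map _ _ _)⟩)
    (by
      rintro S l z z' e ⟨A, A', h1, h2, h3⟩
      exact ⟨A, A', h1, h2, e.symm.trans h3⟩)
    (by
      intro S l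
      refine ⟨DirAt (Y.map (j ≫ l)), fun δ =>
        if h : ∃ A', Canon Rel j S l δ.el A' then op δ.el h.choose else δ.el, ?_⟩
      rintro z ⟨_, A', ⟨δ, rfl⟩, h2, h3⟩
      have h : ∃ A', Canon Rel j S l δ.el A' := ⟨A', h2⟩
      refine ⟨δ, ?_⟩
      simp only [dif_pos h]
      exact h3.trans (op_congr (Eqv.refl _) (h2.func h.choose_spec)))
  refine ⟨g, fun S l A A' h => ((hg S l _).1 h).mono ?_, fun S l A A' h1 h2 => (hg S l _).2 ?_⟩
  · rintro T m ⟨B, B', -, h2, h3⟩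
    have h4 := (op_map _ _ _).symm.trans h3
    exact h2.congr (op_inj_left h4).symm (op_inj_right h4).symm
  · refine Dense.mono h1 ?_
    rintro T m ⟨B, h3, h4⟩
    exact ⟨B, A'.map m, by simpa using h3, (h2.map m).congr h4 (Eqv.refl _),
      (op_map _ _ _).trans (op_congr h4 (Eqv.refl _))⟩

end Crest.Agent.R296
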