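import Mathlib

/-!
# R296 (S0448), part 3: the category of conditions

A condition is a countable meet-semilattice with top carrying four kinds of data:

* tags `Tag c ξ e` (`e ≤ c`; `e` is determined by `c` and `ξ`),
* pairs `U a x` (`x < a`),
* values `Val a x v ξ Z` (`v` is the `ξ`-th value over the pair `(a, x)` for the filter generated
  by `a` and the tails of `Z`),
* promises `Prom W B Y`.

Arrows are injective meet-preserving maps with an upper adjoint which preserve the data.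
-/

set_option autoImplicit false

open CategoryTheory Filter Set

namespace Crest.Agent.R296

/-- The uncountable type of labels. -/
abbrev Xi : Type := ℝ

theorem exists_fresh {s : Set Xi} (hs : s.Countable) : ∃ ξ : Xi, ξ ∉ s := by
  by_contra h
  push Not at h
  exact Cardinal.not_countable_real (hs.mono fun ξ _ => h ξ)

/-- Countably many fresh labels. -/
theorem exists_fresh_inj {s : Set Xi} (hs : s.Countable) (J : Type) [Countable J] :
    ∃ g : J → Xi, Function.Injective g ∧ ∀ j, g j ∉ s := by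
  have hinf : (sᶜ).Infinite := by
    intro hfin
    apply Cardinal.not_countable_real
    rw [← union_compl_self s]
    exact hs.union hfin.countable
  obtain ⟨e, he⟩ := exists_injective_nat J
  refine ⟨fun j => (hinf.natEmbedding _ (e j) : Xi), ?_, fun j => (hinf.natEmbedding _ (e j)).2⟩
  intro i j h
  exact he ((hinf.natEmbedding _).injective (Subtype.ext h))

/-- The data on a carrier. -/
structure Data (α : Type) : Type where
  Tag : α → Xi → α → Prop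
  U : α → α → Prop
  Val : α → α → α → Xi → (ℕ → α) → Prop
  Prom : Set α → Set α → Set α → Prop

/-- The labels that occur in the data. -/
def Data.used {α : Type} (D : Data α) : Set Xi :=
  {ξ | (∃ c e, D.Tag c ξ e) ∨ ∃ a x v Z, D.Val a x v ξ Z}

/-- The rule (E) of the value `v` over the pair `(a, x)` at the point `c`. -/
def RuleE {α : Type} [SemilatticeInf α] (a x v c : α) : Prop := a ≤ c → c ⊓ v ≠ x → v ≤ c

/-- The rule (U) of the promise `(W, B, Y)` at the point `c`. -/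
def RuleU {α : Type} [SemilatticeInf α] (W B Y : Set α) (c : α) : Prop :=
  (∀ b ∈ B, b ≤ c) → (∃ w ∈ W, w ≤ c) ∨ ∃ w ∈ W, ∃ y ∈ Y, c ⊓ w ≤ y

/-- The laws of the data. -/
structure Data.OK {α : Type} [SemilatticeInf α] (D : Data α) : Prop where
  tag_le : ∀ {c ξ e}, D.Tag c ξ e → e ≤ c
  tag_fun : ∀ {c ξ e e'}, D.Tag c ξ e → D.Tag c ξ e' → e = e'
  used_ct : D.used.Countable
  u_le : ∀ {a x}, D.U a x → x ≤ a
  u_not : ∀ {a x}, D.U a x → ¬ a ≤ x
  val_xa : ∀ {a x v ξ Z}, D.Val a x v ξ Z → x ≤ a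
  val_xv : ∀ {a x v ξ Z}, D.Val a x v ξ Z → x ≤ v
  val_av : ∀ {a x v ξ Z}, D.Val a x v ξ Z → ¬ a ≤ v
  val_E : ∀ {a x v ξ Z}, D.Val a x v ξ Z → ∀ c, RuleE a x v c
  val_Z : ∀ {a x v ξ Z}, D.Val a x v ξ Z → ∀ c, a ≤ c → (v ≤ c ↔ ∀ᶠ n in atTop, Z n ≤ c)
  val_fun : ∀ {a x v v' ξ Z Z'}, D.Val a x v ξ Z → D.Val a x v' ξ Z' →
    (∀ c, a ≤ c → (v ≤ c ↔ v' ≤ c)) → v = v'
  val_I : ∀ {a x v v' ξ ξ' Z Z'}, D.Val a x v ξ Z → D.Val a x v' ξ' Z' → v ≠ v' → v ⊓ v' = x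
  val_tail : ∀ {a x v ξ ξ' Z Z'}, D.Val a x v ξ Z → D.Val a x v ξ' Z' → Z =ᶠ[atTop] Z'
  val_congr : ∀ {a x v ξ Z Z'}, D.Val a x v ξ Z → Z =ᶠ[atTop] Z' → D.Val a x v ξ Z'
  prom_ne : ∀ {W B Y}, D.Prom W B Y → W.Nonempty
  prom_dir : ∀ {W B Y}, D.Prom W B Y → ∀ w ∈ W, ∀ w' ∈ W, ∃ w'' ∈ W, w'' ≤ w ∧ w'' ≤ w'
  prom_le : ∀ {W B Y}, D.Prom W B Y → ∀ b ∈ B, ∀ w ∈ W, b ≤ w
  prom_U : ∀ {W B Y}, D.Prom W B Y → ∀ c, RuleU W B Y c
  prom_inv : ∀ {W B Y a x}, D.Prom W B Y → D.U a x → (∀ b ∈ B, b ≤ x) → ¬ ∀ w ∈ W, a ≤ w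
  prom_res : ∀ {W B Y}, D.Prom W B Y → ∀ m, (∀ b ∈ B, b ≤ m) →
    D.Prom ((· ⊓ m) '' W) B ((· ⊓ m) '' Y)

/-- Injective meet-preserving maps with an upper adjoint. -/
structure IsPre {α β : Type} [SemilatticeInf α] [SemilatticeInf β] (f : α → β) : Prop where
  inj : Function.Injective f
  map_inf : ∀ y y', f (y ⊓ y') = f y ⊓ f y'
  adj : ∀ z, ∃ w, ∀ y, f y ≤ z ↔ y ≤ w

/-- Preservation of the data. -/
structure Data.Hom {α β : Type} (D : Data α) (D' : Data β) (f : α → β) : Prop where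
  tag : ∀ {c ξ e}, D.Tag c ξ e → D'.Tag (f c) ξ (f e)
  u : ∀ {a x}, D.U a x → D'.U (f a) (f x)
  val : ∀ {a x v ξ Z}, D.Val a x v ξ Z → D'.Val (f a) (f x) (f v) ξ (fun n => f (Z n))
  prom : ∀ {W B Y}, D.Prom W B Y → D'.Prom (f '' W) (f '' B) (f '' Y)

namespace IsPre

variable {α β γ : Type} [SemilatticeInf α] [SemilatticeInf β] [SemilatticeInf γ]
  {f : α → β} {g : β → γ}

theorem le_iff (h : IsPre f) {y y' : α} : f y ≤ f y' ↔ y ≤ y' := by
  rw [← inf_eq_left, ← h.map_inf, h.inj.eq_iff, inf_eq_left]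

theorem mono (h : IsPre f) : Monotone f := fun _ _ hy => h.le_iff.2 hy

/-- The upper adjoint. -/
noncomputable def π (h : IsPre f) (z : β) : α := Classical.choose (h.adj z)

theorem le_π (h : IsPre f) {y : α} {z : β} : y ≤ h.π z ↔ f y ≤ z :=
  (Classical.choose_spec (h.adj z) y).symm

theorem map_π_le (h : IsPre f) (z : β) : f (h.π z) ≤ z := h.le_π.1 le_rfl

theorem π_mono (h : IsPre f) : Monotone h.π := fun _ _ hz => h.le_π.2 ((h.map_π_le _).trans hz)

@[simp] theorem π_map (h : IsPre f) (y : α) : h.π (f y) = y :=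
  eq_of_forall_le_iff fun _ => by rw [h.le_π, h.le_iff]

theorem π_inf (h : IsPre f) (z z' : β) : h.π (z ⊓ z') = h.π z ⊓ h.π z' :=
  eq_of_forall_le_iff fun _ => by simp only [le_inf_iff, h.le_π]

theorem π_top [OrderTop α] [OrderTop β] (h : IsPre f) : h.π ⊤ = ⊤ :=
  top_unique (h.le_π.2 le_top)

/-- The adjoint is determined by its defining property. -/
theorem π_eq (h : IsPre f) {z : β} {w : α} (hw : ∀ y, f y ≤ z ↔ y ≤ w) : h.π z = w :=
  eq_of_forall_le_iff fun y => by rw [h.le_π, hw]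

theorem id : IsPre (fun y : α => y) :=
  ⟨fun _ _ h => h, fun _ _ => rfl, fun z => ⟨z, fun _ => Iff.rfl⟩⟩

theorem comp (hf : IsPre f) (hg : IsPre g) : IsPre (fun y => g (f y)) :=
  ⟨hg.inj.comp hf.inj, fun y y' => by rw [hf.map_inf, hg.map_inf],
    fun z => ⟨hf.π (hg.π z), fun y => by rw [hf.le_π, hg.le_π]⟩⟩

end IsPre

theorem Data.Hom.id {α : Type} (D : Data α) : D.Hom D (fun y => y) :=
  ⟨fun h => h, fun h => h, fun h => h, fun h => by simpa using h⟩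

theorem Data.Hom.comp {α β γ : Type} {D : Data α} {D' : Data β} {D'' : Data γ} {f : α → β}
    {g : β → γ} (hf : D.Hom D' f) (hg : D'.Hom D'' g) : D.Hom D'' (fun y => g (f y)) :=
  ⟨fun h => hg.tag (hf.tag h), fun h => hg.u (hf.u h), fun h => hg.val (hf.val h),
    fun h => by simpa only [image_image] using hg.prom (hf.prom h)⟩

section rules

variable {α : Type} [SemilatticeInf α]

theorem RuleE.inf {a x v c c' : α} (hxa : x ≤ a) (h : RuleE a x v c)
    (h' : RuleE a x v c') : RuleE a x v (c ⊓ c') := by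
  intro ha hne
  have ha1 : a ≤ c := ha.trans inf_le_left
  have ha2 : a ≤ c' := ha.trans inf_le_right
  refine le_inf (h ha1 fun e => hne ?_) (h' ha2 fun e => hne ?_)
  · rw [inf_right_comm, e]; exact inf_eq_left.2 (hxa.trans ha2)
  · rw [inf_assoc, e]; exact inf_eq_right.2 (hxa.trans ha1)

theorem RuleE.top [OrderTop α] (a x v : α) : RuleE a x v ⊤ := fun _ _ => le_top

theorem RuleU.inf {W B Y : Set α} {c c' : α}
    (hdir : ∀ w ∈ W, ∀ w' ∈ W, ∃ w'' ∈ W, w'' ≤ w ∧ w'' ≤ w') (h : RuleU W B Y c)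
    (h' : RuleU W B Y c') : RuleU W B Y (c ⊓ c') := by
  intro hB
  rcases h (fun b hb => (hB b hb).trans inf_le_left) with ⟨w, hw, h1⟩ | ⟨w, hw, y, hy, h1⟩
  · rcases h' (fun b hb => (hB b hb).trans inf_le_right) with ⟨w', hw', h2⟩ | ⟨w', hw', y, hy, h2⟩
    · obtain ⟨w'', hw'', h3, h4⟩ := hdir w hw w' hw'
      exact Or.inl ⟨w'', hw'', le_inf (h3.trans h1) (h4.trans h2)⟩
    · exact Or.inr ⟨w', hw', y, hy, (inf_le_inf_right _ inf_le_right).trans h2⟩
  · exact Or.inr ⟨w, hw, y, hy, (inf_le_inf_right _ inf_le_left).trans h1⟩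

theorem RuleU.top [OrderTop α] {W B Y : Set α} (hW : W.Nonempty) : RuleU W B Y ⊤ :=
  fun _ => Or.inl ⟨_, hW.some_mem, le_top⟩

/-- The rule (U) passes to restricted promises. -/
theorem RuleU.res {W B Y : Set α} {c : α} (h : RuleU W B Y c) (m : α) :
    RuleU ((· ⊓ m) '' W) B ((· ⊓ m) '' Y) c := by
  intro hB
  rcases h hB with ⟨w, hw, h1⟩ | ⟨w, hw, y, hy, h1⟩
  · exact Or.inl ⟨_, ⟨w, hw, rfl⟩, inf_le_left.trans h1⟩
  · refine Or.inr ⟨_, ⟨w, hw, rfl⟩, _, ⟨y, hy, rfl⟩, ?_⟩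
    dsimp only
    rw [← inf_assoc]
    exact inf_le_inf_right _ h1

variable {β : Type} [SemilatticeInf β] {f : α → β}

/-- The rule (E) for the image of a value holds at a point `d` whose meet with the image of `v` is
computed through the adjoint (for instance at image points, or for ideal embeddings). -/
theorem RuleE.image_of (hf : IsPre f) {a x v : α} {d : β} (h : RuleE a x v (hf.π d))
    (hd : d ⊓ f v = f (hf.π d ⊓ v)) : RuleE (f a) (f x) (f v) d := by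
  intro ha hne
  refine hf.le_π.1 (h (hf.le_π.2 ha) fun e => hne ?_)
  rw [hd, e]

theorem RuleE.image (hf : IsPre f) {a x v c : α} (h : RuleE a x v c) :
    RuleE (f a) (f x) (f v) (f c) :=
  RuleE.image_of hf (by simpa using h) (by simp [hf.map_inf])

/-- The rule (U) for the image of a promise holds at a point `d` whose meets with the images of
cofinally many members of `W` are computed through the adjoint. -/
theorem RuleU.image_of (hf : IsPre f) {W B Y : Set α} {d : β} (h : RuleU W B Y (hf.π d))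
    (hd : ∀ w ∈ W, ∃ w' ∈ W, w' ≤ w ∧ d ⊓ f w' = f (hf.π d ⊓ w')) :
    RuleU (f '' W) (f '' B) (f '' Y) d := by
  intro hB
  rcases h (fun b hb => hf.le_π.2 (hB _ ⟨b, hb, rfl⟩)) with ⟨w, hw, h1⟩ | ⟨w, hw, y, hy, h1⟩
  · exact Or.inl ⟨_, ⟨w, hw, rfl⟩, hf.le_π.1 h1⟩
  · obtain ⟨w', hw', h2, h3⟩ := hd w hw
    refine Or.inr ⟨_, ⟨w', hw', rfl⟩, _, ⟨y, hy, rfl⟩, ?_⟩
    rw [h3]
    exact hf.mono ((inf_le_inf_left _ h2).trans h1)

theorem RuleU.image (hf : IsPre f) {W B Y : Set α} {c : α} (h : RuleU W B Y c) :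
    RuleU (f '' W) (f '' B) (f '' Y) (f c) :=
  RuleU.image_of hf (by simpa using h) (fun w hw => ⟨w, hw, le_rfl, by simp [hf.map_inf]⟩)

end rules

/-- Conditions. -/
structure Cond : Type 1 where
  α : Type
  [sl : SemilatticeInf α]
  [ot : OrderTop α]
  [ct : Countable α]
  D : Data α
  ok : D.OK

attribute [instance] Cond.sl Cond.ot Cond.ct

instance : CoeSort Cond Type := ⟨Cond.α⟩

/-- Arrows of conditions. -/
structure Emb (P Q : Cond) : Type 1 where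
  f : P → Q
  pre : IsPre f
  hom : P.D.Hom Q.D f

theorem Emb.ext' {P Q : Cond} {f g : Emb P Q} (h : ∀ y, f.f y = g.f y) : f = g := by
  obtain ⟨f, _, _⟩ := f
  obtain ⟨g, _, _⟩ := g
  obtain rfl : f = g := funext h
  rfl

instance : SmallCategory Cond where
  Hom := Emb
  id _ := ⟨fun y => y, IsPre.id, Data.Hom.id _⟩
  comp f g := ⟨fun y => g.f (f.f y), f.pre.comp g.pre, f.hom.comp g.hom⟩
  id_comp _ := rfl
  comp_id _ := rfl
  assoc _ _ _ := rfl

instance (P Q : Cond) : CoeFun (P ⟶ Q) (fun _ => P → Q) := ⟨fun f => Emb.f f⟩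

namespace Cond

variable {P Q R : Cond}

/-- Build an arrow. -/
def homMk (f : P → Q) (pre : IsPre f) (hom : P.D.Hom Q.D f) : P ⟶ Q := Emb.mk f pre hom

@[simp] theorem homMk_apply (f : P → Q) (pre : IsPre f) (hom : P.D.Hom Q.D f) (y : P) :
    homMk f pre hom y = f y := rfl

@[simp] theorem id_apply (y : P) : (𝟙 P : P ⟶ P) y = y := rfl

@[simp] theorem comp_apply (f : P ⟶ Q) (g : Q ⟶ R) (y : P) : (f ≫ g) y = g (f y) := rfl

theorem hom_ext {f g : P ⟶ Q} (h : ∀ y, f y = g y) : f = g := Emb.ext' h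

theorem map_inf (f : P ⟶ Q) (y y' : P) : f (y ⊓ y') = f y ⊓ f y' := f.pre.map_inf y y'

@[simp] theorem map_le_map (f : P ⟶ Q) {y y' : P} : f y ≤ f y' ↔ y ≤ y' := f.pre.le_iff

@[simp] theorem map_inj (f : P ⟶ Q) {y y' : P} : f y = f y' ↔ y = y' := f.pre.inj.eq_iff

theorem map_tag (f : P ⟶ Q) {c : P} {ξ : Xi} {e : P} (h : P.D.Tag c ξ e) :
    Q.D.Tag (f c) ξ (f e) := f.hom.tag h

theorem map_u (f : P ⟶ Q) {a x : P} (h : P.D.U a x) : Q.D.U (f a) (f x) := f.hom.u h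

theorem map_val (f : P ⟶ Q) {a x v : P} {ξ : Xi} {Z : ℕ → P} (h : P.D.Val a x v ξ Z) :
    Q.D.Val (f a) (f x) (f v) ξ (fun n => f (Z n)) := f.hom.val h

theorem map_prom (f : P ⟶ Q) {W B Y : Set P} (h : P.D.Prom W B Y) :
    Q.D.Prom (f '' W) (f '' B) (f '' Y) := f.hom.prom h

/-- The data induced on the principal ideal of `x`. -/
def resData (Q : Cond) (x : Q) : Data (Iic x) where
  Tag c ξ e := Q.D.Tag c.1 ξ e.1
  U a y := Q.D.U a.1 y.1
  Val a y v ξ Z := Q.D.Val a.1 y.1 v.1 ξ (fun n => (Z n).1)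
  Prom W B Y := Q.D.Prom (Subtype.val '' W) (Subtype.val '' B) (Subtype.val '' Y)

theorem resData_ok (Q : Cond) (x : Q) : (resData Q x).OK where
  tag_le h := Q.ok.tag_le h
  tag_fun h h' := Subtype.ext (Q.ok.tag_fun h h')
  used_ct := Q.ok.used_ct.mono (by
    rintro ξ (⟨c, e, h⟩ | ⟨a, y, v, Z, h⟩)
    · exact Or.inl ⟨_, _, h⟩
    · exact Or.inr ⟨_, _, _, _, h⟩)
  u_le h := Q.ok.u_le h
  u_not h := Q.ok.u_not h
  val_xa h := Q.ok.val_xa h
  val_xv h := Q.ok.val_xv h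
  val_av h := Q.ok.val_av h
  val_E h c ha hne := Q.ok.val_E h c.1 ha fun e => hne (Subtype.ext e)
  val_Z h c ha := Q.ok.val_Z h c.1 ha
  val_fun := by
    intro a y v v' ξ Z Z' h h' hc
    refine Subtype.ext (Q.ok.val_fun h h' fun c ha => ?_)
    have := hc ⟨c ⊓ x, inf_le_right⟩ (show a.1 ≤ c ⊓ x from le_inf ha a.2)
    change v.1 ≤ c ⊓ x ↔ v'.1 ≤ c ⊓ x at this
    have h1 : v.1 ≤ x := v.2
    have h2 : v'.1 ≤ x := v'.2
    simpa [h1, h2] using this
  val_I h h' hne := Subtype.ext (Q.ok.val_I h h' fun e => hne (Subtype.ext e))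
  val_tail h h' := (Q.ok.val_tail h h').mono fun _ e => Subtype.ext e
  val_congr h e := Q.ok.val_congr h (e.mono fun _ e => congrArg Subtype.val e)
  prom_ne h := (Q.ok.prom_ne h).of_image
  prom_dir := by
    intro W B Y h w hw w' hw'
    obtain ⟨_, ⟨w'', hw'', rfl⟩, h1, h2⟩ := Q.ok.prom_dir h _ ⟨w, hw, rfl⟩ _ ⟨w', hw', rfl⟩
    exact ⟨w'', hw'', h1, h2⟩
  prom_le h b hb w hw := Q.ok.prom_le h _ ⟨b, hb, rfl⟩ _ ⟨w, hw, rfl⟩
  prom_U := by
    intro W B Y h c hB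
    rcases Q.ok.prom_U h c.1 (by rintro _ ⟨b, hb, rfl⟩; exact hB b hb) with
      ⟨_, ⟨w, hw, rfl⟩, h1⟩ | ⟨_, ⟨w, hw, rfl⟩, _, ⟨y, hy, rfl⟩, h1⟩
    · exact Or.inl ⟨w, hw, h1⟩
    · exact Or.inr ⟨w, hw, y, hy, h1⟩
  prom_inv := by
    intro W B Y a y h hu hB hW
    exact Q.ok.prom_inv h hu (by rintro _ ⟨b, hb, rfl⟩; exact hB b hb)
      (by rintro _ ⟨w, hw, rfl⟩; exact hW w hw)
  prom_res := by
    intro W B Y h m hB
    have := Q.ok.prom_res h m.1 (by rintro _ ⟨b, hb, rfl⟩; exact hB b hb)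
    simp only [image_image] at this
    simp only [resData, image_image]
    exact this

/-- The principal ideal of `x` as a condition. -/
def res (Q : Cond) (x : Q) : Cond where
  α := Iic x
  D := resData Q x
  ok := resData_ok Q x

/-- The point `y ⊓ x` of `res Q x`. -/
def cut (Q : Cond) (x : Q) (y : Q) : res Q x := ⟨y ⊓ x, inf_le_right⟩

@[simp] theorem cut_val (x y : Q) : (cut Q x y).1 = y ⊓ x := rfl

theorem res_le_iff {x : Q} {y y' : res Q x} : y ≤ y' ↔ y.1 ≤ y'.1 := Iff.rfl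

theorem res_inf_val {x : Q} (y y' : res Q x) : (y ⊓ y').1 = y.1 ⊓ y'.1 := rfl

@[simp] theorem res_top_val {x : Q} : (⊤ : res Q x).1 = x := rfl

theorem res_le {x : Q} (y : res Q x) : y.1 ≤ x := y.2

theorem res_ext {x : Q} {y y' : res Q x} (h : y.1 = y'.1) : y = y' := Subtype.ext h

@[simp] theorem cut_of_res {x : Q} (y : res Q x) : cut Q x y.1 = y :=
  res_ext (inf_eq_left.2 (res_le y))

theorem cut_inf (x y y' : Q) : cut Q x (y ⊓ y') = cut Q x y ⊓ cut Q x y' :=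
  res_ext (inf_inf_distrib_right y y' x)

/-- The inclusion of a principal ideal. -/
def incl (Q : Cond) (x : Q) : res Q x ⟶ Q :=
  homMk (fun y => y.1)
    ⟨fun _ _ h => Subtype.ext h, fun _ _ => rfl, fun z => ⟨cut Q x z, fun y => by
      rw [res_le_iff, cut_val, le_inf_iff]; exact ⟨fun h => ⟨h, res_le y⟩, fun h => h.1⟩⟩⟩
    ⟨fun h => h, fun h => h, fun h => h, fun h => h⟩

@[simp] theorem incl_apply {x : Q} (y : res Q x) : incl Q x y = y.1 := rfl

theorem res_tag_iff {x : Q} {c e : res Q x} {ξ : Xi} :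
    (res Q x).D.Tag c ξ e ↔ Q.D.Tag c.1 ξ e.1 := Iff.rfl

theorem res_u_iff {x : Q} {a y : res Q x} : (res Q x).D.U a y ↔ Q.D.U a.1 y.1 := Iff.rfl

theorem res_val_iff {x : Q} {a y v : res Q x} {ξ : Xi} {Z : ℕ → res Q x} :
    (res Q x).D.Val a y v ξ Z ↔ Q.D.Val a.1 y.1 v.1 ξ (fun n => (Z n).1) := Iff.rfl

theorem res_prom_iff {x : Q} {W B Y : Set (res Q x)} :
    (res Q x).D.Prom W B Y ↔ Q.D.Prom (incl Q x '' W) (incl Q x '' B) (incl Q x '' Y) := Iff.rfl

/-- An arrow with image below `x` factors through the principal ideal of `x`. -/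
def lift (f : P ⟶ Q) (x : Q) (h : f ⊤ ≤ x) : P ⟶ res Q x :=
  homMk (fun y => ⟨f y, ((map_le_map f).2 le_top).trans h⟩)
    ⟨fun _ _ e => f.pre.inj (congrArg Subtype.val e), fun y y' => res_ext (map_inf f y y'),
      fun z => ⟨f.pre.π z.1, fun _ => f.pre.le_π.symm⟩⟩
    ⟨fun h => map_tag f h, fun h => map_u f h, fun h => map_val f h, fun h => by
      have := map_prom f h
      rw [res_prom_iff]
      simp only [image_image]
      exact this⟩

@[simp] theorem lift_val (f : P ⟶ Q) (x : Q) (h : f ⊤ ≤ x) (y : P) : (lift f x h y).1 = f y := rfl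

@[simp] theorem lift_incl (f : P ⟶ Q) (x : Q) (h : f ⊤ ≤ x) : lift f x h ≫ incl Q x = f := rfl

/-- The arrow induced on principal ideals. -/
def resMap (f : P ⟶ Q) (c : P) (x : Q) (h : f c ≤ x) : res P c ⟶ res Q x :=
  lift (incl P c ≫ f) x h

@[simp] theorem resMap_val (f : P ⟶ Q) (c : P) (x : Q) (h : f c ≤ x) (y : res P c) :
    (resMap f c x h y).1 = f y.1 := rfl

@[simp] theorem resMap_incl (f : P ⟶ Q) (c : P) (x : Q) (h : f c ≤ x) :
    resMap f c x h ≫ incl Q x = incl P c ≫ f := rfl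

theorem incl_comp_eq_iff {c : P} {k₁ k₂ : P ⟶ Q} :
    incl P c ≫ k₁ = incl P c ≫ k₂ ↔ ∀ y, y ≤ c → k₁ y = k₂ y :=
  ⟨fun h y hy => congrArg (fun f : res P c ⟶ Q => f ⟨y, hy⟩) h,
    fun h => hom_ext fun y => h y.1 (res_le y)⟩

/-! ### Carrying data into a principal ideal -/

theorem cut_tag {x c e : Q} {ξ : Xi} (h : Q.D.Tag c ξ e) (hc : c ≤ x) :
    (res Q x).D.Tag (cut Q x c) ξ (cut Q x e) := by
  change Q.D.Tag (c ⊓ x) ξ (e ⊓ x)
  rwa [inf_eq_left.2 hc, inf_eq_left.2 ((Q.ok.tag_le h).trans hc)]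

theorem cut_u {x a y : Q} (h : Q.D.U a y) (ha : a ≤ x) :
    (res Q x).D.U (cut Q x a) (cut Q x y) := by
  change Q.D.U (a ⊓ x) (y ⊓ x)
  rwa [inf_eq_left.2 ha, inf_eq_left.2 ((Q.ok.u_le h).trans ha)]

theorem val_eventually_le {x a y v : Q} {ξ : Xi} {Z : ℕ → Q} (h : Q.D.Val a y v ξ Z) (ha : a ≤ x)
    (hv : v ≤ x) : ∀ᶠ n in atTop, Z n ≤ x := (Q.ok.val_Z h x ha).1 hv

theorem cut_value {x a y v : Q} {ξ : Xi} {Z : ℕ → Q} (h : Q.D.Val a y v ξ Z) (ha : a ≤ x)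
    (hv : v ≤ x) :
    (res Q x).D.Val (cut Q x a) (cut Q x y) (cut Q x v) ξ (fun n => cut Q x (Z n)) := by
  change Q.D.Val (a ⊓ x) (y ⊓ x) (v ⊓ x) ξ (fun n => Z n ⊓ x)
  rw [inf_eq_left.2 ha, inf_eq_left.2 hv, inf_eq_left.2 ((Q.ok.val_xa h).trans ha)]
  exact Q.ok.val_congr h ((val_eventually_le h ha hv).mono fun n hn => (inf_eq_left.2 hn).symm)

theorem cut_prom {x : Q} {W B Y : Set Q} (h : Q.D.Prom W B Y) (hB : ∀ b ∈ B, b ≤ x) :
    (res Q x).D.Prom (cut Q x '' W) (cut Q x '' B) (cut Q x '' Y) := by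
  rw [res_prom_iff]
  simp only [image_image, incl_apply, cut_val]
  have e : (fun b => b ⊓ x) '' B = B := by
    rw [image_congr (g := fun b => b) (fun b hb => inf_eq_left.2 (hB b hb)), image_id']
  rw [e]
  exact Q.ok.prom_res h x hB

/-- Either the value `v` is invisible below `x` or it lies below `x`. -/
theorem val_dichotomy {x a y v : Q} {ξ : Xi} {Z : ℕ → Q} (h : Q.D.Val a y v ξ Z) (ha : a ≤ x) :
    x ⊓ v = y ∨ v ≤ x := by
  by_cases e : x ⊓ v = y
  · exact Or.inl e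
  · exact Or.inr (Q.ok.val_E h x ha e)

/-- Every point below `c` is tagged over `c`. -/
def TagTotal (Q : Cond) : Prop := ∀ c e : Q, e ≤ c → ∃ ξ, Q.D.Tag c ξ e

/-- Two arrows out of a tag-total condition that agree at `c` agree below `c`. -/
theorem TagTotal.eq_of_le (h : TagTotal P) {k₁ k₂ : P ⟶ Q} {c : P} (hc : k₁ c = k₂ c) {y : P}
    (hy : y ≤ c) : k₁ y = k₂ y := by
  obtain ⟨ξ, hξ⟩ := h c y hy
  have h1 := map_tag k₁ hξ
  have h2 := map_tag k₂ hξ
  rw [hc] at h1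
  exact Q.ok.tag_fun h1 h2

end Cond

end Crest.Agent.R296
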