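import Mathlib

/-!
# R296 (S0448), part 1: names over a small category

`C` is a small category; an arrow `Q ⟶ R` is read as "`R` extends `Q`".
A name at stage `Q` is a family of (arrow `f i : Q ⟶ d i`, element of stage `d i`).
An element of stage `R` is a name at some stage `Q` together with an arrow `Q ⟶ R`, so that
`El.map` is strictly functorial.  Equality `Eqv` and membership `Mem` are the double negation
("dense") forcing relations.
-/

set_option autoImplicit false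

open CategoryTheory

universe u

namespace Crest.Agent.R296

variable {C : Type u} [SmallCategory C]

/-- Names. -/
inductive Name : C → Type (u + 1)
  | mk {Q : C} (ι : Type u) (d e : ι → C) (f : ∀ i, Q ⟶ d i) (σ : ∀ i, Name (e i))
      (g : ∀ i, e i ⟶ d i) : Name Q

namespace Name

def ι : {Q : C} → Name Q → Type u
  | _, mk ι _ _ _ _ _ => ι

def d : {Q : C} → (τ : Name Q) → τ.ι → C
  | _, mk _ d _ _ _ _ => d

def e : {Q : C} → (τ : Name Q) → τ.ι → C
  | _, mk _ _ e _ _ _ => e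

def f : {Q : C} → (τ : Name Q) → (i : τ.ι) → (Q ⟶ τ.d i)
  | _, mk _ _ _ f _ _ => f

def σ : {Q : C} → (τ : Name Q) → (i : τ.ι) → Name (τ.e i)
  | _, mk _ _ _ _ σ _ => σ

def g : {Q : C} → (τ : Name Q) → (i : τ.ι) → (τ.e i ⟶ τ.d i)
  | _, mk _ _ _ _ _ g => g

/-- Forced equality of two names, transported to a common stage. -/
def eqv : {Q₁ : C} → Name Q₁ → {Q₂ : C} → Name Q₂ → (R : C) → (Q₁ ⟶ R) → (Q₂ ⟶ R) → Prop
  | _, mk ι d _ f σ g, _, τ', R, k, k' =>
    (∀ (S : C) (l : R ⟶ S) (i : ι) (m : d i ⟶ S), f i ≫ m = k ≫ l →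
      ∃ (T : C) (n : S ⟶ T) (i' : τ'.ι) (m' : τ'.d i' ⟶ T), τ'.f i' ≫ m' = k' ≫ l ≫ n ∧
        eqv (σ i) (τ'.σ i') T ((g i ≫ m) ≫ n) (τ'.g i' ≫ m')) ∧
    (∀ (S : C) (l : R ⟶ S) (i' : τ'.ι) (m' : τ'.d i' ⟶ S), τ'.f i' ≫ m' = k' ≫ l →
      ∃ (T : C) (n : S ⟶ T) (i : ι) (m : d i ⟶ T), f i ≫ m = k ≫ l ≫ n ∧
        eqv (σ i) (τ'.σ i') T (g i ≫ m) ((τ'.g i' ≫ m') ≫ n))

end Name

/-- Elements at stage `R`. -/
structure El (R : C) : Type (u + 1) where
  Q : C
  τ : Name Q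
  k : Q ⟶ R

namespace El

/-- Transport along an extension. -/
def map {R S : C} (a : El R) (l : R ⟶ S) : El S := ⟨a.Q, a.τ, a.k ≫ l⟩

@[simp] theorem map_id {R : C} (a : El R) : a.map (𝟙 R) = a := by
  cases a; simp [map]

@[simp] theorem map_map {R S T : C} (a : El R) (l : R ⟶ S) (m : S ⟶ T) :
    (a.map l).map m = a.map (l ≫ m) := by
  simp [map]

end El

/-- The `i`-th child of a name. -/
def Name.child {Q : C} (τ : Name Q) (i : τ.ι) : El (τ.d i) := ⟨τ.e i, τ.σ i, τ.g i⟩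

/-- The small index type of the direct members of `a` at the stage of `a`. -/
structure DirAt {R : C} (a : El R) : Type u where
  i : a.τ.ι
  m : a.τ.d i ⟶ R
  comm : a.τ.f i ≫ m = a.k

/-- The direct member with index `δ`. -/
def DirAt.el {R : C} {a : El R} (δ : DirAt a) : El R := (a.τ.child δ.i).map δ.m

/-- `b` is a direct member of `a`. -/
def IsDir {R : C} (a b : El R) : Prop := ∃ δ : DirAt a, b = δ.el

theorem DirAt.isDir {R : C} {a : El R} (δ : DirAt a) : IsDir a δ.el := ⟨δ, rfl⟩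

theorem IsDir.map {R S : C} {a b : El R} (h : IsDir a b) (l : R ⟶ S) :
    IsDir (a.map l) (b.map l) := by
  obtain ⟨δ, rfl⟩ := h
  refine ⟨⟨δ.i, δ.m ≫ l, ?_⟩, ?_⟩
  · have := δ.comm
    simp only [El.map]
    rw [← this]; simp
  · simp [DirAt.el, El.map, Name.child]

/-- `P` holds densely above `R`. -/
def Dense (R : C) (P : ∀ S : C, (R ⟶ S) → Prop) : Prop :=
  ∀ (S : C) (l : R ⟶ S), ∃ (T : C) (m : S ⟶ T), P T (l ≫ m)

theorem Dense.mono {R : C} {P P' : ∀ S : C, (R ⟶ S) → Prop} (h : Dense R P)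
    (hP : ∀ S l, P S l → P' S l) : Dense R P' := fun S l => by
  obtain ⟨T, m, h⟩ := h S l
  exact ⟨T, m, hP _ _ h⟩

theorem Dense.of_forall {R : C} {P : ∀ S : C, (R ⟶ S) → Prop} (h : ∀ S l, P S l) : Dense R P :=
  fun S _ => ⟨S, 𝟙 S, h _ _⟩

theorem Dense.exists {R : C} {P : ∀ S : C, (R ⟶ S) → Prop} (h : Dense R P) :
    ∃ (S : C) (l : R ⟶ S), P S l := by
  obtain ⟨T, m, h⟩ := h R (𝟙 R)
  exact ⟨T, _, h⟩

theorem Dense.map {R S : C} {P : ∀ S : C, (R ⟶ S) → Prop} (h : Dense R P) (l : R ⟶ S) :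
    Dense S (fun T m => P T (l ≫ m)) := fun T m => by
  obtain ⟨T', m', h⟩ := h T (l ≫ m)
  exact ⟨T', m', by simpa using h⟩

theorem Dense.join {R : C} {P : ∀ S : C, (R ⟶ S) → Prop}
    (h : Dense R (fun S l => Dense S (fun T m => P T (l ≫ m)))) : Dense R P := fun S l => by
  obtain ⟨T, m, h⟩ := h S l
  obtain ⟨T', m', h⟩ := h.exists
  exact ⟨T', m ≫ m', by simpa using h⟩

/-- Forced equality. -/
def Eqv {R : C} (a b : El R) : Prop := Name.eqv a.τ b.τ R a.k b.k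

/-- Forced membership: `Mem b a` says `b ∈ a`. -/
def Mem {R : C} (b a : El R) : Prop :=
  Dense R (fun S l => ∃ z : El S, IsDir (a.map l) z ∧ Eqv (b.map l) z)

theorem eqv_iff {R : C} (a b : El R) : Eqv a b ↔
    (∀ (S : C) (l : R ⟶ S) (z : El S), IsDir (a.map l) z →
      ∃ (T : C) (n : S ⟶ T) (z' : El T), IsDir (b.map (l ≫ n)) z' ∧ Eqv (z.map n) z') ∧
    (∀ (S : C) (l : R ⟶ S) (z' : El S), IsDir (b.map l) z' →
      ∃ (T : C) (n : S ⟶ T) (z : El T), IsDir (a.map (l ≫ n)) z ∧ Eqv z (z'.map n)) := by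
  obtain ⟨Q, τ, k⟩ := a
  obtain ⟨Q', τ', k'⟩ := b
  cases τ with
  | mk ι d e f σ g =>
  constructor
  · rintro ⟨h1, h2⟩
    constructor
    · rintro S l z ⟨⟨i, m, hm⟩, rfl⟩
      obtain ⟨T, n, i', m', h, h'⟩ := h1 S l i m hm
      exact ⟨T, n, _, ⟨⟨i', m', h⟩, rfl⟩, h'⟩
    · rintro S l z ⟨⟨i', m', hm⟩, rfl⟩
      obtain ⟨T, n, i, m, h, h'⟩ := h2 S l i' m' hm
      exact ⟨T, n, _, ⟨⟨i, m, h⟩, rfl⟩, h'⟩
  · rintro ⟨h1, h2⟩
    constructor
    · intro S l i m hm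
      obtain ⟨T, n, z', ⟨⟨i', m', h⟩, rfl⟩, h'⟩ := h1 S l _ ⟨⟨i, m, hm⟩, rfl⟩
      exact ⟨T, n, i', m', h, h'⟩
    · intro S l i' m' hm
      obtain ⟨T, n, z, ⟨⟨i, m, h⟩, rfl⟩, h'⟩ := h2 S l _ ⟨⟨i', m', hm⟩, rfl⟩
      exact ⟨T, n, i, m, h, h'⟩

/-- Induction along direct members. -/
theorem El.ind {P : ∀ R : C, El R → Prop}
    (h : ∀ (R : C) (a : El R),
      (∀ (S : C) (l : R ⟶ S) (z : El S), IsDir (a.map l) z → P S z) → P R a) :
    ∀ (R : C) (a : El R), P R a := by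
  have key : ∀ (Q : C) (τ : Name Q) (R : C) (k : Q ⟶ R), P R ⟨Q, τ, k⟩ := by
    intro Q τ
    induction τ with
    | mk ι d e f σ g ih =>
      intro R k
      apply h
      rintro S l z ⟨⟨i, m, hm⟩, rfl⟩
      exact ih i S _
  intro R a
  exact key _ _ _ _

theorem Eqv.refl {R : C} (a : El R) : Eqv a a := by
  revert R a
  apply El.ind
  intro R a ih
  rw [eqv_iff]
  constructor
  · intro S l z hz
    exact ⟨S, 𝟙 S, z, by simpa using hz, by simpa using ih S l z hz⟩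
  · intro S l z hz
    exact ⟨S, 𝟙 S, z, by simpa using hz, by simpa using ih S l z hz⟩

theorem Eqv.of_eq {R : C} {a b : El R} (h : a = b) : Eqv a b := h ▸ Eqv.refl a

theorem Eqv.map {R S : C} {a b : El R} (h : Eqv a b) (l : R ⟶ S) : Eqv (a.map l) (b.map l) := by
  rw [eqv_iff] at h ⊢
  constructor
  · intro T m z hz
    obtain ⟨T', n, z', h1, h2⟩ := h.1 T (l ≫ m) z (by simpa using hz)
    exact ⟨T', n, z', by simpa using h1, h2⟩
  · intro T m z hz
    obtain ⟨T', n, z', h1, h2⟩ := h.2 T (l ≫ m) z (by simpa using hz)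
    exact ⟨T', n, z', by simpa using h1, h2⟩

theorem Eqv.symm {R : C} {a b : El R} (h : Eqv a b) : Eqv b a := by
  have key : ∀ (R : C) (a : El R), ∀ (S : C) (l : R ⟶ S) (b : El S),
      Eqv (a.map l) b → Eqv b (a.map l) := by
    apply El.ind
    intro R a ih S l b h
    rw [eqv_iff] at h ⊢
    constructor
    · intro T m z hz
      obtain ⟨T', n, z', h1, h2⟩ := h.2 T m z hz
      refine ⟨T', n, z', h1, ?_⟩
      simpa using ih T' (l ≫ m ≫ n) z' (by simpa using h1) T' (𝟙 _) _ (by simpa using h2)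
    · intro T m z hz
      obtain ⟨T', n, z', h1, h2⟩ := h.1 T m z hz
      exact ⟨T', n, z', h1, ih T (l ≫ m) z (by simpa using hz) T' n _ h2⟩
  simpa using key R a R (𝟙 R) b (by simpa using h)

theorem Eqv.trans {R : C} {a b c : El R} (h : Eqv a b) (h' : Eqv b c) : Eqv a c := by
  have key : ∀ (R : C) (a : El R), ∀ (S : C) (l : R ⟶ S) (b c : El S),
      Eqv (a.map l) b → Eqv b c → Eqv (a.map l) c := by
    apply El.ind
    intro R a ih S l b c h h'
    rw [eqv_iff] at h h' ⊢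
    constructor
    · intro T m z hz
      obtain ⟨T', n, z', h1, h2⟩ := h.1 T m z hz
      obtain ⟨T'', n', z'', h3, h4⟩ := h'.1 T' (m ≫ n) z' h1
      refine ⟨T'', n ≫ n', z'', by simpa using h3, ?_⟩
      exact ih T (l ≫ m) z (by simpa using hz) T'' (n ≫ n') (z'.map n') z''
        (by simpa using h2.map n') h4
    · intro T m z hz
      obtain ⟨T', n, z', h1, h2⟩ := h'.2 T m z hz
      obtain ⟨T'', n', z'', h3, h4⟩ := h.2 T' (m ≫ n) z' h1
      refine ⟨T'', n ≫ n', z'', by simpa using h3, ?_⟩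
      simpa using ih T'' (l ≫ m ≫ n ≫ n') z'' (by simpa using h3) T'' (𝟙 _) (z'.map n')
        (z.map (n ≫ n')) (by simpa using h4) (by simpa using h2.map n')
  simpa using key R a R (𝟙 R) b c (by simpa using h) h'

theorem Eqv.of_dense {R : C} {a b : El R}
    (h : Dense R (fun _ l => Eqv (a.map l) (b.map l))) : Eqv a b := by
  rw [eqv_iff]
  constructor
  · intro S l z hz
    obtain ⟨T, m, h⟩ := h S l
    obtain ⟨T', n, z', h1, h2⟩ := ((eqv_iff _ _).1 h).1 T (𝟙 T) (z.map m)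
      (by simpa using hz.map m)
    exact ⟨T', m ≫ n, z', by simpa using h1, by simpa using h2⟩
  · intro S l z hz
    obtain ⟨T, m, h⟩ := h S l
    obtain ⟨T', n, z', h1, h2⟩ := ((eqv_iff _ _).1 h).2 T (𝟙 T) (z.map m)
      (by simpa using hz.map m)
    exact ⟨T', m ≫ n, z', by simpa using h1, by simpa using h2⟩

theorem Mem.map {R S : C} {a b : El R} (h : Mem b a) (l : R ⟶ S) : Mem (b.map l) (a.map l) := by
  have := Dense.map h l
  refine this.mono ?_
  intro T m h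
  simpa using h

theorem Mem.of_dense {R : C} {a b : El R}
    (h : Dense R (fun _ l => Mem (b.map l) (a.map l))) : Mem b a := by
  apply Dense.join
  refine h.mono ?_
  intro S l h
  refine Dense.mono h ?_
  intro T m h
  simpa using h

theorem IsDir.mem {R : C} {a b : El R} (h : IsDir a b) : Mem b a :=
  Dense.of_forall fun _ l => ⟨_, h.map l, Eqv.refl _⟩

/-- A member is, in some extension, equal to a direct member. -/
theorem Mem.exists_dir {R : C} {a b : El R} (h : Mem b a) :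
    ∃ (S : C) (l : R ⟶ S) (z : El S), IsDir (a.map l) z ∧ Eqv (b.map l) z :=
  Dense.exists h

theorem Mem.congr_left {R : C} {a b b' : El R} (h : Mem b a) (e : Eqv b b') : Mem b' a :=
  Dense.mono h fun _ l ⟨z, h1, h2⟩ => ⟨z, h1, (e.map l).symm.trans h2⟩

theorem Mem.congr_right {R : C} {a a' b : El R} (h : Mem b a) (e : Eqv a a') : Mem b a' := by
  intro S l
  obtain ⟨T, m, z, h1, h2⟩ := h S l
  obtain ⟨T', n, z', h3, h4⟩ := ((eqv_iff _ _).1 e).1 T (l ≫ m) z h1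
  refine ⟨T', m ≫ n, z', by simpa using h3, ?_⟩
  exact Eqv.trans (by simpa using h2.map n) h4

theorem Mem.congr {R : C} {a a' b b' : El R} (h : Mem b a) (e : Eqv b b') (e' : Eqv a a') :
    Mem b' a' := (h.congr_left e).congr_right e'

theorem mem_congr {R : C} {a a' b b' : El R} (e : Eqv b b') (e' : Eqv a a') :
    Mem b a ↔ Mem b' a' := ⟨fun h => h.congr e e', fun h => h.congr e.symm e'.symm⟩

theorem eqv_congr {R : C} {a a' b b' : El R} (e : Eqv a a') (e' : Eqv b b') :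
    Eqv a b ↔ Eqv a' b' :=
  ⟨fun h => (e.symm.trans h).trans e', fun h => (e.trans h).trans e'.symm⟩

/-- Extensionality, tested on direct members only. -/
theorem Eqv.of_dir {R : C} {a b : El R}
    (h1 : ∀ (S : C) (l : R ⟶ S) (z : El S), IsDir (a.map l) z → Mem z (b.map l))
    (h2 : ∀ (S : C) (l : R ⟶ S) (z : El S), IsDir (b.map l) z → Mem z (a.map l)) : Eqv a b := by
  rw [eqv_iff]
  constructor
  · intro S l z hz
    obtain ⟨T, n, z', h3, h4⟩ := (h1 S l z hz).exists_dir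
    exact ⟨T, n, z', by simpa using h3, h4⟩
  · intro S l z hz
    obtain ⟨T, n, z', h3, h4⟩ := (h2 S l z hz).exists_dir
    exact ⟨T, n, z', by simpa using h3, h4.symm⟩

/-- Extensionality. -/
theorem Eqv.ext {R : C} {a b : El R}
    (h : ∀ (S : C) (l : R ⟶ S) (z : El S), Mem z (a.map l) ↔ Mem z (b.map l)) : Eqv a b :=
  Eqv.of_dir (fun S l z hz => (h S l z).1 hz.mem) (fun S l z hz => (h S l z).2 hz.mem)

/-- Inclusion tested on direct members. -/
theorem Mem.of_sub_dir {R : C} {a b z : El R}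
    (h : ∀ (S : C) (l : R ⟶ S) (w : El S), IsDir (a.map l) w → Mem w (b.map l))
    (hz : Mem z a) : Mem z b := by
  apply Mem.of_dense
  refine Dense.mono hz ?_
  rintro S l ⟨w, h1, h2⟩
  exact (h S l w h1).congr_left h2.symm

/-- The element with a prescribed family of direct members. -/
def mkEl {R : C} (ι : Type u) (S : ι → C) (l : ∀ i, R ⟶ S i) (b : ∀ i, El (S i)) : El R :=
  ⟨R, Name.mk ι S (fun i => (b i).Q) l (fun i => (b i).τ) (fun i => (b i).k), 𝟙 R⟩

theorem isDir_mkEl {R T : C} {ι : Type u} {S : ι → C} {l : ∀ i, R ⟶ S i} {b : ∀ i, El (S i)}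
    (k : R ⟶ T) (z : El T) :
    IsDir ((mkEl ι S l b).map k) z ↔ ∃ (i : ι) (m : S i ⟶ T), l i ≫ m = k ∧ z = (b i).map m := by
  constructor
  · rintro ⟨⟨i, m, hm⟩, rfl⟩
    exact ⟨i, m, hm.trans (Category.id_comp k), rfl⟩
  · rintro ⟨i, m, hm, rfl⟩
    exact ⟨⟨i, m, hm.trans (Category.id_comp k).symm⟩, rfl⟩

theorem mem_mkEl {R T : C} {ι : Type u} {S : ι → C} {l : ∀ i, R ⟶ S i} {b : ∀ i, El (S i)}
    (k : R ⟶ T) (z : El T) :
    Mem z ((mkEl ι S l b).map k) ↔ Dense T (fun T' n =>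
      ∃ (i : ι) (m : S i ⟶ T'), l i ≫ m = k ≫ n ∧ Eqv (z.map n) ((b i).map m)) := by
  constructor
  · intro h
    refine Dense.mono h ?_
    rintro T' n ⟨w, h1, h2⟩
    rw [El.map_map, isDir_mkEl] at h1
    obtain ⟨i, m, hm, rfl⟩ := h1
    exact ⟨i, m, hm, h2⟩
  · intro h
    refine Dense.mono h ?_
    rintro T' n ⟨i, m, hm, h2⟩
    refine ⟨_, ?_, h2⟩
    rw [El.map_map, isDir_mkEl]
    exact ⟨i, m, hm, rfl⟩

/-- Comprehension: a property `Φ` of elements above `R` that persists along extensions, respects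
`Eqv` and has at each stage only a small family of instances up to `Eqv` defines an element. -/
theorem exists_el (R : C) (Φ : ∀ S : C, (R ⟶ S) → El S → Prop)
    (hmap : ∀ (S : C) (l : R ⟶ S) (z : El S) (T : C) (m : S ⟶ T), Φ S l z → Φ T (l ≫ m) (z.map m))
    (hcongr : ∀ (S : C) (l : R ⟶ S) (z z' : El S), Eqv z z' → Φ S l z → Φ S l z')
    (hsmall : ∀ (S : C) (l : R ⟶ S), ∃ (ι : Type u) (b : ι → El S),
      ∀ z, Φ S l z → ∃ i, Eqv z (b i)) :
    ∃ a : El R, ∀ (S : C) (l : R ⟶ S) (z : El S),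
      Mem z (a.map l) ↔ Dense S (fun T m => Φ T (l ≫ m) (z.map m)) := by
  choose ι b hb using hsmall
  refine ⟨mkEl (Σ (S : C) (l : R ⟶ S), {i : ι S l // Φ S l (b S l i)}) (fun p => p.1)
    (fun p => p.2.1) (fun p => b p.1 p.2.1 p.2.2.1), ?_⟩
  intro S l z
  rw [mem_mkEl]
  constructor
  · intro h
    refine h.mono ?_
    rintro T n ⟨⟨S', l', i, hi⟩, m, hm, h2⟩
    dsimp only at m hm h2
    rw [← hm]
    exact hcongr _ _ _ _ h2.symm (hmap _ _ _ _ m hi)
  · intro h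
    refine h.mono ?_
    intro T n h
    obtain ⟨i, hi⟩ := hb _ _ _ h
    exact ⟨⟨T, l ≫ n, i, hcongr _ _ _ _ hi h⟩, 𝟙 T, by simp, by simpa using hi⟩

/-- Descent: an element that is invariant under all pairs of extensions agreeing on `ι` comes
from the source of `ι`. -/
theorem exists_descent {P R : C} (ι : P ⟶ R) (A : El R)
    (h : ∀ (S : C) (k₁ k₂ : R ⟶ S), ι ≫ k₁ = ι ≫ k₂ → Eqv (A.map k₁) (A.map k₂)) :
    ∃ σ : El P, Eqv (σ.map ι) A := by
  refine ⟨mkEl (Σ (S : C) (l : R ⟶ S), DirAt (A.map l)) (fun p => p.1) (fun p => ι ≫ p.2.1)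
    (fun p => p.2.2.el), ?_⟩
  apply Eqv.of_dir
  · intro S k z hz
    rw [El.map_map, isDir_mkEl] at hz
    obtain ⟨⟨S', l, δ⟩, m, hm, rfl⟩ := hz
    dsimp only at m hm ⊢
    have h1 : Mem (δ.el.map m) (A.map (l ≫ m)) := by simpa using (δ.isDir.map m).mem
    exact h1.congr_right (h _ _ _ (by simpa using hm))
  · rintro S k z ⟨δ, rfl⟩
    apply IsDir.mem
    rw [El.map_map, isDir_mkEl]
    exact ⟨⟨S, k, δ⟩, 𝟙 S, by simp, by simp⟩

end Crest.Agent.R296
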