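import Crest.Prelude.Def_SetTheory
import Crest.Agent.R296.Name

/-!
# R296 (S0448), part 2: the forcing relation for formulas of set theory
-/

set_option autoImplicit false

open CategoryTheory FirstOrder FirstOrder.Language Crest.LogicCS.SetTheory

universe u

namespace Crest.Agent.R296

variable {C : Type u} [SmallCategory C]

/-- Every term of the language of set theory is a bound variable. -/
def tidx {n : ℕ} : setL.Term (Empty ⊕ Fin n) → Fin n
  | Term.var (Sum.inl e) => e.elim
  | Term.var (Sum.inr i) => i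
  | Term.func f _ => Empty.elim f

theorem term_eq_var {n : ℕ} (t : setL.Term (Empty ⊕ Fin n)) : t = Term.var (Sum.inr (tidx t)) := by
  rcases t with (e | i) | ⟨f, _⟩
  · exact e.elim
  · rfl
  · exact Empty.elim f

/-- The forced relation symbols. -/
def relF {R : C} : {l : ℕ} → SetRel l → (Fin l → El R) → Prop
  | _, SetRel.mem, xs => Mem (xs 0) (xs 1)

/-- Transport of an assignment along an extension. -/
def mapv {n : ℕ} {R S : C} (xs : Fin n → El R) (l : R ⟶ S) : Fin n → El S := fun i => (xs i).map l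

@[simp] theorem mapv_apply {n : ℕ} {R S : C} (xs : Fin n → El R) (l : R ⟶ S) (i : Fin n) :
    mapv xs l i = (xs i).map l := rfl

@[simp] theorem mapv_id {n : ℕ} {R : C} (xs : Fin n → El R) : mapv xs (𝟙 R) = xs := by
  funext i; simp

@[simp] theorem mapv_mapv {n : ℕ} {R S T : C} (xs : Fin n → El R) (l : R ⟶ S) (m : S ⟶ T) :
    mapv (mapv xs l) m = mapv xs (l ≫ m) := by
  funext i; simp

@[simp] theorem mapv_snoc {n : ℕ} {R S : C} (xs : Fin n → El R) (a : El R) (l : R ⟶ S) :
    mapv (Fin.snoc xs a : Fin (n + 1) → El R) l = Fin.snoc (mapv xs l) (a.map l) := by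
  funext i
  refine Fin.lastCases ?_ (fun i => ?_) i <;> simp

@[simp] theorem mapv_elim0 {R S : C} (l : R ⟶ S) :
    mapv (Fin.elim0 : Fin 0 → El R) l = Fin.elim0 := by
  funext i; exact i.elim0

theorem mapv_comp {n k : ℕ} {R S : C} (xs : Fin n → El R) (l : R ⟶ S) (s : Fin k → Fin n) :
    mapv (xs ∘ s) l = mapv xs l ∘ s := rfl

/-- The forcing relation. -/
def Forces : {n : ℕ} → setL.BoundedFormula Empty n → (R : C) → (Fin n → El R) → Prop
  | _, BoundedFormula.falsum, _, _ => False
  | _, BoundedFormula.equal t₁ t₂, _, xs => Eqv (xs (tidx t₁)) (xs (tidx t₂))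
  | _, BoundedFormula.rel r ts, _, xs => relF r (fun i => xs (tidx (ts i)))
  | _, BoundedFormula.imp φ ψ, R, xs =>
      ∀ (S : C) (l : R ⟶ S), Forces φ S (mapv xs l) → Forces ψ S (mapv xs l)
  | _, BoundedFormula.all φ, R, xs =>
      ∀ (S : C) (l : R ⟶ S) (a : El S), Forces φ S (Fin.snoc (mapv xs l) a)

variable {n : ℕ} {R : C}

theorem forces_falsum (xs : Fin n → El R) :
    Forces (BoundedFormula.falsum : setL.BoundedFormula Empty n) R xs ↔ False := Iff.rfl

@[simp] theorem forces_bot (xs : Fin n → El R) :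
    Forces (⊥ : setL.BoundedFormula Empty n) R xs ↔ False := Iff.rfl

theorem forces_imp (φ ψ : setL.BoundedFormula Empty n) (xs : Fin n → El R) :
    Forces (φ ⟹ ψ) R xs ↔
      ∀ (S : C) (l : R ⟶ S), Forces φ S (mapv xs l) → Forces ψ S (mapv xs l) := Iff.rfl

theorem forces_all (φ : setL.BoundedFormula Empty (n + 1)) (xs : Fin n → El R) :
    Forces (∀' φ) R xs ↔
      ∀ (S : C) (l : R ⟶ S) (a : El S), Forces φ S (Fin.snoc (mapv xs l) a) := Iff.rfl

theorem forces_not (φ : setL.BoundedFormula Empty n) (xs : Fin n → El R) :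
    Forces (∼φ) R xs ↔ ∀ (S : C) (l : R ⟶ S), ¬ Forces φ S (mapv xs l) := Iff.rfl

@[simp] theorem forces_vmem (i j : Fin n) (xs : Fin n → El R) :
    Forces (vmem i j) R xs ↔ Mem (xs i) (xs j) := Iff.rfl

@[simp] theorem forces_veq (i j : Fin n) (xs : Fin n → El R) :
    Forces (veq i j) R xs ↔ Eqv (xs i) (xs j) := Iff.rfl

theorem Forces.map {φ : setL.BoundedFormula Empty n} {xs : Fin n → El R} (h : Forces φ R xs)
    {S : C} (l : R ⟶ S) : Forces φ S (mapv xs l) := by
  cases φ with
  | falsum => exact h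
  | equal t₁ t₂ => exact Eqv.map h l
  | rel r ts => cases r; exact Mem.map h l
  | imp φ ψ =>
    intro T m h'
    rw [mapv_mapv] at h' ⊢
    exact h T _ h'
  | all φ =>
    intro T m a
    rw [mapv_mapv]
    exact h T _ a

theorem Forces.of_dense {φ : setL.BoundedFormula Empty n} {xs : Fin n → El R}
    (h : Dense R (fun S l => Forces φ S (mapv xs l))) : Forces φ R xs := by
  induction φ generalizing R with
  | falsum => obtain ⟨_, _, h⟩ := h.exists; exact h
  | equal t₁ t₂ => exact Eqv.of_dense h
  | rel r ts => cases r; exact Mem.of_dense h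
  | imp φ ψ _ ih =>
    intro S l h1
    apply ih
    intro T m
    obtain ⟨T', m', h2⟩ := h T (l ≫ m)
    refine ⟨T', m', ?_⟩
    have := h2 T' (𝟙 _) (by simpa using h1.map (m ≫ m'))
    simpa using this
  | all φ ih =>
    intro S l a
    apply ih
    intro T m
    obtain ⟨T', m', h2⟩ := h T (l ≫ m)
    refine ⟨T', m', ?_⟩
    have := h2 T' (𝟙 _) (a.map (m ≫ m'))
    simpa using this

theorem forces_congr {φ : setL.BoundedFormula Empty n} {xs ys : Fin n → El R}
    (e : ∀ i, Eqv (xs i) (ys i)) : Forces φ R xs ↔ Forces φ R ys := by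
  induction φ generalizing R with
  | falsum => rfl
  | equal t₁ t₂ => exact eqv_congr (e _) (e _)
  | rel r ts => cases r; exact mem_congr (e _) (e _)
  | imp φ ψ ih1 ih2 =>
    refine forall_congr' fun S => forall_congr' fun l => ?_
    rw [ih1 (xs := mapv xs l) (ys := mapv ys l) (fun i => (e i).map l),
      ih2 (xs := mapv xs l) (ys := mapv ys l) (fun i => (e i).map l)]
  | all φ ih =>
    refine forall_congr' fun S => forall_congr' fun l => forall_congr' fun a => ih ?_
    intro i
    refine Fin.lastCases ?_ (fun i => ?_) i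
    · simpa using Eqv.refl a
    · simpa using (e i).map l

theorem Forces.congr {φ : setL.BoundedFormula Empty n} {xs ys : Fin n → El R}
    (h : Forces φ R xs) (e : ∀ i, Eqv (xs i) (ys i)) : Forces φ R ys := (forces_congr e).1 h

/-- Congruence in the last variable. -/
theorem Forces.congr_snoc {φ : setL.BoundedFormula Empty (n + 1)} {xs : Fin n → El R} {a b : El R}
    (h : Forces φ R (Fin.snoc xs a)) (e : Eqv a b) : Forces φ R (Fin.snoc xs b) := by
  refine h.congr fun i => ?_
  refine Fin.lastCases ?_ (fun i => ?_) i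
  · simpa using e
  · simpa using Eqv.refl (xs i)

theorem forces_iff_dense (φ : setL.BoundedFormula Empty n) (xs : Fin n → El R) :
    Forces φ R xs ↔ Dense R (fun S l => Forces φ S (mapv xs l)) :=
  ⟨fun h => Dense.of_forall fun _ l => h.map l, Forces.of_dense⟩

/-- A formula that is not forced is refuted by some extension. -/
theorem exists_forces_not {φ : setL.BoundedFormula Empty n} {xs : Fin n → El R}
    (h : ¬ Forces φ R xs) : ∃ (S : C) (l : R ⟶ S), Forces (∼φ) S (mapv xs l) := by
  rw [forces_iff_dense] at h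
  simp only [Dense, not_forall, not_exists] at h
  obtain ⟨S, l, h⟩ := h
  exact ⟨S, l, fun T m => by simpa using h T m⟩

theorem Forces.not_not {φ : setL.BoundedFormula Empty n} {xs : Fin n → El R}
    (h : Forces φ R xs) : ¬ Forces (∼φ) R xs := fun h' => h' R (𝟙 R) (by simpa using h)

theorem forces_inf (φ ψ : setL.BoundedFormula Empty n) (xs : Fin n → El R) :
    Forces (φ ⊓ ψ) R xs ↔ Forces φ R xs ∧ Forces ψ R xs := by
  change Forces (∼(φ ⟹ ∼ψ)) R xs ↔ _
  rw [forces_not]
  constructor
  · intro h
    have key : Dense R (fun S l => Forces φ S (mapv xs l) ∧ Forces ψ S (mapv xs l)) := by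
      intro S l
      have h1 := h S l
      simp only [forces_imp, forces_not, not_forall, not_not, mapv_mapv] at h1
      obtain ⟨T, m, h2, T', m', h3⟩ := h1
      exact ⟨T', m ≫ m', by simpa using h2.map m', by simpa using h3⟩
    exact ⟨Forces.of_dense (key.mono fun _ _ h => h.1), Forces.of_dense (key.mono fun _ _ h => h.2)⟩
  · rintro ⟨h1, h2⟩ S l h
    exact (h2.map l).not_not (by simpa using h S (𝟙 S) (by simpa using h1.map l))

theorem forces_sup (φ ψ : setL.BoundedFormula Empty n) (xs : Fin n → El R) :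
    Forces (φ ⊔ ψ) R xs ↔
      Dense R (fun S l => Forces φ S (mapv xs l) ∨ Forces ψ S (mapv xs l)) := by
  change Forces (∼φ ⟹ ψ) R xs ↔ _
  rw [forces_imp]
  constructor
  · intro h S l
    by_cases h1 : Forces φ S (mapv xs l)
    · exact ⟨S, 𝟙 S, Or.inl (by simpa using h1)⟩
    · obtain ⟨T, m, h2⟩ := exists_forces_not h1
      exact ⟨T, m, Or.inr (h T _ (by simpa using h2))⟩
  · intro h S l h1
    apply Forces.of_dense
    intro T m
    obtain ⟨T', m', h2 | h2⟩ := h T (l ≫ m)
    · exact absurd h2 (by simpa using h1 T' (m ≫ m'))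
    · exact ⟨T', m', by simpa using h2⟩

theorem forces_iff (φ ψ : setL.BoundedFormula Empty n) (xs : Fin n → El R) :
    Forces (φ ⇔ ψ) R xs ↔
      ∀ (S : C) (l : R ⟶ S), Forces φ S (mapv xs l) ↔ Forces ψ S (mapv xs l) := by
  change Forces ((φ ⟹ ψ) ⊓ (ψ ⟹ φ)) R xs ↔ _
  rw [forces_inf, forces_imp, forces_imp]
  exact ⟨fun h S l => ⟨h.1 S l, h.2 S l⟩, fun h => ⟨fun S l => (h S l).1, fun S l => (h S l).2⟩⟩

theorem forces_ex (φ : setL.BoundedFormula Empty (n + 1)) (xs : Fin n → El R) :
    Forces (∃' φ) R xs ↔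
      Dense R (fun S l => ∃ a : El S, Forces φ S (Fin.snoc (mapv xs l) a)) := by
  change Forces (∼(∀' ∼φ)) R xs ↔ _
  rw [forces_not]
  constructor
  · intro h S l
    have h1 := h S l
    simp only [forces_all, forces_not, not_forall, not_not, mapv_mapv, mapv_snoc] at h1
    obtain ⟨T, m, a, T', m', h2⟩ := h1
    exact ⟨T', m ≫ m', a.map m', by simpa using h2⟩
  · intro h S l h1
    obtain ⟨T, m, a, h2⟩ := h S l
    exact h2.not_not (by simpa using h1 T m a)

/-- To force an existential statement it suffices to give a witness at the current stage. -/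
theorem Forces.ex_intro {φ : setL.BoundedFormula Empty (n + 1)} {xs : Fin n → El R} (a : El R)
    (h : Forces φ R (Fin.snoc xs a)) : Forces (∃' φ) R xs :=
  (forces_ex _ _).2 (Dense.of_forall fun _ l => ⟨a.map l, by simpa using h.map l⟩)

theorem forces_castLE_of_eq {m n : ℕ} (h : m = n) {h' : m ≤ n} (φ : setL.BoundedFormula Empty m)
    (xs : Fin n → El R) : Forces (φ.castLE h') R xs ↔ Forces φ R (xs ∘ Fin.cast h) := by
  subst h
  simp only [BoundedFormula.castLE_rfl, Fin.cast_refl, Function.comp_id]

theorem tidx_liftAt {n n' m : ℕ} (t : setL.Term (Empty ⊕ Fin n)) :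
    tidx (t.liftAt n' m) =
      if ((tidx t : Fin n) : ℕ) < m then Fin.castAdd n' (tidx t) else Fin.addNat (tidx t) n' := by
  rw [term_eq_var t]
  rfl

theorem forces_liftAt {n n' m : ℕ} (φ : setL.BoundedFormula Empty n) (xs : Fin (n + n') → El R)
    (hmn : m ≤ n) :
    Forces (φ.liftAt n' m) R xs ↔
      Forces φ R (xs ∘ fun i => if (i : ℕ) < m then Fin.castAdd n' i else Fin.addNat i n') := by
  rw [BoundedFormula.liftAt]
  induction φ generalizing R with
  | falsum => rfl
  | equal t₁ t₂ => simp only [BoundedFormula.mapTermRel, Forces, tidx_liftAt, Function.comp_apply]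
  | rel r ts => simp only [BoundedFormula.mapTermRel, Forces, tidx_liftAt, Function.comp_apply, id]
  | imp _ _ ih1 ih2 =>
    simp only [BoundedFormula.mapTermRel, Forces, ih1 _ hmn, ih2 _ hmn, mapv_comp]
  | @all k _ ih3 =>
    have h : k + 1 + n' = k + n' + 1 := by rw [add_assoc, add_comm 1 n', ← add_assoc]
    simp only [BoundedFormula.mapTermRel, Forces, forces_castLE_of_eq h, ih3 _ (hmn.trans k.le_succ),
      mapv_comp]
    refine forall_congr' fun S => forall_congr' fun l => forall_congr' fun x =>
      iff_eq_eq.mpr (congr rfl (funext (Fin.lastCases ?_ fun i => ?_)))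
    · simp only [Function.comp_apply, Fin.val_last, Fin.snoc_last]
      refine (congr rfl (Fin.ext ?_)).trans (Fin.snoc_last _ _)
      split_ifs <;> dsimp; omega
    · simp only [Function.comp_apply, Fin.snoc_castSucc]
      refine (congr rfl (Fin.ext ?_)).trans (Fin.snoc_castSucc _ _ _)
      simp only [Fin.val_castSucc, Fin.val_cast]
      split_ifs <;> simp

/-- A universal closure is forced at every stage as soon as the matrix is forced at every stage
under every assignment. -/
theorem forces_alls {n : ℕ} (φ : setL.BoundedFormula Empty n)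
    (h : ∀ (S : C) (xs : Fin n → El S), Forces φ S xs) (R : C) :
    Forces (φ.alls : setL.BoundedFormula Empty 0) R Fin.elim0 := by
  induction n with
  | zero => exact h R _
  | succ n ih => exact ih φ.all (fun S xs T l a => h T _)

end Crest.Agent.R296
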