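import Crest.Agent.R296.Cond

/-!
# R296 (S0448), part 4: gluing data

`D.push e` is the push-forward of data along `e` (closed under eventual equality and restriction),
`D.union D'`, `Data.iUnion` are unions.  A push-forward along an `IsPre` map is lawful as soon as
the rules (E) and (U) hold at every point; a union of lawful data is lawful as soon as the
`Cross` conditions hold.  `tagData`, `uData`, `valData`, `promData` are the data consisting of new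
items only.
-/

set_option autoImplicit false

open CategoryTheory Filter Set

namespace Crest.Agent.R296

variable {α β γ : Type}

/-- Push-forward of data. -/
def Data.push [SemilatticeInf β] (D : Data α) (e : α → β) : Data β where
  Tag c ξ d := ∃ c₀ d₀, D.Tag c₀ ξ d₀ ∧ c = e c₀ ∧ d = e d₀
  U a x := ∃ a₀ x₀, D.U a₀ x₀ ∧ a = e a₀ ∧ x = e x₀
  Val a x v ξ Z := ∃ a₀ x₀ v₀ Z₀, D.Val a₀ x₀ v₀ ξ Z₀ ∧ a = e a₀ ∧ x = e x₀ ∧ v = e v₀ ∧
    Z =ᶠ[atTop] fun n => e (Z₀ n)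
  Prom W B Y := ∃ W₀ B₀ Y₀ m, D.Prom W₀ B₀ Y₀ ∧ (∀ b ∈ B₀, e b ≤ m) ∧
    W = (fun w => e w ⊓ m) '' W₀ ∧ B = e '' B₀ ∧ Y = (fun y => e y ⊓ m) '' Y₀

/-- Binary union of data. -/
def Data.union (D D' : Data α) : Data α where
  Tag c ξ d := D.Tag c ξ d ∨ D'.Tag c ξ d
  U a x := D.U a x ∨ D'.U a x
  Val a x v ξ Z := D.Val a x v ξ Z ∨ D'.Val a x v ξ Z
  Prom W B Y := D.Prom W B Y ∨ D'.Prom W B Y

/-- Indexed union of data. -/
def Data.iUnion {J : Type} (D : J → Data α) : Data α where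
  Tag c ξ d := ∃ j, (D j).Tag c ξ d
  U a x := ∃ j, (D j).U a x
  Val a x v ξ Z := ∃ j, (D j).Val a x v ξ Z
  Prom W B Y := ∃ j, (D j).Prom W B Y

/-- Only tags. -/
def tagData (T : α → Xi → α → Prop) : Data α where
  Tag := T
  U _ _ := False
  Val _ _ _ _ _ := False
  Prom _ _ _ := False

/-- Only one pair. -/
def uData (a x : α) : Data α where
  Tag _ _ _ := False
  U a' x' := a' = a ∧ x' = x
  Val _ _ _ _ _ := False
  Prom _ _ _ := False

/-- Only one value. -/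
def valData (a x v : α) (ξ : Xi) (Z : ℕ → α) : Data α where
  Tag _ _ _ := False
  U _ _ := False
  Val a' x' v' ξ' Z' := a' = a ∧ x' = x ∧ v' = v ∧ ξ' = ξ ∧ Z' =ᶠ[atTop] Z
  Prom _ _ _ := False

/-- Only one promise, with its restrictions. -/
def promData [SemilatticeInf α] (W B Y : Set α) : Data α where
  Tag _ _ _ := False
  U _ _ := False
  Val _ _ _ _ _ := False
  Prom W' B' Y' := ∃ m, (∀ b ∈ B, b ≤ m) ∧ W' = (· ⊓ m) '' W ∧ B' = B ∧ Y' = (· ⊓ m) '' Y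

/-- The compatibility conditions between two lawful data on the same carrier. -/
structure Cross [SemilatticeInf α] (D D' : Data α) : Prop where
  tag : ∀ {c ξ d d'}, D.Tag c ξ d → D'.Tag c ξ d' → d = d'
  val_fun : ∀ {a x v v' ξ Z Z'}, D.Val a x v ξ Z → D'.Val a x v' ξ Z' →
    (∀ c, a ≤ c → (v ≤ c ↔ v' ≤ c)) → v = v'
  val_I : ∀ {a x v v' ξ ξ' Z Z'}, D.Val a x v ξ Z → D'.Val a x v' ξ' Z' → v ≠ v' → v ⊓ v' = x
  val_tail : ∀ {a x v ξ ξ' Z Z'}, D.Val a x v ξ Z → D'.Val a x v ξ' Z' → Z =ᶠ[atTop] Z'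
  inv : ∀ {W B Y a x}, D.Prom W B Y → D'.U a x → (∀ b ∈ B, b ≤ x) → ¬ ∀ w ∈ W, a ≤ w
  inv' : ∀ {W B Y a x}, D'.Prom W B Y → D.U a x → (∀ b ∈ B, b ≤ x) → ¬ ∀ w ∈ W, a ≤ w

section

variable [SemilatticeInf α]

theorem Data.OK.cross {D : Data α} (h : D.OK) : Cross D D :=
  ⟨h.tag_fun, h.val_fun, h.val_I, h.val_tail, h.prom_inv, h.prom_inv⟩

theorem Cross.symm {D D' : Data α} (h : Cross D D') : Cross D' D where
  tag h1 h2 := (h.tag h2 h1).symm
  val_fun h1 h2 hc := (h.val_fun h2 h1 fun c ha => (hc c ha).symm).symm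
  val_I h1 h2 hne := by rw [inf_comm]; exact h.val_I h2 h1 hne.symm
  val_tail h1 h2 := (h.val_tail h2 h1).symm
  inv := h.inv'
  inv' := h.inv

theorem Cross.union_left {D₁ D₂ D : Data α} (h₁ : Cross D₁ D) (h₂ : Cross D₂ D) :
    Cross (D₁.union D₂) D where
  tag h h' := h.elim (fun h => h₁.tag h h') fun h => h₂.tag h h'
  val_fun h h' := h.elim (fun h => h₁.val_fun h h') fun h => h₂.val_fun h h'
  val_I h h' := h.elim (fun h => h₁.val_I h h') fun h => h₂.val_I h h'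
  val_tail h h' := h.elim (fun h => h₁.val_tail h h') fun h => h₂.val_tail h h'
  inv h h' := h.elim (fun h => h₁.inv h h') fun h => h₂.inv h h'
  inv' h h' := h'.elim (fun h' => h₁.inv' h h') fun h' => h₂.inv' h h'

theorem Data.iUnion_ok {J : Type} [Countable J] {D : J → Data α} (h : ∀ j, (D j).OK)
    (hc : ∀ j j', Cross (D j) (D j')) : (Data.iUnion D).OK where
  tag_le := fun ⟨j, hj⟩ => (h j).tag_le hj
  tag_fun := fun ⟨j, hj⟩ ⟨j', hj'⟩ => (hc j j').tag hj hj'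
  used_ct := (countable_iUnion fun j => (h j).used_ct).mono (by
    rintro ξ (⟨c, e, j, hj⟩ | ⟨a, y, v, Z, j, hj⟩)
    · exact mem_iUnion.2 ⟨j, Or.inl ⟨_, _, hj⟩⟩
    · exact mem_iUnion.2 ⟨j, Or.inr ⟨_, _, _, _, hj⟩⟩)
  u_le := fun ⟨j, hj⟩ => (h j).u_le hj
  u_not := fun ⟨j, hj⟩ => (h j).u_not hj
  val_xa := fun ⟨j, hj⟩ => (h j).val_xa hj
  val_xv := fun ⟨j, hj⟩ => (h j).val_xv hj
  val_av := fun ⟨j, hj⟩ => (h j).val_av hj
  val_E := fun ⟨j, hj⟩ => (h j).val_E hj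
  val_Z := fun ⟨j, hj⟩ => (h j).val_Z hj
  val_fun := fun ⟨j, hj⟩ ⟨j', hj'⟩ => (hc j j').val_fun hj hj'
  val_I := fun ⟨j, hj⟩ ⟨j', hj'⟩ => (hc j j').val_I hj hj'
  val_tail := fun ⟨j, hj⟩ ⟨j', hj'⟩ => (hc j j').val_tail hj hj'
  val_congr := fun ⟨j, hj⟩ e => ⟨j, (h j).val_congr hj e⟩
  prom_ne := fun ⟨j, hj⟩ => (h j).prom_ne hj
  prom_dir := fun ⟨j, hj⟩ => (h j).prom_dir hj
  prom_le := fun ⟨j, hj⟩ => (h j).prom_le hj
  prom_U := fun ⟨j, hj⟩ => (h j).prom_U hj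
  prom_inv := fun ⟨j, hj⟩ ⟨j', hj'⟩ => (hc j j').inv hj hj'
  prom_res := fun ⟨j, hj⟩ m hm => ⟨j, (h j).prom_res hj m hm⟩

theorem Data.union_ok {D D' : Data α} (h : D.OK) (h' : D'.OK) (hc : Cross D D') :
    (D.union D').OK := by
  have key := Data.iUnion_ok (J := Bool) (D := fun b => cond b D D')
    (by rintro (_ | _); exacts [h', h])
    (by rintro (_ | _) (_ | _); exacts [h'.cross, hc.symm, hc, h.cross])
  have e : D.union D' = Data.iUnion (fun b : Bool => cond b D D') := by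
    simp only [Data.union, Data.iUnion, Bool.exists_bool, cond_false, cond_true, or_comm]
  rwa [e]

theorem Data.Hom.union_left {D : Data γ} {D₁ D₂ : Data α} {f : γ → α} (h : D.Hom D₁ f) :
    D.Hom (D₁.union D₂) f :=
  ⟨fun t => Or.inl (h.tag t), fun t => Or.inl (h.u t), fun t => Or.inl (h.val t),
    fun t => Or.inl (h.prom t)⟩

theorem Data.Hom.union_right {D : Data γ} {D₁ D₂ : Data α} {f : γ → α} (h : D.Hom D₂ f) :
    D.Hom (D₁.union D₂) f :=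
  ⟨fun t => Or.inr (h.tag t), fun t => Or.inr (h.u t), fun t => Or.inr (h.val t),
    fun t => Or.inr (h.prom t)⟩

theorem Data.Hom.iUnion {J : Type} {D : Data γ} {D₁ : J → Data α} {f : γ → α} (j : J)
    (h : D.Hom (D₁ j) f) : D.Hom (Data.iUnion D₁) f :=
  ⟨fun t => ⟨j, h.tag t⟩, fun t => ⟨j, h.u t⟩, fun t => ⟨j, h.val t⟩, fun t => ⟨j, h.prom t⟩⟩

theorem Data.hom_push [OrderTop α] (D : Data γ) (e : γ → α) : D.Hom (D.push e) e :=
  ⟨fun t => ⟨_, _, t, rfl, rfl⟩, fun t => ⟨_, _, t, rfl, rfl⟩,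
    fun t => ⟨_, _, _, _, t, rfl, rfl, rfl, EventuallyEq.rfl⟩,
    fun t => ⟨_, _, _, ⊤, t, fun _ _ => le_top, by simp, rfl, by simp⟩⟩

theorem tagData_ok {T : α → Xi → α → Prop} (hle : ∀ c ξ e, T c ξ e → e ≤ c)
    (hfun : ∀ c ξ e e', T c ξ e → T c ξ e' → e = e') (hct : {ξ | ∃ c e, T c ξ e}.Countable) :
    (tagData T).OK where
  tag_le h := hle _ _ _ h
  tag_fun h h' := hfun _ _ _ _ h h'
  used_ct := hct.mono (by
    rintro ξ (h | ⟨_, _, _, _, h⟩)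
    · exact h
    · exact h.elim)
  u_le h := h.elim
  u_not h := h.elim
  val_xa h := h.elim
  val_xv h := h.elim
  val_av h := h.elim
  val_E h := h.elim
  val_Z h := h.elim
  val_fun h := h.elim
  val_I h := h.elim
  val_tail h := h.elim
  val_congr h := h.elim
  prom_ne h := h.elim
  prom_dir h := h.elim
  prom_le h := h.elim
  prom_U h := h.elim
  prom_inv h := h.elim
  prom_res h := h.elim

theorem uData_ok {a x : α} (hle : x ≤ a) (hnot : ¬ a ≤ x) : (uData a x).OK where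
  tag_le h := h.elim
  tag_fun h := h.elim
  used_ct := countable_empty.mono (by
    rintro ξ (⟨_, _, h⟩ | ⟨_, _, _, _, h⟩) <;> exact h.elim)
  u_le := by rintro _ _ ⟨rfl, rfl⟩; exact hle
  u_not := by rintro _ _ ⟨rfl, rfl⟩; exact hnot
  val_xa h := h.elim
  val_xv h := h.elim
  val_av h := h.elim
  val_E h := h.elim
  val_Z h := h.elim
  val_fun h := h.elim
  val_I h := h.elim
  val_tail h := h.elim
  val_congr h := h.elim
  prom_ne h := h.elim
  prom_dir h := h.elim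
  prom_le h := h.elim
  prom_U h := h.elim
  prom_inv h := h.elim
  prom_res h := h.elim

theorem valData_ok {a x v : α} {ξ : Xi} {Z : ℕ → α} (hxa : x ≤ a) (hxv : x ≤ v) (hav : ¬ a ≤ v)
    (hE : ∀ c, RuleE a x v c) (hZ : ∀ c, a ≤ c → (v ≤ c ↔ ∀ᶠ n in atTop, Z n ≤ c)) :
    (valData a x v ξ Z).OK where
  tag_le h := h.elim
  tag_fun h := h.elim
  used_ct := (countable_singleton ξ).mono (by
    rintro ξ (⟨_, _, h⟩ | ⟨_, _, _, _, h⟩)
    · exact h.elim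
    · exact h.2.2.2.1)
  u_le h := h.elim
  u_not h := h.elim
  val_xa := by rintro _ _ _ _ _ ⟨rfl, rfl, rfl, rfl, -⟩; exact hxa
  val_xv := by rintro _ _ _ _ _ ⟨rfl, rfl, rfl, rfl, -⟩; exact hxv
  val_av := by rintro _ _ _ _ _ ⟨rfl, rfl, rfl, rfl, -⟩; exact hav
  val_E := by rintro _ _ _ _ _ ⟨rfl, rfl, rfl, rfl, -⟩; exact hE
  val_Z := by
    rintro _ _ _ _ Z' ⟨rfl, rfl, rfl, rfl, e⟩ c hc
    rw [hZ c hc]
    exact eventually_congr (e.mono fun n hn => by rw [hn])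
  val_fun := by rintro _ _ _ _ _ _ _ ⟨rfl, rfl, rfl, -⟩ ⟨-, -, rfl, -⟩ -; rfl
  val_I := by rintro _ _ _ _ _ _ _ _ ⟨rfl, rfl, rfl, -⟩ ⟨-, -, rfl, -⟩ h; exact (h rfl).elim
  val_tail h h' := h.2.2.2.2.trans h'.2.2.2.2.symm
  val_congr h e := ⟨h.1, h.2.1, h.2.2.1, h.2.2.2.1, e.symm.trans h.2.2.2.2⟩
  prom_ne h := h.elim
  prom_dir h := h.elim
  prom_le h := h.elim
  prom_U h := h.elim
  prom_inv h := h.elim
  prom_res h := h.elim

theorem promData_ok {W B Y : Set α} (hne : W.Nonempty)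
    (hdir : ∀ w ∈ W, ∀ w' ∈ W, ∃ w'' ∈ W, w'' ≤ w ∧ w'' ≤ w') (hle : ∀ b ∈ B, ∀ w ∈ W, b ≤ w)
    (hU : ∀ c, RuleU W B Y c) : (promData W B Y).OK where
  tag_le h := h.elim
  tag_fun h := h.elim
  used_ct := countable_empty.mono (by
    rintro ξ (⟨_, _, h⟩ | ⟨_, _, _, _, h⟩) <;> exact h.elim)
  u_le h := h.elim
  u_not h := h.elim
  val_xa h := h.elim
  val_xv h := h.elim
  val_av h := h.elim
  val_E h := h.elim
  val_Z h := h.elim
  val_fun h := h.elim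
  val_I h := h.elim
  val_tail h := h.elim
  val_congr h := h.elim
  prom_ne := by rintro _ _ _ ⟨m, -, rfl, -⟩; exact hne.image _
  prom_dir := by
    rintro _ _ _ ⟨m, -, rfl, -⟩ _ ⟨w, hw, rfl⟩ _ ⟨w', hw', rfl⟩
    obtain ⟨w'', hw'', h1, h2⟩ := hdir w hw w' hw'
    exact ⟨_, ⟨w'', hw'', rfl⟩, inf_le_inf_right _ h1, inf_le_inf_right _ h2⟩
  prom_le := by
    rintro _ _ _ ⟨m, hm, rfl, rfl, -⟩ b hb _ ⟨w, hw, rfl⟩
    exact le_inf (hle b hb w hw) (hm b hb)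
  prom_U := by
    rintro _ _ _ ⟨m, -, rfl, rfl, rfl⟩ c
    exact (hU c).res m
  prom_inv _ h := h.elim
  prom_res := by
    rintro _ _ _ ⟨m, hm, rfl, rfl, rfl⟩ m' hm'
    exact ⟨m ⊓ m', fun b hb => le_inf (hm b hb) (hm' b hb), by simp only [image_image, inf_assoc],
      rfl, by simp only [image_image, inf_assoc]⟩

theorem promData_prom [OrderTop α] (W B Y : Set α) : (promData W B Y).Prom W B Y :=
  ⟨⊤, fun _ _ => le_top, by simp, rfl, by simp⟩

end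

section

variable [SemilatticeInf α] [SemilatticeInf β] [SemilatticeInf γ]

/-- Criterion for the compatibility of two push-forwards. -/
theorem cross_push {D : Data α} {D' : Data β} {e : α → γ} {e' : β → γ}
    (tag : ∀ c ξ d c' d', D.Tag c ξ d → D'.Tag c' ξ d' → e c = e' c' → e d = e' d')
    (val_fun : ∀ a x v ξ Z a' x' v' Z', D.Val a x v ξ Z → D'.Val a' x' v' ξ Z' → e a = e' a' →
      e x = e' x' → (∀ d, e a ≤ d → (e v ≤ d ↔ e' v' ≤ d)) → e v = e' v')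
    (val_I : ∀ a x v ξ Z a' x' v' ξ' Z', D.Val a x v ξ Z → D'.Val a' x' v' ξ' Z' → e a = e' a' →
      e x = e' x' → e v ≠ e' v' → e v ⊓ e' v' = e x)
    (val_tail : ∀ a x v ξ Z a' x' v' ξ' Z', D.Val a x v ξ Z → D'.Val a' x' v' ξ' Z' →
      e a = e' a' → e x = e' x' → e v = e' v' →
      (fun n => e (Z n)) =ᶠ[atTop] fun n => e' (Z' n))
    (inv : ∀ W B Y a x, D.Prom W B Y → D'.U a x → (∀ b ∈ B, e b ≤ e' x) →
      ¬ ∀ w ∈ W, e' a ≤ e w)
    (inv' : ∀ W B Y a x, D'.Prom W B Y → D.U a x → (∀ b ∈ B, e' b ≤ e x) →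
      ¬ ∀ w ∈ W, e a ≤ e' w) :
    Cross (D.push e) (D'.push e') where
  tag := by
    rintro _ ξ _ _ ⟨c, d, h, rfl, rfl⟩ ⟨c', d', h', h1, rfl⟩
    exact tag _ _ _ _ _ h h' h1
  val_fun := by
    rintro _ _ _ _ ξ _ _ ⟨a, x, v, Z, h, rfl, rfl, rfl, -⟩ ⟨a', x', v', Z', h', h1, h2, rfl, -⟩ hc
    exact val_fun _ _ _ _ _ _ _ _ _ h h' h1 h2 hc
  val_I := by
    rintro _ _ _ _ ξ ξ' _ _ ⟨a, x, v, Z, h, rfl, rfl, rfl, -⟩ ⟨a', x', v', Z', h', h1, h2, rfl, -⟩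
      hne
    exact val_I _ _ _ _ _ _ _ _ _ _ h h' h1 h2 hne
  val_tail := by
    rintro _ _ _ ξ ξ' _ _ ⟨a, x, v, Z, h, rfl, rfl, rfl, e1⟩ ⟨a', x', v', Z', h', h1, h2, h3, e2⟩
    exact (e1.trans (val_tail _ _ _ _ _ _ _ _ _ _ h h' h1 h2 h3)).trans e2.symm
  inv := by
    rintro _ _ _ _ _ ⟨W, B, Y, m, h, -, rfl, rfl, -⟩ ⟨a, x, h', rfl, rfl⟩ hB hW
    exact inv _ _ _ _ _ h h' (fun b hb => hB _ ⟨b, hb, rfl⟩)
      fun w hw => (hW _ ⟨w, hw, rfl⟩).trans inf_le_left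
  inv' := by
    rintro _ _ _ _ _ ⟨W, B, Y, m, h, -, rfl, rfl, -⟩ ⟨a, x, h', rfl, rfl⟩ hB hW
    exact inv' _ _ _ _ _ h h' (fun b hb => hB _ ⟨b, hb, rfl⟩)
      fun w hw => (hW _ ⟨w, hw, rfl⟩).trans inf_le_left

/-- A push-forward is lawful as soon as the rules (E) and (U) hold everywhere. -/
theorem Data.push_ok {D : Data α} (h : D.OK) {e : α → β} (he : IsPre e)
    (hE : ∀ a x v ξ Z, D.Val a x v ξ Z → ∀ d, RuleE (e a) (e x) (e v) d)
    (hU : ∀ W B Y, D.Prom W B Y → ∀ d, RuleU (e '' W) (e '' B) (e '' Y) d) : (D.push e).OK := by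
  have hc : Cross (D.push e) (D.push e) := by
    apply cross_push
    · intro c ξ d c' d' h1 h2 h3
      obtain rfl := he.inj h3
      rw [h.tag_fun h1 h2]
    · intro a x v ξ Z a' x' v' Z' h1 h2 h3 h4 hc
      obtain rfl := he.inj h3
      obtain rfl := he.inj h4
      rw [h.val_fun h1 h2 fun c ha => by simpa only [he.le_iff] using hc (e c) (he.mono ha)]
    · intro a x v ξ Z a' x' v' ξ' Z' h1 h2 h3 h4 hne
      obtain rfl := he.inj h3
      obtain rfl := he.inj h4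
      rw [← he.map_inf, h.val_I h1 h2 fun e' => hne (by rw [e'])]
    · intro a x v ξ Z a' x' v' ξ' Z' h1 h2 h3 h4 h5
      obtain rfl := he.inj h3
      obtain rfl := he.inj h4
      obtain rfl := he.inj h5
      exact (h.val_tail h1 h2).mono fun n hn => by simp only [hn]
    · intro W B Y a x h1 h2 hB hW
      exact h.prom_inv h1 h2 (fun b hb => he.le_iff.1 (hB b hb)) fun w hw => he.le_iff.1 (hW w hw)
    · intro W B Y a x h1 h2 hB hW
      exact h.prom_inv h1 h2 (fun b hb => he.le_iff.1 (hB b hb)) fun w hw => he.le_iff.1 (hW w hw)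
  exact
  { tag_le := by rintro _ _ _ ⟨c, d, h1, rfl, rfl⟩; exact he.mono (h.tag_le h1)
    tag_fun := hc.tag
    used_ct := h.used_ct.mono (by
      rintro ξ (⟨_, _, c, d, h1, -⟩ | ⟨_, _, _, _, a, x, v, Z, h1, -⟩)
      · exact Or.inl ⟨_, _, h1⟩
      · exact Or.inr ⟨_, _, _, _, h1⟩)
    u_le := by rintro _ _ ⟨a, x, h1, rfl, rfl⟩; exact he.mono (h.u_le h1)
    u_not := by rintro _ _ ⟨a, x, h1, rfl, rfl⟩; rw [he.le_iff]; exact h.u_not h1
    val_xa := by rintro _ _ _ _ _ ⟨a, x, v, Z, h1, rfl, rfl, rfl, -⟩; exact he.mono (h.val_xa h1)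
    val_xv := by rintro _ _ _ _ _ ⟨a, x, v, Z, h1, rfl, rfl, rfl, -⟩; exact he.mono (h.val_xv h1)
    val_av := by
      rintro _ _ _ _ _ ⟨a, x, v, Z, h1, rfl, rfl, rfl, -⟩; rw [he.le_iff]; exact h.val_av h1
    val_E := by rintro _ _ _ _ _ ⟨a, x, v, Z, h1, rfl, rfl, rfl, -⟩; exact hE _ _ _ _ _ h1
    val_Z := by
      rintro _ _ _ _ Z' ⟨a, x, v, Z, h1, rfl, rfl, rfl, e1⟩ c hc
      rw [← he.le_π, h.val_Z h1 _ (he.le_π.2 hc)]
      exact eventually_congr (e1.mono fun n hn => by rw [hn, he.le_π])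
    val_fun := hc.val_fun
    val_I := hc.val_I
    val_tail := hc.val_tail
    val_congr := by
      rintro _ _ _ _ _ _ ⟨a, x, v, Z, h1, rfl, rfl, rfl, e1⟩ e2
      exact ⟨a, x, v, Z, h1, rfl, rfl, rfl, e2.symm.trans e1⟩
    prom_ne := by rintro _ _ _ ⟨W, B, Y, m, h1, -, rfl, -⟩; exact (h.prom_ne h1).image _
    prom_dir := by
      rintro _ _ _ ⟨W, B, Y, m, h1, -, rfl, -⟩ _ ⟨w, hw, rfl⟩ _ ⟨w', hw', rfl⟩
      obtain ⟨w'', hw'', h2, h3⟩ := h.prom_dir h1 w hw w' hw'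
      exact ⟨_, ⟨w'', hw'', rfl⟩, inf_le_inf_right _ (he.mono h2), inf_le_inf_right _ (he.mono h3)⟩
    prom_le := by
      rintro _ _ _ ⟨W, B, Y, m, h1, hm, rfl, rfl, -⟩ _ ⟨b, hb, rfl⟩ _ ⟨w, hw, rfl⟩
      exact le_inf (he.mono (h.prom_le h1 b hb w hw)) (hm b hb)
    prom_U := by
      rintro _ _ _ ⟨W, B, Y, m, h1, -, rfl, rfl, rfl⟩ c
      simpa only [image_image] using (hU _ _ _ h1 c).res m
    prom_inv := hc.inv
    prom_res := by
      rintro _ _ _ ⟨W, B, Y, m, h1, hm, rfl, rfl, rfl⟩ m' hm'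
      exact ⟨W, B, Y, m ⊓ m', h1, fun b hb => le_inf (hm b hb) (hm' _ ⟨b, hb, rfl⟩),
        by simp only [image_image, inf_assoc], rfl, by simp only [image_image, inf_assoc]⟩ }

/-- For an ideal embedding (`d ⊓ e y` is always computed through the adjoint) the push-forward is
lawful. -/
theorem Data.push_ok_of_ideal {D : Data α} (h : D.OK) {e : α → β} (he : IsPre e)
    (hid : ∀ d y, d ⊓ e y = e (he.π d ⊓ y)) : (D.push e).OK :=
  Data.push_ok h he (fun _ _ _ _ _ h1 d => RuleE.image_of he (h.val_E h1 _) (hid d _))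
    (fun _ _ _ h1 d => RuleU.image_of he (h.prom_U h1 _) fun w hw => ⟨w, hw, le_rfl, hid d w⟩)

/-- Criterion for a map to preserve push-forward data. -/
theorem Data.Hom.of_push {D : Data α} {e : α → β} {D' : Data γ} (h' : D'.OK) {f : β → γ}
    (hf : IsPre f) (h : D.Hom D' (fun y => f (e y))) : (D.push e).Hom D' f where
  tag := by rintro _ _ _ ⟨c, d, h1, rfl, rfl⟩; exact h.tag h1
  u := by rintro _ _ ⟨a, x, h1, rfl, rfl⟩; exact h.u h1
  val := by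
    rintro _ _ _ _ _ ⟨a, x, v, Z, h1, rfl, rfl, rfl, e1⟩
    exact h'.val_congr (h.val h1) (e1.mono fun n hn => by simp only [hn])
  prom := by
    rintro _ _ _ ⟨W, B, Y, m, h1, hm, rfl, rfl, rfl⟩
    have := h'.prom_res (h.prom h1) (f m) (by rintro _ ⟨b, hb, rfl⟩; exact hf.mono (hm b hb))
    simpa only [image_image, hf.map_inf] using this

end

end Crest.Agent.R296
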