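import Crest.Agent.R296.Force

/-!
# R296 (S0448): from forcing to a model  (TASK R296/Henkin)

Read `Name.lean` and `Force.lean` first.  Build by recursion stages `R n`, arrows
`s n : R n ⟶ R (n+1)` and assignments `e n : ℕ → El (R n)` with
`e (n+1) i = (e n i).map (s n)` for `i ≠ n` (slot `n` is overwritten at step `n`).
The tasks `(k, φ : BoundedFormula Empty k, ψ : BoundedFormula Empty (k+1), v : Fin k → ℕ)` form a
countable type (`BoundedFormula.countable`/`listEncode`, or show `Countable (Σ k, BoundedFormula ..)`);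
enumerate them so that each occurs at arbitrarily late steps (`Nat.unpair`).  At step `n` with a task
whose slots are all `< n`: first pass to an extension forcing `φ` under `e n ∘ v` if `φ` is not
refuted, so that `φ` or `∼φ` is forced (`exists_forces_not`); then, if `∀' ψ` is not forced, pass to
an extension `(S,l)` and an element `a` with `∼ψ` forced at `snoc (..) a` and put `a` in slot `n`.
`True φ v := ∃ n, (∀ i, v i < n) ∧ Forces φ (R n) (e n ∘ v)`; it holds at all later stages
(`Forces.map`).  Model: `ℕ` modulo `i ~ j := ∃ n > i, j, Eqv (e n i) (e n j)`, membership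
`∃ n > i, j, Mem (e n i) (e n j)`.  Truth lemma by induction on `φ`:
`φ.Realize default (mk ∘ v) ↔ True φ v` (`term_eq_var`, `tidx`; `imp`: decide `φ`;
`all`: the witness slot).  Conclude with `Theory.Model.isSatisfiable`.
(An element of every stage exists: `mkEl PEmpty ..`.)
-/

set_option autoImplicit false

open CategoryTheory FirstOrder FirstOrder.Language Crest.LogicCS.SetTheory

universe u

namespace Crest.Agent.R296

namespace Henkin

open Filter

instance : Countable setL.Symbols := by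
  have h1 : Countable (Σ l, setL.Functions l) :=
    ⟨⟨fun _ => 0, fun a _ _ => Empty.elim a.2⟩⟩
  have h2 : Countable (Σ l, setL.Relations l) := by
    refine ⟨⟨fun _ => 0, ?_⟩⟩
    rintro ⟨_, ⟨⟩⟩ ⟨_, ⟨⟩⟩ _
    rfl
  unfold Language.Symbols
  infer_instance

instance (k : ℕ) : Countable (setL.BoundedFormula Empty k) :=
  Function.Injective.countable (β := Σ n, setL.BoundedFormula Empty n) (f := Sigma.mk k)
    sigma_mk_injective

/-- the tasks of the Henkin construction -/
abbrev Task : Type :=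
  Σ k : ℕ, setL.BoundedFormula Empty k × setL.BoundedFormula Empty (k + 1) × (Fin k → ℕ)

theorem exists_enum : ∃ t : ℕ → Task, ∀ (τ : Task) (N : ℕ), ∃ n, N ≤ n ∧ t n = τ := by
  have : Nonempty Task := ⟨⟨0, ⊥, ⊥, Fin.elim0⟩⟩
  obtain ⟨f, hf⟩ := exists_surjective_nat Task
  refine ⟨fun n => f n.unpair.1, fun τ N => ?_⟩
  obtain ⟨a, rfl⟩ := hf τ
  exact ⟨Nat.pair a N, Nat.right_le_pair _ _, by simp⟩

variable {C : Type u} [SmallCategory C]

/-- the empty element -/
def emp (R : C) : El R := mkEl PEmpty PEmpty.elim (fun i => i.elim) (fun i => i.elim)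

theorem exists_step {k : ℕ} (R : C) (xs : Fin k → El R) (φ : setL.BoundedFormula Empty k)
    (ψ : setL.BoundedFormula Empty (k + 1)) :
    ∃ (S : C) (l : R ⟶ S) (a : El S), (Forces φ S (mapv xs l) ∨ Forces (∼φ) S (mapv xs l)) ∧
      (Forces (∀' ψ) S (mapv xs l) ∨ Forces (∼ψ) S (Fin.snoc (mapv xs l) a)) := by
  obtain ⟨S, l, h1⟩ : ∃ (S : C) (l : R ⟶ S),
      Forces φ S (mapv xs l) ∨ Forces (∼φ) S (mapv xs l) := by
    by_cases h : Forces φ R xs
    · exact ⟨R, 𝟙 R, Or.inl (by simpa using h)⟩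
    · obtain ⟨S, l, h⟩ := exists_forces_not h
      exact ⟨S, l, Or.inr h⟩
  by_cases h : Forces (∀' ψ) S (mapv xs l)
  · exact ⟨S, l, emp S, h1, Or.inl h⟩
  · rw [forces_all] at h
    simp only [not_forall] at h
    obtain ⟨S', l', a, h⟩ := h
    obtain ⟨S'', l'', h⟩ := exists_forces_not h
    refine ⟨S'', l ≫ l' ≫ l'', a.map l'', ?_, Or.inr (by simpa using h)⟩
    exact h1.imp (fun h => by simpa using h.map (l' ≫ l'')) fun h => by
      simpa using h.map (l' ≫ l'')

/-- a generic chain -/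
structure Chain (C : Type u) [SmallCategory C] where
  R : ℕ → C
  e : ∀ n, ℕ → El (R n)
  s : ∀ n, R n ⟶ R (n + 1)
  he : ∀ n i, i < n → e (n + 1) i = (e n i).map (s n)
  gen : ∀ (k : ℕ) (φ : setL.BoundedFormula Empty k) (ψ : setL.BoundedFormula Empty (k + 1))
    (v : Fin k → ℕ) (N : ℕ), ∃ n, N ≤ n ∧
      (Forces φ (R (n + 1)) (mapv (e n ∘ v) (s n)) ∨
        Forces (∼φ) (R (n + 1)) (mapv (e n ∘ v) (s n))) ∧
      (Forces (∀' ψ) (R (n + 1)) (mapv (e n ∘ v) (s n)) ∨
        Forces (∼ψ) (R (n + 1)) (Fin.snoc (mapv (e n ∘ v) (s n)) (e (n + 1) n)))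

theorem nonempty_chain (R₀ : C) : Nonempty (Chain C) := by
  classical
  obtain ⟨t, ht⟩ := exists_enum
  have h := fun (n : ℕ) (st : Σ R : C, ℕ → El R) =>
    exists_step st.1 (st.2 ∘ (t n).2.2.2) (t n).2.1 (t n).2.2.1
  choose S l a h using h
  let seq : ℕ → Σ R : C, ℕ → El R := fun n => Nat.rec ⟨R₀, fun _ => emp R₀⟩
    (fun n st => ⟨S n st, fun i => if i = n then a n st else (st.2 i).map (l n st)⟩) n
  refine ⟨⟨fun n => (seq n).1, fun n => (seq n).2, fun n => l n (seq n), fun n i hi => ?_,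
    fun k φ ψ v N => ?_⟩⟩
  · exact if_neg hi.ne
  · obtain ⟨n, hn, e⟩ := ht ⟨k, φ, ψ, v⟩ N
    refine ⟨n, hn, ?_⟩
    have h1 := h n (seq n)
    have h2 : (seq (n + 1)).2 n = a n (seq n) := if_pos rfl
    rw [e] at h1
    rw [h2]
    exact h1

namespace Chain

variable (c : Chain C)

/-- truth along the chain -/
def Tr {k : ℕ} (φ : setL.BoundedFormula Empty k) (v : Fin k → ℕ) : Prop :=
  ∀ᶠ n in atTop, Forces φ (c.R n) (c.e n ∘ v)

theorem mapv_eq {k n : ℕ} {v : Fin k → ℕ} (hv : ∀ i, v i < n) :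
    mapv (c.e n ∘ v) (c.s n) = c.e (n + 1) ∘ v :=
  funext fun i => (c.he n _ (hv i)).symm

theorem tr_of {k n : ℕ} {φ : setL.BoundedFormula Empty k} {v : Fin k → ℕ} (hv : ∀ i, v i < n)
    (h : Forces φ (c.R n) (c.e n ∘ v)) : c.Tr φ v := by
  refine eventually_atTop.2 ⟨n, fun m hm => ?_⟩
  induction m, hm using Nat.le_induction with
  | base => exact h
  | succ m hm ih =>
    rw [← c.mapv_eq fun i => (hv i).trans_le hm]
    exact ih.map _

theorem exists_bound {k : ℕ} (v : Fin k → ℕ) : ∃ N, ∀ i, v i < N :=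
  ⟨Finset.univ.sup v + 1, fun i => Nat.lt_succ_of_le (Finset.le_sup (Finset.mem_univ i))⟩

theorem decide {k : ℕ} (φ : setL.BoundedFormula Empty k) (v : Fin k → ℕ) :
    c.Tr φ v ∨ c.Tr (∼φ) v := by
  obtain ⟨N, hN⟩ := exists_bound v
  obtain ⟨n, hn, h, -⟩ := c.gen k φ ⊥ v N
  have hv : ∀ i, v i < n := fun i => (hN i).trans_le hn
  rw [c.mapv_eq hv] at h
  exact h.imp (c.tr_of fun i => (hv i).trans n.lt_succ_self)
    (c.tr_of fun i => (hv i).trans n.lt_succ_self)

theorem witness {k : ℕ} (ψ : setL.BoundedFormula Empty (k + 1)) (v : Fin k → ℕ) :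
    c.Tr (∀' ψ) v ∨ ∃ j, c.Tr (∼ψ) (Fin.snoc v j) := by
  obtain ⟨N, hN⟩ := exists_bound v
  obtain ⟨n, hn, -, h⟩ := c.gen k ⊥ ψ v N
  have hv : ∀ i, v i < n := fun i => (hN i).trans_le hn
  rw [c.mapv_eq hv] at h
  refine h.imp (c.tr_of fun i => (hv i).trans n.lt_succ_self) fun h => ⟨n, c.tr_of (n := n + 1) ?_ ?_⟩
  · intro i
    refine Fin.lastCases ?_ (fun i => ?_) i
    · simp
    · simpa using (hv i).trans n.lt_succ_self
  · rwa [Fin.comp_snoc]

theorem not_both {k : ℕ} {φ : setL.BoundedFormula Empty k} {v : Fin k → ℕ} (h : c.Tr φ v)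
    (h' : c.Tr (∼φ) v) : False := by
  obtain ⟨n, h1, h2⟩ := (Eventually.and h h').exists
  exact h1.not_not h2

/-- equality in the model -/
def setoid : Setoid ℕ where
  r i j := ∀ᶠ n in atTop, Eqv (c.e n i) (c.e n j)
  iseqv := ⟨fun _ => Eventually.of_forall fun _ => Eqv.refl _,
    fun h => h.mono fun _ h => h.symm, fun h h' => (h.and h').mono fun _ h => h.1.trans h.2⟩

/-- the model -/
def M : Type := Quotient c.setoid

/-- the class of a slot -/
def cls (i : ℕ) : c.M := Quotient.mk c.setoid i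

instance : Nonempty c.M := ⟨c.cls 0⟩

/-- membership in the model -/
def mem (a b : c.M) : Prop :=
  ∃ i j, a = c.cls i ∧ b = c.cls j ∧ ∀ᶠ n in atTop, Mem (c.e n i) (c.e n j)

theorem cls_eq {i j : ℕ} : c.cls i = c.cls j ↔ ∀ᶠ n in atTop, Eqv (c.e n i) (c.e n j) :=
  Quotient.eq (r := c.setoid)

theorem mem_mk {i j : ℕ} : c.mem (c.cls i) (c.cls j) ↔ ∀ᶠ n in atTop, Mem (c.e n i) (c.e n j) := by
  refine ⟨?_, fun h => ⟨i, j, rfl, rfl, h⟩⟩
  rintro ⟨i', j', h1, h2, h⟩
  filter_upwards [c.cls_eq.1 h1, c.cls_eq.1 h2, h] with n h1 h2 h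
  exact h.congr h1.symm h2.symm

/-- interpretation of the relation symbols -/
def relM : {l : ℕ} → SetRel l → (Fin l → c.M) → Prop
  | _, SetRel.mem, xs => c.mem (xs 0) (xs 1)

instance : setL.Structure c.M where
  funMap f _ := Empty.elim f
  RelMap r xs := c.relM r xs

theorem realize_term {k : ℕ} (t : setL.Term (Empty ⊕ Fin k)) (w : Empty → c.M)
    (xs : Fin k → c.M) : t.realize (Sum.elim w xs) = xs (tidx t) := by
  rw [term_eq_var t]
  rfl

theorem truth {k : ℕ} (φ : setL.BoundedFormula Empty k) (w : Empty → c.M) (v : Fin k → ℕ) :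
    φ.Realize w (c.cls ∘ v) ↔ c.Tr φ v := by
  induction φ with
  | falsum =>
    refine ⟨False.elim, fun h => ?_⟩
    obtain ⟨_, h⟩ := h.exists
    exact h
  | equal t₁ t₂ =>
    change t₁.realize _ = t₂.realize _ ↔ _
    rw [realize_term, realize_term]
    exact c.cls_eq
  | rel r ts =>
    cases r
    change c.mem ((ts 0).realize _) ((ts 1).realize _) ↔ _
    rw [realize_term, realize_term]
    exact c.mem_mk
  | imp φ ψ ih1 ih2 =>
    rw [BoundedFormula.realize_imp, ih1, ih2]
    constructor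
    · intro h
      rcases c.decide φ v with h1 | h1
      · exact Eventually.mono (h h1) fun n h S l _ => h.map l
      · exact Eventually.mono h1 fun n h S l h' => (h S l h').elim
    · intro h h1
      refine (Eventually.and h h1).mono fun n h => ?_
      simpa using h.1 _ (𝟙 _) (by simpa using h.2)
  | all ψ ih =>
    rw [BoundedFormula.realize_all]
    constructor
    · intro h
      rcases c.witness ψ v with h1 | ⟨j, h1⟩
      · exact h1
      · refine (c.not_both ((ih _).1 ?_) h1).elim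
        rw [Fin.comp_snoc]
        exact h _
    · intro h a
      obtain ⟨j, rfl⟩ : ∃ j, a = c.cls j := Quotient.inductionOn a fun j => ⟨j, rfl⟩
      rw [← Fin.comp_snoc, ih]
      refine Eventually.mono h fun n h => ?_
      rw [Fin.comp_snoc]
      simpa using h _ (𝟙 _) (c.e n j)

end Chain

end Henkin

theorem isSatisfiable_of_forces {C : Type u} [SmallCategory C] (T : setL.Theory) (R₀ : C)
    (h : ∀ φ ∈ T, ∀ R : C, Forces (φ : setL.BoundedFormula Empty 0) R Fin.elim0) :
    T.IsSatisfiable := by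
  obtain ⟨c⟩ := Henkin.nonempty_chain R₀
  have : c.M ⊨ T := by
    refine ⟨fun φ hφ => ?_⟩
    have h1 := (c.truth (φ : setL.BoundedFormula Empty 0) default Fin.elim0).2
      (Filter.Eventually.of_forall fun n => by
        have e : c.e n ∘ (Fin.elim0 : Fin 0 → ℕ) = Fin.elim0 := Subsingleton.elim _ _
        rw [e]
        exact h φ hφ _)
    have e : c.cls ∘ (Fin.elim0 : Fin 0 → ℕ) = default := Subsingleton.elim _ _
    rw [e] at h1
    exact h1
  exact Theory.Model.isSatisfiable c.M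

end Crest.Agent.R296
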