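import Crest.Agent.R296.Ord
import Crest.Agent.R296.Amalg
import Crest.Agent.R296.Steps

/-!
# R296 (S0448): the failure of choice is forced  (TASK R296/NotAC)

Read `Name.lean`, `Force.lean`, `Pair.lean`, `Ord.lean`, `Cond.lean` and the statements in
`Amalg.lean`, `Steps.lean`.  The category is `Cond`.  Fix an injection `ρ : Xi → Ordinal.{1}`
(e.g. from `embeddingToCardinal`, `Cardinal.lift`, `Cardinal.ord`).
* For `c : S` let `dot c : El S` be given by `exists_el` (or `mkEl`) with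
  `Φ T l z := ∃ ξ, T.D.Tag (l c) ξ (l c) ∧ Eqv z (ordEl (ρ ξ) T)`.  Naturality
  `Eqv ((dot c).map l) (dot (l c))` by `Eqv.ext`.
  Injectivity: `Eqv (dot c) (dot c') → c = c'`.  Otherwise `c ⊓ c' ≠ c'` or `c ⊓ c' ≠ c`; by symmetry
  say `e := c ⊓ c' ≠ c'`; `exists_sep` gives `j, ξ` with `Tag (j c) ξ (j c)`, `Tag (j c') ξ (j e)`;
  then `ordEl (ρ ξ) ∈ dot (j c) = dot (j c')`, so in some extension `m`, `Tag (m (j c')) ξ' (m (j c'))`
  with `ρ ξ = ρ ξ'` (`ordEl_inj`), and `tag_fun` gives `m (j c') = m (j e)`, contradiction.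
* `X c : El S` with `Φ T l z := ∃ c' : T, ¬ c' ≤ l c ∧ Eqv z (op (dot (l c)) (dot c'))`, natural.
  `F : El R` with `Φ T l z := ∃ c : T, Eqv z (X c)`.
* Members of `F` are non-empty (pass to an extension where the member is `X c`, then
  `exists_capU`: `c' = ⊤`, `u_not`), and pairwise disjoint (`op_inj_left`, injectivity of `dot`,
  `Eqv.of_dense`).
* No choice set: suppose `acAx` is forced at `R`; apply it to `F`; in an extension `(S, l)` get `C₀`;
  apply the conclusion to `X ⊤` (`⊤ : S`); in an extension `k : S ⟶ T` there is `z ∈ X ⊤ ∩ C₀`,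
  unique in all further extensions, and (extending again) `z = op (dot x) (dot c')` with
  `x = k ⊤`, `¬ c' ≤ x`.  `exists_amalg T x T (incl T x)` gives `i₁ i₂ : T ⟶ M` agreeing below `x`,
  so `k ≫ i₁ = k ≫ i₂` (`hom_ext`, `incl_comp_eq_iff`).  Uniqueness along `i₁` applied to
  `z.map i₂` gives `Eqv (z.map i₂) (z.map i₁)`, so `dot (i₂ c') = dot (i₁ c')` (`op_inj_right`),
  `i₁ c' = i₂ c'`, hence `c' ≤ x`: contradiction.
-/

set_option autoImplicit false

open CategoryTheory FirstOrder FirstOrder.Language Crest.LogicCS.SetTheory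

universe u

namespace Crest.Agent.R296

open Cond

theorem notac_acAx_eq : acAx =
    ∀' (((∀' (vmem (Fin.last 1) (Fin.last 0).castSucc ⟹
          ∃' vmem (Fin.last 2) (Fin.last 1).castSucc)) ⊓
        (∀' ∀' ((vmem (Fin.last 1).castSucc (Fin.last 0).castSucc.castSucc ⊓
          vmem (Fin.last 2) (Fin.last 0).castSucc.castSucc ⊓
          ∃' (vmem (Fin.last 3) (Fin.last 1).castSucc.castSucc ⊓
            vmem (Fin.last 3) (Fin.last 2).castSucc)) ⟹
          veq (Fin.last 1).castSucc (Fin.last 2)))) ⟹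
      ∃' ∀' (vmem (Fin.last 2) (Fin.last 0).castSucc.castSucc ⟹
        ∃' ((vmem (Fin.last 3) (Fin.last 2).castSucc ⊓
          vmem (Fin.last 3) (Fin.last 1).castSucc.castSucc) ⊓
        ∀' ((vmem (Fin.last 4) (Fin.last 2).castSucc.castSucc ⊓
          vmem (Fin.last 4) (Fin.last 1).castSucc.castSucc.castSucc) ⟹
          veq (Fin.last 4) (Fin.last 3).castSucc)))) := rfl

/-- what a stage forcing `acAx` gives for a family of non-empty disjoint sets -/
theorem notac_elim {C : Type u} [SmallCategory C] {R : C}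
    (h : Forces (acAx : setL.BoundedFormula Empty 0) R Fin.elim0) (F : El R)
    (hne : ∀ (S : C) (l : R ⟶ S) (y : El S), Mem y (F.map l) →
      Dense S (fun T m => ∃ z : El T, Mem z (y.map m)))
    (hdis : ∀ (S : C) (l : R ⟶ S) (y y' z : El S), Mem y (F.map l) → Mem y' (F.map l) →
      Mem z y → Mem z y' → Eqv y y') :
    ∃ (S : C) (l : R ⟶ S) (c : El S), ∀ y : El S, Mem y (F.map l) →
      ∃ (U : C) (n : S ⟶ U) (z : El U), Mem z (y.map n) ∧ Mem z (c.map n) ∧
        ∀ (V : C) (p : U ⟶ V) (w : El V), Mem w (y.map (n ≫ p)) → Mem w (c.map (n ≫ p)) →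
          Eqv w (z.map p) := by
  rw [notac_acAx_eq] at h
  simp only [forces_all, forces_imp, forces_inf, forces_ex, forces_vmem, forces_veq, mapv_snoc,
    mapv_mapv, Fin.snoc_last, Fin.snoc_castSucc, El.map_map] at h
  obtain ⟨S, l, c, hc⟩ := (h R (𝟙 R) F R (𝟙 R) ⟨fun S l y T m hy => by
      simpa using hne T _ _ hy, fun S l y T m y' U n hy => Eqv.of_dense (hy.2.mono fun V p hp => by
      obtain ⟨z, h1, h2⟩ := hp
      refine hdis V _ _ _ z (by simpa using hy.1.1.map p) (by simpa using hy.1.2.map p) ?_ ?_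
      · simpa using h1
      · simpa using h2)⟩).exists
  refine ⟨S, l, c, fun y hy => ?_⟩
  obtain ⟨U, n, z, ⟨h1, h2⟩, h3⟩ := (hc S (𝟙 S) y S (𝟙 S) (by simpa using hy)).exists
  refine ⟨U, n, z, by simpa using h1, by simpa using h2, fun V p w h4 h5 => ?_⟩
  simpa using h3 V p w V (𝟙 V) ⟨by simpa using h4, by simpa using h5⟩

theorem notac_exists_rho : ∃ ρ : Xi → Ordinal.{1}, Function.Injective ρ :=
  ⟨fun ξ => (Cardinal.lift.{1} (embeddingToCardinal ξ)).ord, fun _ _ h =>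
    embeddingToCardinal.injective (Cardinal.lift_injective (Cardinal.ord_injective h))⟩

/-- an injection of the labels into the ordinals -/
noncomputable def notacRho : Xi → Ordinal.{1} := notac_exists_rho.choose

theorem notacRho_inj : Function.Injective notacRho := notac_exists_rho.choose_spec

theorem notac_exists_dot (S : Cond) (c : S) : ∃ a : El S, ∀ (T : Cond) (l : S ⟶ T) (z : El T),
    Mem z (a.map l) ↔ Dense T (fun U m =>
      ∃ ξ, U.D.Tag (m (l c)) ξ (m (l c)) ∧ Eqv (z.map m) (ordEl (notacRho ξ) U)) :=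
  exists_el S (fun T l z => ∃ ξ, T.D.Tag (l c) ξ (l c) ∧ Eqv z (ordEl (notacRho ξ) T))
    (fun _ _ _ _ m ⟨ξ, h, e⟩ => ⟨ξ, map_tag m h, (e.map m).trans (ordEl_map _ m)⟩)
    (fun _ _ _ _ e ⟨ξ, h, e'⟩ => ⟨ξ, h, e.symm.trans e'⟩)
    (fun T _ => ⟨ULift.{1} Xi, fun ξ => ordEl (notacRho ξ.down) T,
      fun _ ⟨ξ, _, e⟩ => ⟨⟨ξ⟩, e⟩⟩)

/-- the set of labels that tag `c` by itself -/
noncomputable def notacDot {S : Cond} (c : S) : El S := (notac_exists_dot S c).choose

theorem notac_mem_dot {S T : Cond} (c : S) (l : S ⟶ T) (z : El T) :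
    Mem z ((notacDot c).map l) ↔ Dense T (fun U m =>
      ∃ ξ, U.D.Tag (m (l c)) ξ (m (l c)) ∧ Eqv (z.map m) (ordEl (notacRho ξ) U)) :=
  (notac_exists_dot S c).choose_spec T l z

theorem notac_dot_map {S T : Cond} (c : S) (l : S ⟶ T) :
    Eqv ((notacDot c).map l) (notacDot (l c)) :=
  Eqv.ext fun U m z => by
    rw [El.map_map, notac_mem_dot, notac_mem_dot]
    rfl

theorem notac_dot_inf {S : Cond} {c c' : S} (hne : c ≠ c') (h : Eqv (notacDot c) (notacDot c')) :
    c' = c ⊓ c' := by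
  obtain ⟨Q, j, ξ, h1, h2⟩ := exists_sep S c c' (c ⊓ c') hne inf_le_right
  have h3 : Mem (ordEl (notacRho ξ) Q) ((notacDot c).map j) :=
    (notac_mem_dot _ _ _).2 (Dense.of_forall fun U m => ⟨ξ, map_tag m h1, ordEl_map _ m⟩)
  obtain ⟨U, m, ξ', h4, h5⟩ := ((notac_mem_dot _ _ _).1 (h3.congr_right (h.map j))).exists
  obtain rfl := notacRho_inj (ordEl_inj ((ordEl_map _ m).symm.trans h5))
  exact (map_inj j).1 ((map_inj m).1 (U.ok.tag_fun h4 (map_tag m h2)))

theorem notac_dot_inj {S : Cond} {c c' : S} (h : Eqv (notacDot c) (notacDot c')) : c = c' := by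
  by_contra hne
  exact hne ((notac_dot_inf (Ne.symm hne) h.symm).trans
    ((inf_comm _ _).trans (notac_dot_inf hne h).symm))

theorem notac_op_map {S T : Cond} (c c' : S) (l : S ⟶ T) :
    Eqv ((op (notacDot c) (notacDot c')).map l) (op (notacDot (l c)) (notacDot (l c'))) :=
  (op_map _ _ l).trans (op_congr (notac_dot_map _ l) (notac_dot_map _ l))

theorem notac_exists_X (S : Cond) (c : S) : ∃ a : El S, ∀ (T : Cond) (l : S ⟶ T) (z : El T),
    Mem z (a.map l) ↔ Dense T (fun U m =>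
      ∃ c' : U, ¬ c' ≤ m (l c) ∧ Eqv (z.map m) (op (notacDot (m (l c))) (notacDot c'))) :=
  exists_el S (fun T l z => ∃ c' : T, ¬ c' ≤ l c ∧ Eqv z (op (notacDot (l c)) (notacDot c')))
    (fun _ _ _ _ m ⟨c', h, e⟩ => ⟨m c', fun h' => h ((map_le_map m).1 h'),
      (e.map m).trans (notac_op_map _ _ m)⟩)
    (fun _ _ _ _ e ⟨c', h, e'⟩ => ⟨c', h, e.symm.trans e'⟩)
    (fun T l => ⟨ULift.{1} T, fun c' => op (notacDot (l c)) (notacDot c'.down),
      fun _ ⟨c', _, e⟩ => ⟨⟨c'⟩, e⟩⟩)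

/-- the set of the pairs `(c, c')` with `c' ≰ c` -/
noncomputable def notacX {S : Cond} (c : S) : El S := (notac_exists_X S c).choose

theorem notac_mem_X {S T : Cond} (c : S) (l : S ⟶ T) (z : El T) :
    Mem z ((notacX c).map l) ↔ Dense T (fun U m =>
      ∃ c' : U, ¬ c' ≤ m (l c) ∧ Eqv (z.map m) (op (notacDot (m (l c))) (notacDot c'))) :=
  (notac_exists_X S c).choose_spec T l z

theorem notac_X_map {S T : Cond} (c : S) (l : S ⟶ T) : Eqv ((notacX c).map l) (notacX (l c)) :=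
  Eqv.ext fun U m z => by
    rw [El.map_map, notac_mem_X, notac_mem_X]
    rfl

theorem notac_exists_F (R : Cond) : ∃ a : El R, ∀ (T : Cond) (l : R ⟶ T) (z : El T),
    Mem z (a.map l) ↔ Dense T (fun U m => ∃ c : U, Eqv (z.map m) (notacX c)) :=
  exists_el R (fun T _ z => ∃ c : T, Eqv z (notacX c))
    (fun _ _ _ _ m ⟨c, e⟩ => ⟨m c, (e.map m).trans (notac_X_map _ m)⟩)
    (fun _ _ _ _ e ⟨c, e'⟩ => ⟨c, e.symm.trans e'⟩)
    (fun T _ => ⟨ULift.{1} T, fun c => notacX c.down, fun _ ⟨c, e⟩ => ⟨⟨c⟩, e⟩⟩)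

theorem notac_X_ne {S : Cond} (c : S) :
    ∃ (T : Cond) (m : S ⟶ T) (z : El T), Mem z ((notacX c).map m) := by
  obtain ⟨T, j, hj⟩ := exists_capU S
  refine ⟨T, j, op (notacDot (j c)) (notacDot ⊤), (notac_mem_X _ _ _).2 (Dense.of_forall
    fun U m => ⟨m ⊤, fun h => T.ok.u_not hj ?_, notac_op_map _ _ m⟩)⟩
  exact ((map_le_map m).1 h).trans ((map_le_map j).2 le_top)

theorem notac_X_disj {S : Cond} {c c' : S} {z : El S} (h : Mem z (notacX c))
    (h' : Mem z (notacX c')) : c = c' := by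
  obtain ⟨T, m, d, -, h1⟩ := ((notac_mem_X c (𝟙 S) z).1 (by simpa using h)).exists
  obtain ⟨U, n, d', -, h2⟩ := ((notac_mem_X c' m _).1 (h'.map m)).exists
  have h3 := ((notac_op_map _ _ n).symm.trans (h1.map n).symm).trans h2
  exact (map_inj m).1 ((map_inj n).1 (notac_dot_inj (op_inj_left h3)))

theorem notac_not_forces (R : Cond) :
    ¬ Forces (acAx : setL.BoundedFormula Empty 0) R Fin.elim0 := by
  intro h
  obtain ⟨F, hF⟩ := notac_exists_F R
  obtain ⟨S, l, C₀, hC⟩ := notac_elim h F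
    (fun S l y hy => Dense.join (((hF S l y).1 hy).mono fun T m ⟨c, e⟩ U n => by
      obtain ⟨V, p, z, hz⟩ := notac_X_ne (n c)
      refine ⟨V, p, z, hz.congr_right ?_⟩
      simpa using (((e.map n).trans (notac_X_map c n)).map p).symm))
    (fun S l y y' z hy hy' hz hz' => Eqv.of_dense fun T m => by
      obtain ⟨U, n, c, e⟩ := (hF S l y).1 hy T m
      obtain ⟨V, p, c', e'⟩ := (hF S l y').1 hy' U (m ≫ n)
      have e1 : Eqv (y.map ((m ≫ n) ≫ p)) (notacX (p c)) := by
        simpa using (e.map p).trans (notac_X_map c p)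
      have e2 := notac_X_disj ((hz.map _).congr_right e1) ((hz'.map _).congr_right e')
      refine ⟨V, n ≫ p, ?_⟩
      rw [← Category.assoc]
      exact e1.trans (e2 ▸ e'.symm))
  obtain ⟨U, n, z, h1, h2, h3⟩ := hC (notacX ⊤)
    ((hF S l _).2 (Dense.of_forall fun T m => ⟨m ⊤, notac_X_map _ m⟩))
  obtain ⟨T, m, c', hc', e⟩ := ((notac_mem_X _ _ _).1 h1).exists
  obtain ⟨M, i₁, i₂, hi, hi'⟩ := exists_amalg T (m (n ⊤)) T (incl T _)
  have hk : n ≫ m ≫ i₁ = n ≫ m ≫ i₂ := hom_ext fun y =>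
    incl_comp_eq_iff.1 hi (m (n y)) ((map_le_map m).2 ((map_le_map n).2 le_top))
  have h4 := h3 M (m ≫ i₁) (z.map (m ≫ i₂)) (by simpa [hk] using h1.map (m ≫ i₂))
    (by simpa [hk] using h2.map (m ≫ i₂))
  have e1 : Eqv (z.map (m ≫ i₁)) (op (notacDot (i₁ (m (n ⊤)))) (notacDot (i₁ c'))) := by
    simpa using (e.map i₁).trans (notac_op_map _ _ i₁)
  have e2 : Eqv (z.map (m ≫ i₂)) (op (notacDot (i₂ (m (n ⊤)))) (notacDot (i₂ c'))) := by
    simpa using (e.map i₂).trans (notac_op_map _ _ i₂)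
  exact hc' (hi' c' c' (notac_dot_inj (op_inj_right ((e1.symm.trans h4.symm).trans e2))))

theorem forces_not_acAx (R : Cond) :
    Forces (∼acAx : setL.BoundedFormula Empty 0) R Fin.elim0 := by
  intro S l h
  rw [mapv_elim0] at h
  exact notac_not_forces S h

end Crest.Agent.R296
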