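import Crest.Agent.R296.Pair

/-!
# R296 (S0448): the canonical names of ordinals; forced ordinals are canonical
-/

set_option autoImplicit false

open CategoryTheory FirstOrder FirstOrder.Language Crest.LogicCS.SetTheory

universe u

namespace Crest.Agent.R296

variable {C : Type u} [SmallCategory C]

/-- The canonical element for an ordinal. -/
noncomputable def ordEl (o : Ordinal.{u}) (R : C) : El R :=
  mkEl o.ToType (fun _ => R) (fun _ => 𝟙 R)
    (fun i => ordEl (Ordinal.typein (α := o.ToType) (· < ·) i) R)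
termination_by o
decreasing_by exact Ordinal.typein_lt_self i

theorem isDir_ordEl (o : Ordinal.{u}) {R S : C} (l : R ⟶ S) (z : El S) :
    IsDir ((ordEl o R).map l) z ↔ ∃ o' < o, z = (ordEl o' R).map l := by
  rw [ordEl, isDir_mkEl]
  constructor
  · rintro ⟨i, m, hm, rfl⟩
    rw [Category.id_comp] at hm
    subst hm
    exact ⟨_, Ordinal.typein_lt_self i, rfl⟩
  · rintro ⟨o', ho', rfl⟩
    obtain ⟨i, hi⟩ := Ordinal.typein_surj (α := o.ToType) (· < ·) (o := o') (by simpa using ho')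
    exact ⟨i, l, Category.id_comp _, by rw [hi]⟩

theorem ordEl_map_map (o : Ordinal.{u}) : ∀ {R R' S : C} (l : R ⟶ S) (l' : R' ⟶ S),
    Eqv ((ordEl o R).map l) ((ordEl o R').map l') := by
  induction o using Ordinal.induction with
  | h o ih =>
    intro R R' S l l'
    apply Eqv.of_dir
    · intro T m z hz
      rw [El.map_map, isDir_ordEl] at hz
      obtain ⟨o', ho', rfl⟩ := hz
      rw [El.map_map]
      exact ((isDir_ordEl o _ _).2 ⟨o', ho', rfl⟩).mem.congr_left (ih o' ho' _ _)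
    · intro T m z hz
      rw [El.map_map, isDir_ordEl] at hz
      obtain ⟨o', ho', rfl⟩ := hz
      rw [El.map_map]
      exact ((isDir_ordEl o _ _).2 ⟨o', ho', rfl⟩).mem.congr_left (ih o' ho' _ _)

theorem ordEl_map (o : Ordinal.{u}) {R S : C} (l : R ⟶ S) : Eqv ((ordEl o R).map l) (ordEl o S) := by
  simpa using ordEl_map_map o l (𝟙 S)

theorem mem_ordEl (o : Ordinal.{u}) {R : C} (z : El R) :
    Mem z (ordEl o R) ↔ Dense R (fun S l => ∃ o' < o, Eqv (z.map l) (ordEl o' S)) := by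
  constructor
  · intro h
    refine Dense.mono h ?_
    rintro S l ⟨w, h1, h2⟩
    obtain ⟨o', ho', rfl⟩ := (isDir_ordEl _ _ _).1 h1
    exact ⟨o', ho', h2.trans (ordEl_map _ _)⟩
  · intro h
    refine Dense.mono h ?_
    rintro S l ⟨o', ho', h2⟩
    exact ⟨_, (isDir_ordEl _ _ _).2 ⟨o', ho', rfl⟩, h2.trans (ordEl_map _ _).symm⟩

theorem ordEl_mem_ordEl {o o' : Ordinal.{u}} (h : o' < o) (R : C) : Mem (ordEl o' R) (ordEl o R) :=
  (mem_ordEl _ _).2 (Dense.of_forall fun _ l => ⟨o', h, ordEl_map _ l⟩)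

theorem ordEl_inj {o : Ordinal.{u}} : ∀ {o' : Ordinal.{u}} {R : C},
    Eqv (ordEl o R) (ordEl o' R) → o = o' := by
  induction o using Ordinal.induction with
  | h o ih =>
    intro o' R h
    have key : ∀ p < o, p < o' := by
      intro p hp
      obtain ⟨S, l, p', hp', h1⟩ :=
        ((mem_ordEl _ _).1 ((ordEl_mem_ordEl hp R).congr_right h)).exists
      rwa [ih p hp ((ordEl_map p l).symm.trans h1)]
    rcases lt_trichotomy o o' with h1 | h1 | h1
    · obtain ⟨S, l, p', hp', h2⟩ :=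
        ((mem_ordEl _ _).1 ((ordEl_mem_ordEl h1 R).congr_right h.symm)).exists
      have := ih p' hp' ((ordEl_map o l).symm.trans h2).symm
      exact absurd hp' (by rw [this]; exact lt_irrefl _)
    · exact h1
    · exact absurd (key _ h1) (lt_irrefl _)

theorem lt_of_ordEl_mem {o o' : Ordinal.{u}} {R : C} (h : Mem (ordEl o' R) (ordEl o R)) :
    o' < o := by
  obtain ⟨S, l, p, hp, h1⟩ := ((mem_ordEl _ _).1 h).exists
  rwa [ordEl_inj ((ordEl_map o' l).symm.trans h1)]

/-- Forced transitivity. -/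
def IsTrans {R : C} (a : El R) : Prop :=
  ∀ (S : C) (l : R ⟶ S) (y z : El S), Mem z y → Mem y (a.map l) → Mem z (a.map l)

/-- Forced ordinals. -/
def IsOrd {R : C} (a : El R) : Prop :=
  IsTrans a ∧ ∀ (S : C) (l : R ⟶ S) (y : El S), Mem y (a.map l) → IsTrans y

theorem forces_isTrans {n : ℕ} {R : C} (a : Fin n) (xs : Fin n → El R) :
    Forces (isTrans a) R xs ↔ IsTrans (xs a) := by
  simp only [isTrans, forces_all, forces_imp, forces_inf, forces_vmem, mapv_snoc, mapv_mapv,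
    Fin.snoc_last, Fin.snoc_castSucc, mapv_apply, El.map_map]
  constructor
  · intro h S l y z h1 h2
    simpa using h S l y S (𝟙 S) z S (𝟙 S) (by simpa using ⟨h1, h2⟩)
  · intro h S l y T m z T' m' h1
    exact h _ _ _ _ h1.1 h1.2

theorem forces_isOrd {n : ℕ} {R : C} (a : Fin n) (xs : Fin n → El R) :
    Forces (isOrd a) R xs ↔ IsOrd (xs a) := by
  simp only [isOrd, forces_all, forces_imp, forces_inf, forces_vmem, forces_isTrans, mapv_snoc,
    mapv_mapv, Fin.snoc_last, Fin.snoc_castSucc, mapv_apply]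
  constructor
  · rintro ⟨h1, h⟩
    refine ⟨h1, fun S l y hy => ?_⟩
    simpa using h S l y S (𝟙 S) (by simpa using hy)
  · rintro ⟨h1, h⟩
    exact ⟨h1, fun S l y T m hy => h _ _ _ hy⟩

theorem IsOrd.of_mem {R S : C} {a : El R} (h : IsOrd a) {l : R ⟶ S} {y : El S}
    (hy : Mem y (a.map l)) : IsOrd y :=
  ⟨h.2 S l y hy, fun T m z hz =>
    h.2 T (l ≫ m) z (h.1 T (l ≫ m) (y.map m) z hz (by simpa using hy.map m))⟩

/-- Some ordinal is never a member of `a`. -/
theorem exists_ordEl_not_mem {R : C} (a : El R) :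
    ∃ o : Ordinal.{u}, ∀ (S : C) (l : R ⟶ S), ¬ Mem (ordEl o S) (a.map l) := by
  classical
  let F : (Σ (S : C) (l : R ⟶ S), DirAt (a.map l)) → Ordinal.{u} := fun p =>
    if h : ∃ o : Ordinal.{u}, Eqv (ordEl o p.1) p.2.2.el then h.choose else 0
  obtain ⟨o, ho⟩ : ∃ o : Ordinal.{u}, o ∉ Set.range F := by
    by_contra hcon
    push Not at hcon
    exact not_small_ordinal.{u, u} (small_of_surjective (f := F) hcon)
  refine ⟨o, fun S l h => ho ?_⟩
  obtain ⟨T, m, z, h1, h2⟩ := h.exists_dir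
  rw [El.map_map] at h1
  obtain ⟨δ, rfl⟩ := h1
  have h3 : Eqv (ordEl o T) δ.el := (ordEl_map o m).symm.trans h2
  have h4 : ∃ o : Ordinal.{u}, Eqv (ordEl o T) δ.el := ⟨o, h3⟩
  refine ⟨⟨T, l ≫ m, δ⟩, ?_⟩
  simp only [F, dif_pos h4]
  exact ordEl_inj (h4.choose_spec.trans h3.symm)

/-- A forced ordinal is densely a canonical ordinal. -/
theorem IsOrd.dense_ordEl {R : C} {a : El R} (h : IsOrd a) :
    Dense R (fun S l => ∃ o : Ordinal.{u}, Eqv (a.map l) (ordEl o S)) := by
  revert R a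
  apply El.ind
  intro R a ih h S l
  let A : Set Ordinal.{u} := {o | ∃ (T : C) (m : S ⟶ T), ∀ (T' : C) (m' : T ⟶ T'),
    ¬ Mem (ordEl o T') (a.map (l ≫ m ≫ m'))}
  have hA : A.Nonempty := by
    obtain ⟨o, ho⟩ := exists_ordEl_not_mem a
    exact ⟨o, S, 𝟙 S, fun T' m' => ho _ _⟩
  obtain ⟨o, ⟨T, m, ho⟩, hmin⟩ := wellFounded_lt.has_min A hA
  refine ⟨T, m, o, Eqv.of_dir ?_ ?_⟩
  · intro T' m' z hz
    rw [El.map_map] at hz
    refine Mem.congr_right ((mem_ordEl o z).2 ?_) (ordEl_map o m').symm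
    refine (ih _ _ z hz (h.of_mem hz.mem)).mono ?_
    rintro T'' m'' ⟨o', h1⟩
    refine ⟨o', ?_, h1⟩
    have h2 : Mem (ordEl o' T'') (a.map (l ≫ m ≫ m' ≫ m'')) := by
      simpa using (hz.mem.map m'').congr_left h1
    rcases lt_trichotomy o' o with h3 | h3 | h3
    · exact h3
    · exact absurd (h3 ▸ h2) (ho _ _)
    · exact absurd (h.1 _ _ _ _ (ordEl_mem_ordEl h3 _) h2) (ho _ _)
  · intro T' m' z hz
    obtain ⟨o', ho', rfl⟩ := (isDir_ordEl _ _ _).1 hz
    apply Mem.of_dense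
    intro T'' m''
    have h1 : o' ∉ A := fun h1 => hmin o' h1 ho'
    simp only [A, Set.mem_setOf_eq, not_exists, not_forall, not_not] at h1
    obtain ⟨T₃, m₃, h2⟩ := h1 T'' (m ≫ m' ≫ m'')
    refine ⟨T₃, m₃, ?_⟩
    simp only [El.map_map, Category.assoc] at h2 ⊢
    exact h2.congr_left (ordEl_map _ _).symm

end Crest.Agent.R296
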