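import Crest.Agent.R296.Canon
import Crest.Agent.R296.Ord

/-!
# R296 (S0448): the partition principle and choice for ordinal-indexed families are forced
-/

set_option autoImplicit false

open CategoryTheory FirstOrder FirstOrder.Language Crest.LogicCS.SetTheory

universe u

namespace Crest.Agent.R296

open Cond

section general

variable {C : Type u} [SmallCategory C] {R : C} {n : ℕ}

theorem of_forces_surjGraph {f X Y : Fin n} {xs : Fin n → El R}
    (h : Forces (surjGraph f X Y) R xs) :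
    (∀ (S : C) (l : R ⟶ S) (a b b' : El S), Mem a ((xs X).map l) → PMem ((xs f).map l) a b →
      PMem ((xs f).map l) a b' → Eqv b b') ∧
    (∀ (S : C) (l : R ⟶ S) (b : El S), Mem b ((xs Y).map l) →
      Dense S (fun T m => ∃ a : El T, Mem a ((xs X).map (l ≫ m)) ∧
        PMem ((xs f).map (l ≫ m)) a (b.map m))) := by
  simp only [surjGraph, forces_inf, forces_all, forces_imp, forces_ex, forces_vmem, forces_veq,
    forces_pairMem, mapv_snoc, mapv_mapv, Fin.snoc_last, Fin.snoc_castSucc, mapv_apply,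
    El.map_map] at h
  obtain ⟨⟨-, h2⟩, h3⟩ := h
  refine ⟨fun S l a b b' h4 h5 h6 => ?_, fun S l b hb => ?_⟩
  · simpa using h2 S l a S (𝟙 S) b S (𝟙 S) b' S (𝟙 S) (by simpa using ⟨⟨h4, h5⟩, h6⟩)
  · simpa using h3 S l b S (𝟙 S) (by simpa using hb)

theorem forces_injGraph {g X Y : Fin n} {xs : Fin n → El R}
    (h1 : ∀ (S : C) (l : R ⟶ S) (b : El S), Mem b ((xs Y).map l) →
      Dense S (fun T m => ∃ a : El T, Mem a ((xs X).map (l ≫ m)) ∧
        PMem ((xs g).map (l ≫ m)) (b.map m) a))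
    (h2 : ∀ (S : C) (l : R ⟶ S) (b a a' : El S), PMem ((xs g).map l) b a →
      PMem ((xs g).map l) b a' → Eqv a a')
    (h3 : ∀ (S : C) (l : R ⟶ S) (b b' a : El S), PMem ((xs g).map l) b a →
      PMem ((xs g).map l) b' a → Eqv b b') :
    Forces (injGraph g Y X) R xs := by
  simp only [injGraph, forces_inf, forces_all, forces_imp, forces_ex, forces_vmem, forces_veq,
    forces_pairMem, mapv_snoc, mapv_mapv, Fin.snoc_last, Fin.snoc_castSucc, mapv_apply,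
    El.map_map]
  refine ⟨⟨fun S l b T m hb => ?_, ?_⟩, ?_⟩
  · simpa using h1 T (l ≫ m) (b.map m) hb
  · intro S l b S' l' a S'' l'' a' T m h
    exact h2 _ _ _ _ _ h.1.2 h.2
  · intro S l b S' l' b' S'' l'' a T m h
    exact h3 _ _ _ _ _ h.1.2 h.2

end general

theorem exists_inj_of_surj {Q₀ : Cond} (X Y f : El Q₀)
    (h2 : ∀ (S : Cond) (l : Q₀ ⟶ S) (a b b' : El S), Mem a (X.map l) → PMem (f.map l) a b →
      PMem (f.map l) a b' → Eqv b b')
    (h3 : ∀ (S : Cond) (l : Q₀ ⟶ S) (b : El S), Mem b (Y.map l) →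
      Dense S (fun T m => ∃ a : El T, Mem a (X.map (l ≫ m)) ∧ PMem (f.map (l ≫ m)) a (b.map m))) :
    ∃ (Q₁ : Cond) (j : Q₀ ⟶ Q₁) (g : El Q₁),
      (∀ (S : Cond) (l : Q₁ ⟶ S) (b : El S), Mem b (Y.map (j ≫ l)) →
        Dense S (fun T m => ∃ a : El T, Mem a (X.map (j ≫ l ≫ m)) ∧
          PMem (g.map (l ≫ m)) (b.map m) a)) ∧
      (∀ (S : Cond) (l : Q₁ ⟶ S) (b a a' : El S), PMem (g.map l) b a →
        PMem (g.map l) b a' → Eqv a a') ∧
      (∀ (S : Cond) (l : Q₁ ⟶ S) (b b' a : El S), PMem (g.map l) b a →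
        PMem (g.map l) b' a → Eqv b b') := by
  obtain ⟨Q₁, j, hU⟩ := exists_capU Q₀
  let Rel : ∀ S : Cond, (Q₀ ⟶ S) → El S → El S → Prop := fun S l B B' =>
    Mem B' (X.map l) ∧ PMem (f.map l) B' B
  have hmap : ∀ (S : Cond) (l : Q₀ ⟶ S) (B B' : El S) (T : Cond) (m : S ⟶ T),
      Rel S l B B' → Rel T (l ≫ m) (B.map m) (B'.map m) := fun S l B B' T m h =>
    ⟨by simpa using h.1.map m, by simpa using h.2.map m⟩
  have hfun : ∀ (S : Cond) (l : Q₀ ⟶ S) (B₁ B₂ B₁' B₂' : El S),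
      Rel S l B₁ B₁' → Rel S l B₂ B₂' → Eqv B₁' B₂' → Eqv B₁ B₂ :=
    fun S l B₁ B₂ B₁' B₂' h h' e =>
      h2 S l B₁' B₁ B₂ h.1 h.2 (h'.2.congr (Eqv.refl _) e.symm (Eqv.refl _))
  obtain ⟨g, hg1, hg2⟩ := exists_graph (Rel := Rel) (j := j) Y
  have both : ∀ {S : Cond} {l : Q₁ ⟶ S} {b a b' a' : El S}, PMem (g.map l) b a →
      PMem (g.map l) b' a' → Dense S (fun T m => Canon Rel j T (l ≫ m) (b.map m) (a.map m) ∧
        Canon Rel j T (l ≫ m) (b'.map m) (a'.map m)) := by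
    intro S l b a b' a' h h' T m
    obtain ⟨T₁, m₁, h4⟩ := hg1 S l b a h T m
    obtain ⟨T₂, m₂, h5⟩ := hg1 S l b' a' h' T₁ (m ≫ m₁)
    exact ⟨T₂, m₁ ≫ m₂, by simpa using h4.map m₂, by simpa using h5⟩
  refine ⟨Q₁, j, g, fun S l b hb T m => ?_, fun S l b a a' h h' => ?_, fun S l b b' a h h' => ?_⟩
  · obtain ⟨T', m', a, h4⟩ := exists_canon_of_dense hU hmap (l ≫ m) (b.map m)
      (by simpa [Rel] using h3 T (j ≫ l ≫ m) (b.map m) (by simpa using hb.map m))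
    obtain ⟨B, B', h5, h6, -⟩ := h4.rel hmap
    refine ⟨T', m', a, by simpa using h5.1.congr_left h6.symm, ?_⟩
    simpa using hg2 _ _ _ _ (by simpa using hb.map (m ≫ m')) h4
  · exact Eqv.of_dense ((both h h').mono fun _ _ h => h.1.func h.2)
  · exact Eqv.of_dense ((both h h').mono fun _ _ h => h.1.inj hmap hfun h.2)

theorem forces_ppAx (R : Cond) : Forces (ppAx : setL.BoundedFormula Empty 0) R Fin.elim0 := by
  intro S₁ l₁ X S₂ l₂ Y S₃ l₃ h
  rw [forces_ex] at h ⊢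
  intro S₄ l₄
  obtain ⟨Q₀, l₅, f, h⟩ := h S₄ l₄
  obtain ⟨h2, h3⟩ := of_forces_surjGraph h
  obtain ⟨Q₁, j, g, h4, h5, h6⟩ := exists_inj_of_surj _ _ _ h2 h3
  refine ⟨Q₁, l₅ ≫ j, g, forces_injGraph (fun S l b hb => ?_) h5 h6⟩
  exact h4 S l b hb

theorem exists_choice_of_ord {Q₀ : Cond} (α f : El Q₀) (hα : IsOrd α)
    (h : ∀ (S : Cond) (l : Q₀ ⟶ S) (x : El S), Mem x (α.map l) →
      Dense S (fun T m => ∃ y : El T, PMem (f.map (l ≫ m)) (x.map m) y)) :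
    ∃ (Q₁ : Cond) (j : Q₀ ⟶ Q₁) (g : El Q₁),
      (∀ (S : Cond) (l : Q₁ ⟶ S) (x : El S), Mem x (α.map (j ≫ l)) →
        Dense S (fun T m => ∃ y : El T, PMem (g.map (l ≫ m)) (x.map m) y ∧
          PMem (f.map (j ≫ l ≫ m)) (x.map m) y)) ∧
      (∀ (S : Cond) (l : Q₁ ⟶ S) (x y y' : El S), PMem (g.map l) x y →
        PMem (g.map l) x y' → Eqv y y') := by
  obtain ⟨Q₁, j, hU⟩ := exists_capU Q₀
  let Rel : ∀ S : Cond, (Q₀ ⟶ S) → El S → El S → Prop := fun S l B B' => PMem (f.map l) B B'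
  have hmap : ∀ (S : Cond) (l : Q₀ ⟶ S) (B B' : El S) (T : Cond) (m : S ⟶ T),
      Rel S l B B' → Rel T (l ≫ m) (B.map m) (B'.map m) := fun S l B B' T m h => by
    simpa using PMem.map h m
  obtain ⟨g, hg1, hg2⟩ := exists_graph (Rel := Rel) (j := j) α
  refine ⟨Q₁, j, g, fun S l x hx T m => ?_, fun S l x y y' h h' => ?_⟩
  · obtain ⟨T₁, m₁, o, ho⟩ := (hα.of_mem hx).dense_ordEl T m
    obtain ⟨T', m', y, h4⟩ := exists_canon_of_dense hU hmap (l ≫ m ≫ m₁) (x.map (m ≫ m₁))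
      (by
        have h3 := h T₁ (j ≫ l ≫ m ≫ m₁) (x.map (m ≫ m₁)) (by simpa using hx.map (m ≫ m₁))
        simpa [Rel] using h3)
    obtain ⟨B, B', h5, h6, h7⟩ := h4.rel hmap
    have h8 : Eqv ((x.map (m ≫ m₁)).map m') B :=
      h7 ⟨ordEl o _, (ordEl_map o _).trans ((ho.map m').trans (ordEl_map o m')).symm⟩
    refine ⟨T', m₁ ≫ m', y, ?_, ?_⟩
    · simpa using hg2 _ _ _ _ (by simpa using hx.map (m ≫ m₁ ≫ m')) h4
    · simpa using PMem.congr h5 (Eqv.refl _) h8.symm h6.symm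
  · apply Eqv.of_dense
    intro T m
    obtain ⟨T₁, m₁, h4⟩ := hg1 S l x y h T m
    obtain ⟨T₂, m₂, h5⟩ := hg1 S l x y' h' T₁ (m ≫ m₁)
    refine ⟨T₂, m₁ ≫ m₂, ?_⟩
    simpa using Canon.func (by simpa using h4.map m₂) (by simpa using h5)

theorem forces_acwoAx (R : Cond) : Forces (acwoAx : setL.BoundedFormula Empty 0) R Fin.elim0 := by
  intro S₁ l₁ α S₂ l₂ f S₃ l₃ h
  rw [forces_inf, forces_isOrd] at h
  rw [forces_ex]
  intro Q₀ l₄
  obtain ⟨Q₁, j, g, h4, h5⟩ := exists_choice_of_ord (α.map (l₂ ≫ l₃ ≫ l₄)) (f.map (l₃ ≫ l₄))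
    (by
      have h1 : IsOrd ((α.map l₂).map l₃) := h.1
      refine ⟨fun S l => ?_, fun S l => ?_⟩
      · simpa using h1.1 S (l₄ ≫ l)
      · simpa using h1.2 S (l₄ ≫ l))
    (by
      intro S l x hx
      have h2 := h.2 S (l₄ ≫ l) x S (𝟙 S)
      rw [forces_vmem, forces_ex] at h2
      refine Dense.mono (h2 ?_) ?_
      · change Mem (x.map (𝟙 S)) ((((α.map l₂).map l₃).map (l₄ ≫ l)).map (𝟙 S))
        simpa using hx
      · rintro T m ⟨y, hy⟩
        rw [forces_pairMem] at hy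
        change PMem ((((f.map l₃).map (l₄ ≫ l)).map (𝟙 S)).map m) ((x.map (𝟙 S)).map m) y at hy
        exact ⟨y, by simpa using hy⟩)
  refine ⟨Q₁, j, g, ?_⟩
  intro S l x T m hx
  rw [forces_vmem] at hx
  change Mem (x.map m) (((((α.map l₂).map l₃).map (l₄ ≫ j)).map l).map m) at hx
  rw [forces_ex]
  refine Dense.mono (h4 T (l ≫ m) (x.map m) (by simpa using hx)) ?_
  rintro T' m' ⟨y, h6, h7⟩
  refine ⟨y, ?_⟩
  rw [forces_inf, forces_inf, forces_pairMem, forces_pairMem]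
  refine ⟨⟨?_, ?_⟩, ?_⟩
  · change PMem (((g.map l).map m).map m') ((x.map m).map m') y
    simpa using h6
  · change PMem (((((f.map l₃).map (l₄ ≫ j)).map l).map m).map m') ((x.map m).map m') y
    simpa using h7
  · intro T₂ m₂ y' T₃ m₃ h8
    rw [forces_pairMem] at h8
    rw [forces_veq]
    change PMem (((((g.map l).map m).map m').map m₂).map m₃) ((((x.map m).map m').map m₂).map m₃)
      (y'.map m₃) at h8
    change Eqv (y'.map m₃) ((y.map m₂).map m₃)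
    refine h5 T₃ (l ≫ m ≫ m' ≫ m₂ ≫ m₃) (x.map (m ≫ m' ≫ m₂ ≫ m₃)) _ _ (by simpa using h8) ?_
    simpa using h6.map (m₂ ≫ m₃)

end Crest.Agent.R296
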