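import Crest.Agent.R296.Force

/-!
# R296 (S0448): unordered and ordered pairs of elements
-/

set_option autoImplicit false

open CategoryTheory FirstOrder FirstOrder.Language Crest.LogicCS.SetTheory

universe u

namespace Crest.Agent.R296

variable {C : Type u} [SmallCategory C] {R : C}

/-- The unordered pair. -/
def upair (a b : El R) : El R :=
  mkEl (ULift.{u} Bool) (fun _ => R) (fun _ => 𝟙 R) (fun i => cond i.down a b)

theorem mem_upair_map (a b : El R) {S : C} (l : R ⟶ S) (z : El S) :
    Mem z ((upair a b).map l) ↔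
      Dense S (fun _ m => Eqv (z.map m) (a.map (l ≫ m)) ∨ Eqv (z.map m) (b.map (l ≫ m))) := by
  rw [upair, mem_mkEl]
  constructor
  · intro h
    refine h.mono ?_
    rintro T n ⟨⟨_ | _⟩, m, hm, h⟩
    · rw [Category.id_comp] at hm; subst hm; exact Or.inr h
    · rw [Category.id_comp] at hm; subst hm; exact Or.inl h
  · intro h
    refine h.mono ?_
    rintro T n (h | h)
    · exact ⟨⟨true⟩, l ≫ n, Category.id_comp _, h⟩
    · exact ⟨⟨false⟩, l ≫ n, Category.id_comp _, h⟩

theorem mem_upair (a b z : El R) :
    Mem z (upair a b) ↔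
      Dense R (fun _ m => Eqv (z.map m) (a.map m) ∨ Eqv (z.map m) (b.map m)) := by
  simpa using mem_upair_map a b (𝟙 R) z

theorem upair_map (a b : El R) {S : C} (l : R ⟶ S) :
    Eqv ((upair a b).map l) (upair (a.map l) (b.map l)) := by
  apply Eqv.ext
  intro T m z
  rw [El.map_map, mem_upair_map, mem_upair_map]
  simp

theorem upair_congr {a a' b b' : El R} (h : Eqv a a') (h' : Eqv b b') :
    Eqv (upair a b) (upair a' b') := by
  apply Eqv.ext
  intro T m z
  rw [mem_upair_map, mem_upair_map]
  constructor
  · exact fun H => H.mono fun _ n H => H.imp (fun H => H.trans (h.map _)) fun H => H.trans (h'.map _)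
  · exact fun H => H.mono fun _ n H =>
      H.imp (fun H => H.trans (h.symm.map _)) fun H => H.trans (h'.symm.map _)

theorem left_mem_upair (a b : El R) : Mem a (upair a b) :=
  (mem_upair _ _ _).2 (Dense.of_forall fun _ _ => Or.inl (Eqv.refl _))

theorem right_mem_upair (a b : El R) : Mem b (upair a b) :=
  (mem_upair _ _ _).2 (Dense.of_forall fun _ _ => Or.inr (Eqv.refl _))

theorem mem_upair_self {a z : El R} : Mem z (upair a a) ↔ Eqv z a := by
  rw [mem_upair]
  simp only [or_self]
  exact ⟨Eqv.of_dense, fun h => Dense.of_forall fun _ l => h.map l⟩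

/-- The ordered pair. -/
def op (a b : El R) : El R := upair (upair a a) (upair a b)

theorem op_map (a b : El R) {S : C} (l : R ⟶ S) : Eqv ((op a b).map l) (op (a.map l) (b.map l)) :=
  (upair_map _ _ l).trans (upair_congr (upair_map _ _ l) (upair_map _ _ l))

theorem op_congr {a a' b b' : El R} (h : Eqv a a') (h' : Eqv b b') : Eqv (op a b) (op a' b') :=
  upair_congr (upair_congr h h) (upair_congr h h')

theorem upair_inj_right {a b b' : El R} (h : Eqv (upair a b) (upair a b')) : Eqv b b' := by
  apply Eqv.of_dense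
  intro S l
  obtain ⟨T, m, h1 | h1⟩ := (mem_upair _ _ _).1 ((right_mem_upair a b).congr_right h) S l
  · obtain ⟨T', m', h2 | h2⟩ :=
      (mem_upair _ _ _).1 ((right_mem_upair a b').congr_right h.symm) T (l ≫ m)
    · refine ⟨T', m ≫ m', Eqv.trans ?_ (by simpa using h2.symm)⟩
      simpa using h1.map m'
    · exact ⟨T', m ≫ m', by simpa using h2.symm⟩
  · exact ⟨T, m, h1⟩

theorem op_inj_left {a a' b b' : El R} (h : Eqv (op a b) (op a' b')) : Eqv a a' := by
  apply Eqv.of_dense
  have h1 := (mem_upair _ _ _).1 ((left_mem_upair (upair a a) (upair a b)).congr_right h)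
  refine h1.mono ?_
  rintro S l (h2 | h2)
  · have h3 := ((upair_map _ _ l).symm.trans h2).trans (upair_map _ _ l)
    exact mem_upair_self.1 ((left_mem_upair _ _).congr_right h3)
  · have h3 := ((upair_map _ _ l).symm.trans h2).trans (upair_map _ _ l)
    exact (mem_upair_self.1 ((left_mem_upair _ _).congr_right h3.symm)).symm

theorem op_inj_right {a a' b b' : El R} (h : Eqv (op a b) (op a' b')) : Eqv b b' := by
  have h1 := op_inj_left h
  have h2 : Eqv (op a b) (op a b') := h.trans (op_congr h1.symm (Eqv.refl _))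
  exact upair_inj_right (upair_inj_right h2)

/-- The ordered pair of `a` and `b` is a member of `f`. -/
def PMem (f a b : El R) : Prop := Mem (op a b) f

theorem PMem.map {f a b : El R} (h : PMem f a b) {S : C} (l : R ⟶ S) :
    PMem (f.map l) (a.map l) (b.map l) := (Mem.map h l).congr_left (op_map a b l)

theorem PMem.congr {f f' a a' b b' : El R} (h : PMem f a b) (ef : Eqv f f') (ea : Eqv a a')
    (eb : Eqv b b') : PMem f' a' b' := Mem.congr h (op_congr ea eb) ef

theorem PMem.of_dense {f a b : El R}
    (h : Dense R (fun _ l => PMem (f.map l) (a.map l) (b.map l))) : PMem f a b :=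
  Mem.of_dense (h.mono fun _ l h => Mem.congr_left h (op_map a b l).symm)

variable {n : ℕ}

theorem forces_isUPair (w a b : Fin n) (xs : Fin n → El R) :
    Forces (isUPair w a b) R xs ↔ Eqv (xs w) (upair (xs a) (xs b)) := by
  simp only [isUPair, forces_all, forces_iff, forces_sup, forces_vmem, forces_veq, mapv_snoc,
    mapv_mapv, Fin.snoc_last, Fin.snoc_castSucc, mapv_apply, El.map_map]
  constructor
  · intro h
    apply Eqv.ext
    intro S l z
    rw [mem_upair_map]
    simpa using h S l z S (𝟙 S)
  · intro h S l z T m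
    rw [mem_congr (Eqv.refl _) (h.map (l ≫ m)), mem_upair_map]
    simp

theorem forces_isSing (w a : Fin n) (xs : Fin n → El R) :
    Forces (isSing w a) R xs ↔ Eqv (xs w) (upair (xs a) (xs a)) := by
  simp only [isSing, forces_all, forces_iff, forces_vmem, forces_veq, mapv_snoc,
    mapv_mapv, Fin.snoc_last, Fin.snoc_castSucc, mapv_apply]
  constructor
  · intro h
    apply Eqv.ext
    intro S l z
    rw [mem_congr (Eqv.refl _) (upair_map _ _ l), mem_upair_self]
    simpa using h S l z S (𝟙 S)
  · intro h S l z T m
    rw [mem_congr (Eqv.refl _) ((h.map (l ≫ m)).trans (upair_map _ _ _)), mem_upair_self]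

theorem forces_isOPair (p a b : Fin n) (xs : Fin n → El R) :
    Forces (isOPair p a b) R xs ↔ Eqv (xs p) (op (xs a) (xs b)) := by
  simp only [isOPair, forces_all, forces_iff, forces_sup, forces_vmem, forces_isSing,
    forces_isUPair, mapv_snoc, mapv_mapv, Fin.snoc_last, Fin.snoc_castSucc, mapv_apply, El.map_map]
  have key : ∀ (S : C) (l : R ⟶ S) (z : El S), Mem z ((op (xs a) (xs b)).map l) ↔
      Dense S (fun _ m => Eqv (z.map m) (upair ((xs a).map (l ≫ m)) ((xs a).map (l ≫ m))) ∨
        Eqv (z.map m) (upair ((xs a).map (l ≫ m)) ((xs b).map (l ≫ m)))) := by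
    intro S l z
    rw [op, mem_upair_map]
    constructor
    · exact fun H => H.mono fun _ n H =>
        H.imp (fun H => H.trans (upair_map _ _ _)) fun H => H.trans (upair_map _ _ _)
    · exact fun H => H.mono fun _ n H =>
        H.imp (fun H => H.trans (upair_map _ _ _).symm) fun H => H.trans (upair_map _ _ _).symm
  constructor
  · intro h
    apply Eqv.ext
    intro S l z
    rw [key]
    simpa using h S l z S (𝟙 S)
  · intro h S l z T m
    rw [mem_congr (Eqv.refl _) (h.map (l ≫ m)), key]
    simp

theorem forces_pairMem (f a b : Fin n) (xs : Fin n → El R) :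
    Forces (pairMem f a b) R xs ↔ PMem (xs f) (xs a) (xs b) := by
  simp only [pairMem, forces_ex, forces_inf, forces_vmem, forces_isOPair, Fin.snoc_last,
    Fin.snoc_castSucc, mapv_apply]
  constructor
  · intro h
    apply PMem.of_dense
    refine h.mono ?_
    rintro S l ⟨z, h1, h2⟩
    exact h1.congr_left h2
  · intro h
    exact Dense.of_forall fun S l => ⟨_, h.map l, Eqv.refl _⟩

end Crest.Agent.R296
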