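import Crest.Agent.R296.Name
import Crest.Agent.R296.Amalg

/-!
# R296 (S0448): supports
-/

set_option autoImplicit false

open CategoryTheory

namespace Crest.Agent.R296

open Cond

/-- `A` comes from the principal ideal of `c`. -/
def Supp (R : Cond) (c : R) (A : El R) : Prop :=
  ∃ σ : El (res R c), Eqv (σ.map (incl R c)) A

variable {R : Cond}

theorem Supp.congr {c : R} {A A' : El R} (h : Supp R c A) (e : Eqv A A') : Supp R c A' := by
  obtain ⟨σ, h⟩ := h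
  exact ⟨σ, h.trans e⟩

theorem Supp.map_le {c : R} {A : El R} (h : Supp R c A) {S : Cond} (k : R ⟶ S) {d : S}
    (hd : k c ≤ d) : Supp S d (A.map k) := by
  obtain ⟨σ, h⟩ := h
  refine ⟨σ.map (resMap k c d hd), ?_⟩
  simpa using h.map k

theorem Supp.map {c : R} {A : El R} (h : Supp R c A) {S : Cond} (k : R ⟶ S) :
    Supp S (k c) (A.map k) := h.map_le k le_rfl

theorem Supp.mono {c c' : R} {A : El R} (h : Supp R c A) (hc : c ≤ c') : Supp R c' A := by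
  simpa using h.map_le (𝟙 R) (d := c') hc

theorem supp_map {P : Cond} (σ : El P) (k : P ⟶ R) {d : R} (hd : k ⊤ ≤ d) :
    Supp R d (σ.map k) :=
  ⟨σ.map (lift k d hd), by simpa using Eqv.refl _⟩

theorem supp_top (A : El R) : Supp R ⊤ A := by
  simpa using supp_map A (𝟙 R) (d := ⊤) le_top

theorem Supp.eqv_of_agree {c : R} {A : El R} (h : Supp R c A) {S : Cond} {k₁ k₂ : R ⟶ S}
    (hk : ∀ y, y ≤ c → k₁ y = k₂ y) : Eqv (A.map k₁) (A.map k₂) := by
  obtain ⟨σ, h⟩ := h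
  refine (h.map k₁).symm.trans (Eqv.trans ?_ (h.map k₂))
  rw [El.map_map, El.map_map, incl_comp_eq_iff.2 hk]
  exact Eqv.refl _

theorem supp_of_agree {c : R} {A : El R}
    (h : ∀ (S : Cond) (k₁ k₂ : R ⟶ S), (∀ y, y ≤ c → k₁ y = k₂ y) → Eqv (A.map k₁) (A.map k₂)) :
    Supp R c A :=
  exists_descent (incl R c) A fun S k₁ k₂ hk => h S k₁ k₂ (incl_comp_eq_iff.1 hk)

/-- Equality is reflected by the inclusion of a principal ideal. -/
theorem eqv_of_incl {c : R} {a b : El (res R c)}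
    (h : Eqv (a.map (incl R c)) (b.map (incl R c))) : Eqv a b := by
  apply Eqv.of_dense
  intro S l
  obtain ⟨M, i₁, i₂, hi, -⟩ := exists_amalg R c S l
  refine ⟨M, i₁, ?_⟩
  rw [hi]
  simpa using h.map i₂

/-- Supports are closed under meets. -/
theorem Supp.inf {c c' : R} {A : El R} (h : Supp R c A) (h' : Supp R c' A) :
    Supp R (c ⊓ c') A := by
  obtain ⟨M, i₁, i₂, j, hi, hj₁, hj₂, hz⟩ := exists_zigzag R c c'
  obtain ⟨σ, hσ⟩ := h
  have h1 : Eqv (σ.map (resMap i₁ c j hj₁)) (σ.map (resMap i₂ c j hj₂)) := by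
    apply eqv_of_incl
    simp only [El.map_map, resMap_incl]
    have e1 := hσ.map i₁
    have e2 := hσ.map i₂
    rw [El.map_map] at e1 e2
    exact (e1.trans (h'.eqv_of_agree hi)).trans e2.symm
  apply supp_of_agree
  intro S k₁ k₂ hk
  apply Eqv.of_dense
  intro T l
  obtain ⟨N, n, ε₁, ε₂, h2, h3, h4⟩ := hz T (k₁ ≫ l) (k₂ ≫ l) (fun y hy => by simp [hk y hy])
  refine ⟨N, n, ?_⟩
  have e1 : resMap i₁ c j hj₁ ≫ ε₁ = incl R c ≫ k₁ ≫ l ≫ n :=
    hom_ext fun y => h2 y.1 _ rfl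
  have e2 : resMap i₁ c j hj₁ ≫ ε₂ = incl R c ≫ k₂ ≫ l ≫ n :=
    hom_ext fun y => h3 y.1 _ rfl
  have e3 : resMap i₂ c j hj₂ ≫ ε₁ = resMap i₂ c j hj₂ ≫ ε₂ :=
    hom_ext fun y => h4 y.1 _ rfl
  have f1 := h1.map ε₁
  have f2 := h1.map ε₂
  simp only [El.map_map] at f1 f2 ⊢
  rw [e1, e3] at f1
  rw [e2] at f2
  have g1 := hσ.map (k₁ ≫ l ≫ n)
  have g2 := hσ.map (k₂ ≫ l ≫ n)
  rw [El.map_map] at g1 g2
  exact ((g1.symm.trans f1).trans f2.symm).trans g2

end Crest.Agent.R296
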