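import Crest.Agent.R296.Ord

/-!
# R296 (S0448): the six single postulates of ZF are forced  (TASK R296/ZF1)

Read `Name.lean`, `Force.lean`, `Pair.lean`, `Ord.lean` first.  Unfold with
`forces_all, forces_imp, forces_iff, forces_inf, forces_sup, forces_ex, forces_not, forces_vmem,
forces_veq` (evaluate `Fin.snoc` at numerals by `show`/`change`/`rfl` lemmas; see the proofs in
`Pair.lean`), give witnesses with `Forces.ex_intro` and build them with `exists_el` or `mkEl`.
* ext: `Eqv.ext`.  pair: `upair`.  union: `exists_el` with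
  `Φ S l z := ∃ y, Mem y (a.map l) ∧ Mem z y`; this `Φ` need not be small as it stands, so use
  `Φ S l z := ∃ y w, IsDir (a.map l) y ∧ IsDir y w ∧ Eqv z w` (small index
  `Σ δ : DirAt (a.map l), DirAt δ.el`), which is densely equivalent.
* power: `Φ S l z := ∀ T m w, Mem w (z.map m) → Mem w (a.map (l ≫ m))`; small family at `(S,l)`:
  for `s : Set (Σ T (m : S ⟶ T), DirAt (a.map (l ≫ m)))` the element `mkEl s ..` of the direct
  members in `s`; a subset `z` is `Eqv` to the one with `s = {p | Mem p.el (z.map p.m)}`.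
* infinity: `ordEl ω`, `ordEl 0`, and for a member that is `ordEl o` the successor
  `ordEl (o + 1)` (`mem_ordEl`, `ordEl_map`, `ordEl_mem_ordEl`).
* foundation: by contradiction and density: if above some stage every member `y` of `a` has,
  densely, a common member with `a`, then by `El.ind` no `z` is ever a member of `a` there
  (induct on `z`: `∀ extensions, ¬ Mem (z.map _) (a.map _)`; a common member of `z` and `a` is in
  some extension `Eqv` to a direct member of `z`, `Mem.exists_dir`).
-/

set_option autoImplicit false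

open CategoryTheory FirstOrder FirstOrder.Language Crest.LogicCS.SetTheory

universe u

namespace Crest.Agent.R296

variable {C : Type u} [SmallCategory C]

theorem forces_extAx (R : C) : Forces (extAx : setL.BoundedFormula Empty 0) R Fin.elim0 := by
  intro S l a T m b U n h
  change Eqv ((a.map m).map n) (b.map n)
  apply Eqv.ext
  intro V k z
  have h1 := (forces_iff _ _ _).1 (h V k z) V (𝟙 V)
  change Mem (z.map (𝟙 V)) (((((a.map m).map n).map k)).map (𝟙 V)) ↔
    Mem (z.map (𝟙 V)) (((b.map n).map k).map (𝟙 V)) at h1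
  simpa only [El.map_id] using h1

theorem forces_pairAx (R : C) : Forces (pairAx : setL.BoundedFormula Empty 0) R Fin.elim0 := by
  intro S l a T m b
  refine Forces.ex_intro (upair (a.map m) b) ?_
  exact (forces_isUPair (2 : Fin 3) 0 1 _).2 (Eqv.refl _)

theorem exists_union {R : C} (a : El R) : ∃ u : El R, ∀ (S : C) (l : R ⟶ S) (z : El S),
    Mem z (u.map l) ↔
      Dense S (fun T m => ∃ y : El T, Mem y (a.map (l ≫ m)) ∧ Mem (z.map m) y) := by
  obtain ⟨u, hu⟩ := exists_el R
    (fun S l z => ∃ y w : El S, IsDir (a.map l) y ∧ IsDir y w ∧ Eqv z w)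
    (by
      rintro S l z T m ⟨y, w, h1, h2, h3⟩
      exact ⟨y.map m, w.map m, by simpa using h1.map m, h2.map m, h3.map m⟩)
    (by
      rintro S l z z' e ⟨y, w, h1, h2, h3⟩
      exact ⟨y, w, h1, h2, e.symm.trans h3⟩)
    (by
      intro S l
      refine ⟨Σ δ : DirAt (a.map l), DirAt δ.el, fun p => p.2.el, ?_⟩
      rintro z ⟨y, w, ⟨δ, rfl⟩, ⟨ε, rfl⟩, h3⟩
      exact ⟨⟨δ, ε⟩, h3⟩)
  refine ⟨u, fun S l z => ?_⟩
  rw [hu]
  constructor
  · intro h
    refine h.mono ?_
    rintro T m ⟨y, w, h1, h2, h3⟩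
    exact ⟨y, h1.mem, h2.mem.congr_left h3.symm⟩
  · intro h T m
    obtain ⟨T₁, m₁, y, h1, h2⟩ := h T m
    obtain ⟨T₂, m₂, y', h3, h4⟩ := h1.exists_dir
    obtain ⟨T₃, m₃, w, h5, h6⟩ := ((h2.map m₂).congr_right h4).exists_dir
    refine ⟨T₃, m₁ ≫ m₂ ≫ m₃, y'.map m₃, w, ?_, h5, ?_⟩
    · simpa using h3.map m₃
    · simpa using h6

theorem forces_unionAx (R : C) : Forces (unionAx : setL.BoundedFormula Empty 0) R Fin.elim0 := by
  intro S l a
  obtain ⟨u, hu⟩ := exists_union a
  refine Forces.ex_intro u ?_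
  intro T m z
  rw [forces_iff]
  intro U n
  rw [forces_ex]
  simp only [forces_inf]
  change Mem (z.map n) ((u.map m).map n) ↔ Dense U (fun V k => ∃ y : El V,
    Mem y (((a.map m).map n).map k) ∧ Mem ((z.map n).map k) y)
  rw [El.map_map, hu]
  simp only [El.map_map, Category.assoc]

theorem exists_power {R : C} (a : El R) : ∃ u : El R, ∀ (S : C) (l : R ⟶ S) (z : El S),
    Mem z (u.map l) ↔
      ∀ (T : C) (m : S ⟶ T) (w : El T), Mem w (z.map m) → Mem w (a.map (l ≫ m)) := by
  obtain ⟨u, hu⟩ := exists_el R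
    (fun S l z => ∀ (T : C) (m : S ⟶ T) (w : El T), Mem w (z.map m) → Mem w (a.map (l ≫ m)))
    (by
      intro S l z T m h T' m' w hw
      simpa using h T' (m ≫ m') w (by simpa using hw))
    (by
      intro S l z z' e h T m w hw
      exact h T m w (hw.congr_right (e.map m).symm))
    (by
      intro S l
      refine ⟨Set (Σ (T : C) (m : S ⟶ T), DirAt (a.map (l ≫ m))),
        fun s => mkEl s (fun p => p.1.1) (fun p => p.1.2.1) (fun p => p.1.2.2.el), ?_⟩
      intro z hz
      refine ⟨{p | Mem p.2.2.el (z.map p.2.1)}, Eqv.of_dir ?_ ?_⟩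
      · intro T m w hw
        rw [mem_mkEl]
        refine Dense.mono (hz T m w hw.mem) ?_
        rintro T' n ⟨w', h1, h2⟩
        have h1' : IsDir (a.map (l ≫ m ≫ n)) w' := by simpa using h1
        obtain ⟨δ, rfl⟩ := h1'
        refine ⟨⟨⟨T', m ≫ n, δ⟩, ?_⟩, 𝟙 T', by simp, by simpa using h2⟩
        change Mem δ.el (z.map (m ≫ n))
        simpa using (hw.mem.map n).congr_left h2
      · intro T m w hw
        rw [isDir_mkEl] at hw
        obtain ⟨⟨⟨T', m', δ⟩, hp⟩, n, hn, rfl⟩ := hw
        change Mem δ.el (z.map m') at hp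
        dsimp only at n hn ⊢
        rw [← hn]
        simpa using hp.map n)
  refine ⟨u, fun S l z => ?_⟩
  rw [hu]
  constructor
  · intro h T m w hw
    apply Mem.of_dense
    intro T' m'
    obtain ⟨T'', m'', h1⟩ := h T' (m ≫ m')
    refine ⟨T'', m'', ?_⟩
    simpa using h1 T'' (𝟙 _) (w.map (m' ≫ m'')) (by simpa using hw.map (m' ≫ m''))
  · intro h
    refine Dense.of_forall ?_
    intro T m T' m' w hw
    simpa using h T' (m ≫ m') w (by simpa using hw)

theorem forces_powerAx (R : C) : Forces (powerAx : setL.BoundedFormula Empty 0) R Fin.elim0 := by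
  intro S l a
  obtain ⟨u, hu⟩ := exists_power a
  refine Forces.ex_intro u ?_
  intro T m z
  rw [forces_iff]
  intro U n
  change Mem (z.map n) ((u.map m).map n) ↔ ∀ (V : C) (k : U ⟶ V) (w : El V) (W : C) (j : V ⟶ W),
    Mem (w.map j) (((z.map n).map k).map j) → Mem (w.map j) ((((a.map m).map n).map k).map j)
  rw [El.map_map, hu]
  simp only [El.map_map, Category.assoc]
  constructor
  · intro h V k w W j hw
    simpa using h W (k ≫ j) (w.map j) (by simpa using hw)
  · intro h V k w hw
    simpa using h V k w V (𝟙 V) (by simpa using hw)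

theorem mem_ordEl_succ (o : Ordinal.{u}) {R : C} (z : El R) :
    Mem z (ordEl (o + 1) R) ↔
      Dense R (fun S l => Mem (z.map l) (ordEl o S) ∨ Eqv (z.map l) (ordEl o S)) := by
  rw [mem_ordEl]
  constructor
  · intro h
    refine h.mono ?_
    rintro S l ⟨o', ho', h1⟩
    rcases (Order.lt_add_one_iff.1 ho').lt_or_eq with h2 | h2
    · exact Or.inl ((ordEl_mem_ordEl h2 S).congr_left h1.symm)
    · exact Or.inr (h2 ▸ h1)
  · intro h S l
    obtain ⟨T, m, h1 | h1⟩ := h S l
    · obtain ⟨T', m', o', ho', h2⟩ := ((mem_ordEl _ _).1 h1).exists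
      exact ⟨T', m ≫ m', o', ho'.trans (lt_add_one o), by simpa using h2⟩
    · exact ⟨T, m, o, lt_add_one o, h1⟩

theorem forces_infAx (R : C) : Forces (infAx : setL.BoundedFormula Empty 0) R Fin.elim0 := by
  refine Forces.ex_intro (ordEl Ordinal.omega0 R) ?_
  rw [forces_inf]
  constructor
  · refine Forces.ex_intro (ordEl 0 R) ?_
    rw [forces_inf]
    constructor
    · intro S l z T m h
      change Mem (z.map m) (((ordEl 0 R).map l).map m) at h
      rw [El.map_map] at h
      obtain ⟨_, _, o, ho, _⟩ := ((mem_ordEl _ _).1 (h.congr_right (ordEl_map _ _))).exists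
      exact absurd ho not_lt_zero
    · exact ordEl_mem_ordEl Ordinal.omega0_pos R
  · intro S l y T m hy
    change Mem (y.map m) (((ordEl Ordinal.omega0 R).map l).map m) at hy
    rw [El.map_map] at hy
    rw [forces_ex]
    refine ((mem_ordEl _ _).1 (hy.congr_right (ordEl_map _ _))).mono ?_
    rintro U n ⟨o, ho, h1⟩
    refine ⟨ordEl (o + 1) U, ?_⟩
    rw [forces_inf]
    constructor
    · change Mem (ordEl (o + 1) U) ((((ordEl Ordinal.omega0 R).map l).map m).map n)
      rw [El.map_map, El.map_map]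
      exact (ordEl_mem_ordEl (Ordinal.isSuccLimit_omega0.add_one_lt ho) U).congr_right
        (ordEl_map _ _).symm
    · intro V k z
      rw [forces_iff]
      intro W j
      rw [forces_sup]
      change Mem (z.map j) (((ordEl (o + 1) U).map k).map j) ↔ Dense W (fun X i =>
        Mem ((z.map j).map i) (((((y.map m).map n).map k).map j).map i) ∨
        Eqv ((z.map j).map i) (((((y.map m).map n).map k).map j).map i))
      rw [El.map_map, mem_congr (Eqv.refl _) (ordEl_map _ _), mem_ordEl_succ]
      have key : ∀ (X : C) (i : W ⟶ X),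
          Eqv (ordEl o X) (((((y.map m).map n).map k).map j).map i) := by
        intro X i
        have h2 := (h1.map (k ≫ j ≫ i)).trans (ordEl_map _ _)
        simpa using h2.symm
      constructor
      · exact fun H => H.mono fun X i H =>
          H.imp (fun H => H.congr_right (key X i)) fun H => H.trans (key X i)
      · exact fun H => H.mono fun X i H =>
          H.imp (fun H => H.congr_right (key X i).symm) fun H => H.trans (key X i).symm

/-- Foundation: if every member of `a` shares, in some extension, a member with `a`, then `a` has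
no member. -/
theorem not_mem_of_common {R : C} (a : El R)
    (h : ∀ (S : C) (l : R ⟶ S) (y : El S), Mem y (a.map l) →
      ∃ (T : C) (m : S ⟶ T) (w : El T), Mem w (y.map m) ∧ Mem w (a.map (l ≫ m))) :
    ∀ (S : C) (z : El S) (T : C) (m : S ⟶ T) (l : R ⟶ T), ¬ Mem (z.map m) (a.map l) := by
  apply El.ind
  intro S z ih T m l hz
  obtain ⟨T₁, m₁, w, h1, h2⟩ := h T l _ hz
  obtain ⟨T₂, m₂, w', h3, h4⟩ := h1.exists_dir
  refine ih T₂ (m ≫ m₁ ≫ m₂) w' (by simpa using h3) T₂ (𝟙 _) (l ≫ m₁ ≫ m₂) ?_
  simpa using (h2.map m₂).congr_left h4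

theorem forces_foundAx (R : C) : Forces (foundAx : setL.BoundedFormula Empty 0) R Fin.elim0 := by
  intro S l a T m h
  rw [forces_ex] at h ⊢
  simp only [forces_inf, forces_not, forces_ex]
  change Dense T (fun U n => ∃ y : El U, Mem y ((a.map m).map n)) at h
  change Dense T (fun U n => ∃ y : El U, Mem y ((a.map m).map n) ∧ ∀ (V : C) (k : U ⟶ V),
    ¬ Dense V (fun W j => ∃ w : El W, Mem w ((y.map k).map j) ∧
      Mem w ((((a.map m).map n).map k).map j)))
  intro U n
  by_contra hcon
  obtain ⟨U', n', y, hy⟩ := h U n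
  refine not_mem_of_common (a.map (m ≫ n)) ?_ U' y U' (𝟙 _) n' (by simpa using hy)
  intro V k y' hy'
  by_contra hcon'
  refine hcon ⟨V, k, y', by simpa using hy', ?_⟩
  intro W j hd
  obtain ⟨X, i, w, h1, h2⟩ := hd.exists
  exact hcon' ⟨X, j ≫ i, w, by simpa using h1, by simpa using h2⟩

end Crest.Agent.R296
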