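import Crest.Agent.R296.Force

/-!
# R296 (S0448): the separation and replacement schemes are forced  (TASK R296/ZF2)

Read `Name.lean`, `Force.lean` first.  Start with `forces_alls`.  Use `forces_liftAt` and identify
the resulting assignments with `Fin.snoc (mapv xs l) z` (resp. `Fin.snoc (Fin.snoc (mapv xs l) x) y`)
by `funext` and case analysis on the index (prove these as separate lemmas).
* separation: `exists_el` with `Φ S l z := Mem' ∧ Forces φ S (snoc (mapv xs l) z)` where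
  `Mem' := ∃ w, IsDir (a.map l) w ∧ Eqv z w` (small index `DirAt (a.map l)`); `Forces.map`,
  `Forces.congr_snoc`, `Forces.of_dense`.
* replacement: the hypothesis is only used for existence.  Take `b := mkEl` over the small index
  `{p : Σ S (l : R ⟶ S), DirAt (a.map l) // ∃ y, Forces φ S (snoc (snoc (mapv xs l) p.el) y)}`
  with a chosen `y`.  For a member `x` of `a` and any extension, pass to an extension where `x` is
  `Eqv` to a direct member and some `y` with `φ` exists; the chosen `y'` is a direct member of `b`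
  (`isDir_mkEl`) and satisfies `φ` with `x` (`Forces.congr`).
-/

set_option autoImplicit false

open CategoryTheory FirstOrder FirstOrder.Language Crest.LogicCS.SetTheory

universe u

namespace Crest.Agent.R296

variable {C : Type u} [SmallCategory C]

section idx

variable {α : Type*} {k : ℕ}

theorem zf2_lt (xs : Fin k → α) (a : α) (i : ℕ) (h : i < k + 1) (hi : i < k) :
    (Fin.snoc xs a : Fin (k + 1) → α) ⟨i, h⟩ = xs ⟨i, hi⟩ :=
  Fin.snoc_castSucc (α := fun _ => α) a xs ⟨i, hi⟩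

theorem zf2_last (xs : Fin k → α) (a : α) (h : k < k + 1) :
    (Fin.snoc xs a : Fin (k + 1) → α) ⟨k, h⟩ = a :=
  Fin.snoc_last (α := fun _ => α) a xs

theorem zf2_sep_lift (xs : Fin k → α) (a b z : α) :
    ((Fin.snoc (Fin.snoc (Fin.snoc xs a : Fin (k + 1) → α) b : Fin (k + 2) → α) z :
      Fin (k + 1 + 2) → α) ∘
      fun i : Fin (k + 1) => if (i : ℕ) < k then Fin.castAdd 2 i else Fin.addNat i 2) =
      Fin.snoc xs z := by
  funext ⟨i, hi⟩
  by_cases h : i < k
  · simp only [Function.comp_apply, if_pos h]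
    exact (zf2_lt _ z i _ (by omega)).trans ((zf2_lt _ b i _ hi).trans rfl |>.trans
      ((zf2_lt xs a i hi h).trans (zf2_lt xs z i hi h).symm))
  · obtain rfl : i = k := by omega
    simp only [Function.comp_apply, if_neg h]
    exact (zf2_last _ z _).trans (zf2_last xs z hi).symm

theorem zf2_repl_lift1 (xs : Fin k → α) (a x y : α) :
    ((Fin.snoc (Fin.snoc (Fin.snoc xs a : Fin (k + 1) → α) x : Fin (k + 2) → α) y :
      Fin (k + 2 + 1) → α) ∘
      fun i : Fin (k + 2) => if (i : ℕ) < k then Fin.castAdd 1 i else Fin.addNat i 1) =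
      Fin.snoc (Fin.snoc xs x : Fin (k + 1) → α) y := by
  funext ⟨i, hi⟩
  by_cases h : i < k
  · simp only [Function.comp_apply, if_pos h]
    exact (zf2_lt _ y i _ hi).trans ((zf2_lt _ x i _ (by omega)).trans
      ((zf2_lt xs a i _ h).trans ((zf2_lt xs x i _ h).symm.trans
        (zf2_lt _ y i hi (by omega)).symm)))
  · simp only [Function.comp_apply, if_neg h]
    by_cases h' : i = k
    · subst h'
      exact (zf2_lt _ y (i + 1) _ (by omega)).trans ((zf2_last _ x _).trans
        ((zf2_last xs x _).symm.trans (zf2_lt _ y i hi (by omega)).symm))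
    · obtain rfl : i = k + 1 := by omega
      exact (zf2_last _ y _).trans (zf2_last _ y hi).symm

theorem zf2_repl_lift2 (xs : Fin k → α) (a b x y : α) :
    ((Fin.snoc (Fin.snoc (Fin.snoc (Fin.snoc xs a : Fin (k + 1) → α) b : Fin (k + 2) → α) x :
      Fin (k + 3) → α) y : Fin (k + 2 + 2) → α) ∘
      fun i : Fin (k + 2) => if (i : ℕ) < k then Fin.castAdd 2 i else Fin.addNat i 2) =
      Fin.snoc (Fin.snoc xs x : Fin (k + 1) → α) y := by
  funext ⟨i, hi⟩
  by_cases h : i < k
  · simp only [Function.comp_apply, if_pos h]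
    exact (zf2_lt _ y i _ (by omega)).trans ((zf2_lt _ x i _ hi).trans
      ((zf2_lt _ b i _ (by omega)).trans
      ((zf2_lt xs a i _ h).trans ((zf2_lt xs x i _ h).symm.trans
        (zf2_lt _ y i hi (by omega)).symm))))
  · simp only [Function.comp_apply, if_neg h]
    by_cases h' : i = k
    · subst h'
      exact (zf2_lt _ y (i + 2) _ (by omega)).trans ((zf2_last _ x _).trans
        ((zf2_last xs x _).symm.trans (zf2_lt _ y i hi (by omega)).symm))
    · obtain rfl : i = k + 1 := by omega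
      exact (zf2_last _ y _).trans (zf2_last _ y hi).symm

end idx

theorem zf2_sep {k : ℕ} (φ : setL.BoundedFormula Empty (k + 1)) {R : C} (xs : Fin k → El R)
    (a : El R) : ∃ b : El R, ∀ (S : C) (l : R ⟶ S) (z : El S),
      Mem z (b.map l) ↔ Mem z (a.map l) ∧ Forces φ S (Fin.snoc (mapv xs l) z) := by
  obtain ⟨b, hb⟩ := exists_el R
    (fun S l z => (∃ w, IsDir (a.map l) w ∧ Eqv z w) ∧ Forces φ S (Fin.snoc (mapv xs l) z))
    (by
      rintro S l z T m ⟨⟨w, h1, h2⟩, h3⟩
      exact ⟨⟨w.map m, by simpa using h1.map m, h2.map m⟩, by simpa using h3.map m⟩)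
    (by
      rintro S l z z' e ⟨⟨w, h1, h2⟩, h3⟩
      exact ⟨⟨w, h1, e.symm.trans h2⟩, h3.congr_snoc e⟩)
    (by
      intro S l
      refine ⟨DirAt (a.map l), fun δ => δ.el, ?_⟩
      rintro z ⟨⟨w, ⟨δ, rfl⟩, h2⟩, -⟩
      exact ⟨δ, h2⟩)
  refine ⟨b, fun S l z => ?_⟩
  rw [hb]
  constructor
  · intro h
    constructor
    · refine Dense.mono h ?_
      rintro T m ⟨⟨w, h1, h2⟩, -⟩
      exact ⟨w, by simpa using h1, h2⟩
    · apply Forces.of_dense
      refine Dense.mono h ?_
      rintro T m ⟨-, h3⟩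
      simpa using h3
  · rintro ⟨h1, h2⟩
    refine Dense.mono h1 ?_
    rintro T m ⟨w, h3, h4⟩
    exact ⟨⟨w, by simpa using h3, h4⟩, by simpa using h2.map m⟩

theorem forces_sepAx (k : ℕ) (φ : setL.BoundedFormula Empty (k + 1)) (R : C) :
    Forces (sepAx k φ : setL.BoundedFormula Empty 0) R Fin.elim0 := by
  refine forces_alls _ (fun S xs => ?_) R
  rw [forces_all]
  intro S' l a
  generalize mapv xs l = ys
  obtain ⟨b, hb⟩ := zf2_sep φ ys a
  refine Forces.ex_intro b ?_
  rw [forces_all]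
  intro T m z
  rw [forces_iff]
  intro T' m'
  rw [forces_inf, forces_vmem, forces_vmem, forces_liftAt _ _ (Nat.le_succ k)]
  simp only [mapv_snoc, mapv_mapv, El.map_map]
  rw [zf2_sep_lift, zf2_last, zf2_lt _ _ (k + 1) _ (by omega), zf2_last,
    zf2_lt _ _ k _ (by omega), zf2_lt _ _ k _ (by omega), zf2_last]
  exact hb _ _ _

theorem zf2_repl {k : ℕ} (φ : setL.BoundedFormula Empty (k + 2)) {R : C} (xs : Fin k → El R)
    (a : El R) : ∃ b : El R, ∀ (S : C) (l : R ⟶ S) (x y : El S), IsDir (a.map l) x →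
      Forces φ S (Fin.snoc (Fin.snoc (mapv xs l) x : Fin (k + 1) → El S) y) →
      ∃ y', Mem y' (b.map l) ∧
        Forces φ S (Fin.snoc (Fin.snoc (mapv xs l) x : Fin (k + 1) → El S) y') := by
  refine ⟨mkEl {p : Σ (S : C) (l : R ⟶ S), DirAt (a.map l) // ∃ y, Forces φ p.1
      (Fin.snoc (Fin.snoc (mapv xs p.2.1) p.2.2.el : Fin (k + 1) → El p.1) y)}
    (fun p => p.1.1) (fun p => p.1.2.1) (fun p => p.2.choose), ?_⟩
  rintro S l x y ⟨δ, rfl⟩ h
  have hex : ∃ y, Forces φ S (Fin.snoc (Fin.snoc (mapv xs l) δ.el : Fin (k + 1) → El S) y) :=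
    ⟨y, h⟩
  refine ⟨hex.choose, IsDir.mem ?_, hex.choose_spec⟩
  rw [isDir_mkEl]
  exact ⟨⟨⟨S, l, δ⟩, hex⟩, 𝟙 S, by simp, by simp⟩

theorem forces_replAx (k : ℕ) (φ : setL.BoundedFormula Empty (k + 2)) (R : C) :
    Forces (replAx k φ : setL.BoundedFormula Empty 0) R Fin.elim0 := by
  refine forces_alls _ (fun S xs => ?_) R
  rw [forces_all]
  intro S' l a
  generalize mapv xs l = ys
  rw [forces_imp]
  intro S₁ l₁ H
  rw [mapv_snoc] at H ⊢
  generalize mapv ys l₁ = zs at H ⊢
  generalize a.map l₁ = c at H ⊢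
  obtain ⟨b, hb⟩ := zf2_repl φ zs c
  refine Forces.ex_intro b ?_
  rw [forces_all]
  intro T m x
  rw [forces_imp]
  intro T' m' hx
  rw [forces_vmem] at hx
  simp only [mapv_snoc, mapv_mapv, El.map_map] at hx ⊢
  rw [zf2_last, zf2_lt _ _ k _ (by omega), zf2_lt _ _ k _ (by omega), zf2_last] at hx
  rw [forces_ex]
  intro T₁ n₁
  obtain ⟨T₂, n₂, w, hw1, hw2⟩ := hx T₁ n₁
  rw [El.map_map] at hw1
  have H1 := H T₂ ((m ≫ m') ≫ n₁ ≫ n₂) w T₂ (𝟙 _) (by
    rw [forces_vmem]
    simp only [mapv_id, mapv_snoc]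
    rw [zf2_last, zf2_lt _ _ k _ (by omega), zf2_last]
    exact hw1.mem)
  obtain ⟨T₃, n₃, y, hy⟩ := ((forces_ex _ _).1 H1).exists
  have hy1 := ((forces_inf _ _ _).1 hy).1
  rw [forces_liftAt _ _ (by omega)] at hy1
  simp only [mapv_id, mapv_snoc, mapv_mapv, El.map_map] at hy1
  rw [zf2_repl_lift1] at hy1
  obtain ⟨y', h1, h2⟩ := hb T₃ _ (w.map n₃) y (by simpa using hw1.map n₃) hy1
  refine ⟨T₃, n₂ ≫ n₃, y', ?_⟩
  rw [forces_inf, forces_vmem, forces_liftAt _ _ (by omega)]
  simp only [mapv_snoc, mapv_mapv, El.map_map]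
  rw [zf2_repl_lift2, zf2_last, zf2_lt _ _ (k + 1) _ (by omega),
    zf2_lt _ _ (k + 1) _ (by omega), zf2_last]
  refine ⟨by simpa using h1, ?_⟩
  have e : Eqv (w.map n₃) (x.map (m' ≫ n₁ ≫ n₂ ≫ n₃)) := by simpa using (hw2.map n₃).symm
  have h3 := h2.congr (ys := Fin.snoc (Fin.snoc (mapv zs (((m ≫ m') ≫ n₁ ≫ n₂) ≫ n₃))
      (x.map (m' ≫ n₁ ≫ n₂ ≫ n₃)) : Fin (k + 1) → El T₃) y') fun i => by
    refine Fin.lastCases ?_ (fun i => ?_) i
    · simpa using Eqv.refl y'
    · refine Fin.lastCases ?_ (fun i => ?_) i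
      · simpa using e
      · simpa using Eqv.refl _
  simpa using h3

end Crest.Agent.R296
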